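import Vale.Agent.P340.Defs

/-! P340: the abstract Burali-Forti paradox. -/

namespace Vale.Agent.P340

universe u

def EnvOk {α : Type u} (D : ℕ → α → Prop) (Γ : List (Bool × ℕ)) (env : ℕ → α) : Prop :=
  ∀ n w i, Γ[n]? = some (w, i) → D i (env n)

/-- A tower of levels with membership, quantifiable elements, definable predicates in two
worlds (`true` is the generic world) and a theory map from level 4 to level 0. -/
structure Lang (α : Type u) where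
  D : ℕ → α → Prop
  mem : ℕ → α → α → Prop
  Qu : ℕ → α → Prop
  th : α → α
  DF : List (Bool × ℕ) → ((ℕ → α) → Prop) → Prop
  qu_D : ∀ {i p}, Qu i p → D (i + 1) p
  qu_ex : ∀ {i p}, D (i + 1) p → ∃ p', Qu i p' ∧ ∀ a, D i a → (mem i a p' ↔ mem i a p)
  th_D : ∀ {Φ}, D 4 Φ → D 0 (th Φ)
  df_congr : ∀ {Γ P P'}, DF Γ P → (∀ env, EnvOk D Γ env → (P env ↔ P' env)) → DF Γ P'
  df_mem : ∀ {Γ n k w i}, Γ[n]? = some (w, i) → Γ[k]? = some (w, i + 1) →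
    DF Γ (fun env => mem i (env n) (env k))
  df_th : ∀ {Γ n k w}, Γ[n]? = some (w, 4) → Γ[k]? = some (false, 1) →
    DF Γ (fun env => mem 0 (th (env n)) (env k))
  df_nand : ∀ {Γ P P'}, DF Γ P → DF Γ P' → DF Γ (fun env => ¬ (P env ∧ P' env))
  df_alln : ∀ {Γ w i P}, DF ((w, i + 1) :: Γ) P →
    DF Γ (fun env => ∀ p, Qu i p → ¬ P (scons p env))
  compr : ∀ {Γ w i P env}, DF ((w, i) :: Γ) P → EnvOk D Γ env →
    ∃ p, D (i + 1) p ∧ ∀ a, D i a → (mem i a p ↔ P (scons a env))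
  gen : ∀ {Γ P env}, DF ((true, 4) :: Γ) P → (∀ x ∈ Γ, x.1 = false) → EnvOk D Γ env →
    ∃ q, D 1 q ∧ ∀ Φ, D 4 Φ → (mem 0 (th Φ) q ↔ P (scons Φ env))

namespace Lang

variable {α : Type u} (L : Lang α)

theorem envOk_cons {Γ : List (Bool × ℕ)} {env : ℕ → α} {w : Bool} {i : ℕ} {a : α}
    (h : EnvOk L.D Γ env) (ha : L.D i a) : EnvOk L.D ((w, i) :: Γ) (scons a env) := by
  intro n w' i' hn
  cases n with
  | zero =>
    simp only [List.getElem?_cons_zero, Option.some.injEq, Prod.mk.injEq] at hn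
    exact hn.2 ▸ ha
  | succ n => exact h n w' i' (by simpa using hn)

theorem envOk_nil (env : ℕ → α) : EnvOk L.D [] env := by
  intro n w i hn
  simp at hn

section connectives
variable {L} {Γ : List (Bool × ℕ)} {P P' : (ℕ → α) → Prop}

theorem df_not (h : L.DF Γ P) : L.DF Γ (fun env => ¬ P env) :=
  L.df_congr (L.df_nand h h) (fun _ _ => by simp)
theorem df_and (h : L.DF Γ P) (h' : L.DF Γ P') : L.DF Γ (fun env => P env ∧ P' env) :=
  L.df_congr (df_not (L.df_nand h h')) (fun _ _ => by simp only [not_not])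
theorem df_imp (h : L.DF Γ P) (h' : L.DF Γ P') : L.DF Γ (fun env => P env → P' env) :=
  L.df_congr (L.df_nand h (df_not h')) (fun _ _ => by tauto)
theorem df_or (h : L.DF Γ P) (h' : L.DF Γ P') : L.DF Γ (fun env => P env ∨ P' env) :=
  L.df_congr (L.df_nand (df_not h) (df_not h')) (fun _ _ => by tauto)
theorem df_iff (h : L.DF Γ P) (h' : L.DF Γ P') : L.DF Γ (fun env => P env ↔ P' env) :=
  L.df_congr (df_and (df_imp h h') (df_imp h' h)) (fun _ _ => by tauto)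
theorem df_all {w : Bool} {i : ℕ} (h : L.DF ((w, i + 1) :: Γ) P) :
    L.DF Γ (fun env => ∀ p, L.Qu i p → P (scons p env)) :=
  L.df_congr (L.df_alln (df_not h)) (fun _ _ => by simp only [not_not])
theorem df_ex {w : Bool} {i : ℕ} (h : L.DF ((w, i + 1) :: Γ) P) :
    L.DF Γ (fun env => ∃ p, L.Qu i p ∧ P (scons p env)) :=
  L.df_congr (df_not (L.df_alln h)) (fun _ _ => by simp)

end connectives

def s2 (x : α) : Set α := {q | L.Qu 0 q ∧ L.mem 1 q x}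
def s3 (p : α) : Set (Set α) := {X | ∃ x, L.Qu 1 x ∧ L.s2 x = X ∧ L.mem 2 x p}
def s4 (Φ : α) : Set (Set (Set α)) := {P | ∃ p, L.Qu 2 p ∧ L.s3 p = P ∧ L.mem 3 p Φ}
def tt (F : Set (Set (Set α))) : Set α :=
  {q | L.Qu 0 q ∧ ∃ Φ, L.Qu 3 Φ ∧ L.s4 Φ = F ∧ L.mem 0 (L.th Φ) q}
def res (F : Set (Set (Set α))) (P : Set (Set α)) : Set (Set (Set α)) :=
  {P' | P' ∈ F ∧ P' ⊆ P ∧ ¬ P ⊆ P'}
def Pt (X : Set α) : Prop := ∃ x, L.Qu 1 x ∧ L.s2 x = X
def Pr (P : Set (Set α)) : Prop := ∃ p, L.Qu 2 p ∧ L.s3 p = P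
def St (F : Set (Set (Set α))) : Prop := ∃ Φ, L.Qu 3 Φ ∧ L.s4 Φ = F
def Seg (X : Set α) (F : Set (Set (Set α))) : Prop := ∃ P ∈ F, X = L.tt (res F P)
def Lt (Y X : Set α) : Prop := ∃ Φ, L.Qu 3 Φ ∧ X = L.tt (L.s4 Φ) ∧ L.Seg Y (L.s4 Φ)
def W (X : Set α) : Prop :=
  ∀ p, L.Qu 2 p → (∀ y, L.Qu 1 y → (∀ z, L.Qu 1 z → L.Lt (L.s2 z) (L.s2 y) → L.s2 z ∈ L.s3 p) →
    L.s2 y ∈ L.s3 p) → X ∈ L.s3 p
def cone (X : Set α) : Set (Set α) := {Y | L.Pt Y ∧ (L.Lt Y X ∨ Y = X)}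

variable {L}

theorem pt_of_mem {X : Set α} {p : α} (h : X ∈ L.s3 p) : L.Pt X := by
  obtain ⟨x, h1, h2, -⟩ := h
  exact ⟨x, h1, h2⟩

theorem pr_of_mem {P : Set (Set α)} {Φ : α} (h : P ∈ L.s4 Φ) : L.Pr P := by
  obtain ⟨x, h1, h2, -⟩ := h
  exact ⟨x, h1, h2⟩

theorem st_of_D {Φ : α} (h : L.D 4 Φ) : L.St (L.s4 Φ) := by
  obtain ⟨Φ', h1, h2⟩ := L.qu_ex h
  refine ⟨Φ', h1, ?_⟩
  ext P
  exact exists_congr fun p => and_congr_right fun hp => and_congr_right fun _ => h2 p (L.qu_D hp)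

theorem pt_of_D {x : α} (h : L.D 2 x) : L.Pt (L.s2 x) := by
  obtain ⟨x', h1, h2⟩ := L.qu_ex h
  refine ⟨x', h1, ?_⟩
  ext q
  exact and_congr_right fun hq => h2 q (L.qu_D hq)

section compr
variable {Γ : List (Bool × ℕ)} {P : (ℕ → α) → Prop} {env : ℕ → α} {w : Bool}

theorem compr2 (h : L.DF ((w, 1) :: Γ) P) (he : EnvOk L.D Γ env) :
    L.Pt {q | L.Qu 0 q ∧ P (scons q env)} := by
  obtain ⟨x, hx, h1⟩ := L.compr h he
  obtain ⟨x', hx', h2⟩ := L.qu_ex hx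
  refine ⟨x', hx', ?_⟩
  ext q
  exact and_congr_right fun hq => (h2 q (L.qu_D hq)).trans (h1 q (L.qu_D hq))

theorem compr3 (h : L.DF ((w, 2) :: Γ) P) (he : EnvOk L.D Γ env) (A : Set α → Prop)
    (hA : ∀ x, L.D 2 x → (P (scons x env) ↔ A (L.s2 x))) : L.Pr {X | L.Pt X ∧ A X} := by
  obtain ⟨p, hp, h1⟩ := L.compr h he
  obtain ⟨p', hp', h2⟩ := L.qu_ex hp
  refine ⟨p', hp', ?_⟩
  ext X
  constructor
  · rintro ⟨x, hx, rfl, hm⟩
    exact ⟨⟨x, hx, rfl⟩, (hA x (L.qu_D hx)).1 ((h1 x (L.qu_D hx)).1 ((h2 x (L.qu_D hx)).1 hm))⟩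
  · rintro ⟨⟨x, hx, rfl⟩, hm⟩
    exact ⟨x, hx, rfl, (h2 x (L.qu_D hx)).2 ((h1 x (L.qu_D hx)).2 ((hA x (L.qu_D hx)).2 hm))⟩

theorem compr4 (h : L.DF ((w, 3) :: Γ) P) (he : EnvOk L.D Γ env) (A : Set (Set α) → Prop)
    (hA : ∀ x, L.D 3 x → (P (scons x env) ↔ A (L.s3 x))) : L.St {X | L.Pr X ∧ A X} := by
  obtain ⟨p, hp, h1⟩ := L.compr h he
  obtain ⟨p', hp', h2⟩ := L.qu_ex hp
  refine ⟨p', hp', ?_⟩
  ext X
  constructor
  · rintro ⟨x, hx, rfl, hm⟩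
    exact ⟨⟨x, hx, rfl⟩, (hA x (L.qu_D hx)).1 ((h1 x (L.qu_D hx)).1 ((h2 x (L.qu_D hx)).1 hm))⟩
  · rintro ⟨⟨x, hx, rfl⟩, hm⟩
    exact ⟨x, hx, rfl, (h2 x (L.qu_D hx)).2 ((h1 x (L.qu_D hx)).2 ((hA x (L.qu_D hx)).2 hm))⟩

end compr

section definable
variable {Γ : List (Bool × ℕ)} {w : Bool} {n k j : ℕ}

theorem df_e2 (hn : Γ[n]? = some (w, 2)) (hk : Γ[k]? = some (w, 2)) :
    L.DF Γ (fun env => L.s2 (env n) = L.s2 (env k)) := by
  refine L.df_congr (df_all (w := w) (i := 0) (df_iff (L.df_mem (n := 0) (k := n + 1) rfl hn)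
    (L.df_mem (n := 0) (k := k + 1) rfl hk))) (fun env _ => ?_)
  simp only [scons_zero, scons_succ, s2, Set.ext_iff, Set.mem_ofPred_eq, and_congr_right_iff]

theorem df_in3 (hn : Γ[n]? = some (w, 2)) (hk : Γ[k]? = some (w, 3)) :
    L.DF Γ (fun env => L.s2 (env n) ∈ L.s3 (env k)) :=
  df_ex (w := w) (i := 1) (df_and (df_e2 (n := 0) (k := n + 1) rfl hn)
    (L.df_mem (n := 0) (k := k + 1) rfl hk))

theorem df_sub3 (hn : Γ[n]? = some (w, 3)) (hk : Γ[k]? = some (w, 3)) :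
    L.DF Γ (fun env => L.s3 (env n) ⊆ L.s3 (env k)) := by
  refine L.df_congr (df_all (w := w) (i := 1) (df_imp (df_in3 (n := 0) (k := n + 1) rfl hn)
    (df_in3 (n := 0) (k := k + 1) rfl hk))) (fun env _ => ?_)
  simp only [scons_zero, scons_succ]
  refine ⟨fun h X hX => ?_, fun h x _ hx => h hx⟩
  obtain ⟨x, hx, rfl⟩ := pt_of_mem hX
  exact h x hx hX

theorem df_e3 (hn : Γ[n]? = some (w, 3)) (hk : Γ[k]? = some (w, 3)) :
    L.DF Γ (fun env => L.s3 (env n) = L.s3 (env k)) :=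
  L.df_congr (df_and (df_sub3 hn hk) (df_sub3 hk hn))
    (fun _ _ => Set.Subset.antisymm_iff.symm)

theorem df_in4 (hn : Γ[n]? = some (w, 3)) (hk : Γ[k]? = some (w, 4)) :
    L.DF Γ (fun env => L.s3 (env n) ∈ L.s4 (env k)) :=
  df_ex (w := w) (i := 2) (df_and (df_e3 (n := 0) (k := n + 1) rfl hn)
    (L.df_mem (n := 0) (k := k + 1) rfl hk))

theorem df_e4 (hn : Γ[n]? = some (w, 4)) (hk : Γ[k]? = some (w, 4)) :
    L.DF Γ (fun env => L.s4 (env n) = L.s4 (env k)) := by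
  refine L.df_congr (df_all (w := w) (i := 2) (df_iff (df_in4 (n := 0) (k := n + 1) rfl hn)
    (df_in4 (n := 0) (k := k + 1) rfl hk))) (fun env _ => ?_)
  simp only [scons_zero, scons_succ]
  refine ⟨fun h => ?_, fun h x _ => by rw [h]⟩
  ext X
  constructor
  · intro hX
    obtain ⟨x, hx, rfl⟩ := pr_of_mem hX
    exact (h x hx).1 hX
  · intro hX
    obtain ⟨x, hx, rfl⟩ := pr_of_mem hX
    exact (h x hx).2 hX

theorem df_ttq (hn : Γ[n]? = some (false, 1)) (hk : Γ[k]? = some (w, 4)) :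
    L.DF Γ (fun env => ∃ Φ, L.Qu 3 Φ ∧ L.s4 Φ = L.s4 (env k) ∧ L.mem 0 (L.th Φ) (env n)) :=
  df_ex (w := w) (i := 3) (df_and (df_e4 (n := 0) (k := k + 1) rfl hk)
    (L.df_th (n := 0) (k := n + 1) rfl hn))

theorem df_tt (hn : Γ[n]? = some (false, 2)) (hk : Γ[k]? = some (w, 4)) :
    L.DF Γ (fun env => L.s2 (env n) = L.tt (L.s4 (env k))) := by
  refine L.df_congr (df_all (w := false) (i := 0) (df_iff (L.df_mem (n := 0) (k := n + 1) rfl hn)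
    (df_ttq (n := 0) (k := k + 1) rfl hk))) (fun env _ => ?_)
  simp only [scons_zero, scons_succ, s2, tt, Set.ext_iff, Set.mem_ofPred_eq, and_congr_right_iff]

theorem df_resq (hn : Γ[n]? = some (w, 3)) (hk : Γ[k]? = some (w, 4)) (hj : Γ[j]? = some (w, 3)) :
    L.DF Γ (fun env => L.s3 (env n) ∈ res (L.s4 (env k)) (L.s3 (env j))) :=
  df_and (df_in4 hn hk) (df_and (df_sub3 hn hj) (df_not (df_sub3 hj hn)))

theorem df_res (hn : Γ[n]? = some (w, 4)) (hk : Γ[k]? = some (w, 4)) (hj : Γ[j]? = some (w, 3)) :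
    L.DF Γ (fun env => L.s4 (env n) = res (L.s4 (env k)) (L.s3 (env j))) := by
  refine L.df_congr (df_all (w := w) (i := 2) (df_iff (df_in4 (n := 0) (k := n + 1) rfl hn)
    (df_resq (n := 0) (k := k + 1) (j := j + 1) rfl hk hj))) (fun env _ => ?_)
  simp only [scons_zero, scons_succ]
  refine ⟨fun h => ?_, fun h x _ => by rw [h]⟩
  ext X
  constructor
  · intro hX
    obtain ⟨x, hx, rfl⟩ := pr_of_mem hX
    exact (h x hx).1 hX
  · intro hX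
    obtain ⟨x, hx, rfl⟩ := pr_of_mem hX.1
    exact (h x hx).2 hX

end definable

variable [Inhabited α]

theorem st_res {F : Set (Set (Set α))} {P : Set (Set α)} (hF : L.St F) (hP : L.Pr P) :
    L.St (res F P) := by
  obtain ⟨Φ, hΦ, rfl⟩ := hF
  obtain ⟨p, hp, rfl⟩ := hP
  have := compr4 (Γ := [(false, 4), (false, 3)]) (w := false)
    (env := scons Φ (scons p fun _ => default))
    (df_resq (n := 0) (k := 1) (j := 2) rfl rfl rfl)
    (L.envOk_cons (L.envOk_cons (L.envOk_nil _) (L.qu_D hp)) (L.qu_D hΦ))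
    (fun X => X ∈ res (L.s4 Φ) (L.s3 p)) (fun _ _ => Iff.rfl)
  have e : {X | L.Pr X ∧ X ∈ res (L.s4 Φ) (L.s3 p)} = res (L.s4 Φ) (L.s3 p) := by
    ext X
    exact ⟨fun h => h.2, fun h => ⟨pr_of_mem h.1, h⟩⟩
  rwa [e] at this

theorem pt_tt {F : Set (Set (Set α))} (hF : L.St F) : L.Pt (L.tt F) := by
  obtain ⟨Φ, hΦ, rfl⟩ := hF
  exact compr2 (Γ := [(false, 4)]) (w := false) (env := scons Φ fun _ => default)
    (df_ttq (n := 0) (k := 1) rfl rfl) (L.envOk_cons (L.envOk_nil _) (L.qu_D hΦ))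

section definable2
variable {Γ : List (Bool × ℕ)} {w : Bool} {n k j : ℕ}

theorem df_ttres (hn : Γ[n]? = some (false, 2)) (hk : Γ[k]? = some (w, 4))
    (hj : Γ[j]? = some (w, 3)) :
    L.DF Γ (fun env => L.Pr (L.s3 (env j)) →
      L.s2 (env n) = L.tt (res (L.s4 (env k)) (L.s3 (env j)))) := by
  refine L.df_congr (df_imp (df_ex (w := w) (i := 2) (df_e3 (n := 0) (k := j + 1) rfl hj))
    (df_ex (w := w) (i := 3) (df_and (df_res (n := 0) (k := k + 1) (j := j + 1) rfl hk hj)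
      (df_tt (n := n + 1) (k := 0) hn rfl)))) (fun env he => ?_)
  simp only [scons_zero, scons_succ]
  refine imp_congr_right fun hP => ⟨?_, fun h => ?_⟩
  · rintro ⟨Ψ, -, h1, h2⟩
    rw [h2, h1]
  · obtain ⟨Ψ, h1, h2⟩ := st_res (st_of_D (he k w 4 hk)) hP
    exact ⟨Ψ, h1, h2, by rw [h2, h]⟩

theorem df_seg (hn : Γ[n]? = some (false, 2)) (hk : Γ[k]? = some (w, 4)) :
    L.DF Γ (fun env => L.Seg (L.s2 (env n)) (L.s4 (env k))) := by
  refine L.df_congr (df_ex (w := w) (i := 2) (df_and (df_in4 (n := 0) (k := k + 1) rfl hk)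
    (df_ttres (n := n + 1) (k := k + 1) (j := 0) hn hk rfl))) (fun env _ => ?_)
  simp only [scons_zero, scons_succ]
  constructor
  · rintro ⟨p, hp, h1, h2⟩
    exact ⟨_, h1, h2 ⟨p, hp, rfl⟩⟩
  · rintro ⟨P, h1, h2⟩
    obtain ⟨p, hp, rfl⟩ := pr_of_mem h1
    exact ⟨p, hp, h1, fun _ => h2⟩

theorem df_lt (hn : Γ[n]? = some (false, 2)) (hk : Γ[k]? = some (false, 2)) :
    L.DF Γ (fun env => L.Lt (L.s2 (env n)) (L.s2 (env k))) :=
  df_ex (w := false) (i := 3) (df_and (df_tt (n := k + 1) (k := 0) hk rfl)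
    (df_seg (n := n + 1) (k := 0) hn rfl))

theorem df_W (hn : Γ[n]? = some (false, 2)) : L.DF Γ (fun env => L.W (L.s2 (env n))) :=
  df_all (w := false) (i := 2) (df_imp
    (df_all (w := false) (i := 1) (df_imp
      (df_all (w := false) (i := 1) (df_imp (df_lt (n := 0) (k := 1) rfl rfl)
        (df_in3 (n := 0) (k := 2) rfl rfl)))
      (df_in3 (n := 0) (k := 1) rfl rfl)))
    (df_in3 (n := n + 1) (k := 0) hn rfl))

theorem df_cone (hn : Γ[n]? = some (false, 3)) (hk : Γ[k]? = some (false, 2)) :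
    L.DF Γ (fun env => L.s3 (env n) = L.cone (L.s2 (env k))) := by
  refine L.df_congr (df_all (w := false) (i := 1) (df_iff (df_in3 (n := 0) (k := n + 1) rfl hn)
    (df_or (df_lt (n := 0) (k := k + 1) rfl hk) (df_e2 (n := 0) (k := k + 1) rfl hk))))
    (fun env _ => ?_)
  simp only [scons_zero, scons_succ]
  constructor
  · intro h
    ext X
    constructor
    · intro hX
      obtain ⟨x, hx, rfl⟩ := pt_of_mem hX
      exact ⟨⟨x, hx, rfl⟩, (h x hx).1 hX⟩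
    · rintro ⟨⟨x, hx, rfl⟩, hX⟩
      exact (h x hx).2 hX
  · intro h x hx
    rw [h]
    exact ⟨fun h => h.2, fun h => ⟨⟨x, hx, rfl⟩, h⟩⟩

end definable2

theorem pr_cone {X : Set α} (hX : L.Pt X) : L.Pr (L.cone X) := by
  obtain ⟨x, hx, rfl⟩ := hX
  exact compr3 (Γ := [(false, 2)]) (w := false) (env := scons x fun _ => default)
    (df_or (df_lt (n := 0) (k := 1) rfl rfl) (df_e2 (n := 0) (k := 1) rfl rfl))
    (L.envOk_cons (L.envOk_nil _) (L.qu_D hx)) _ (fun _ _ => Iff.rfl)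

theorem df_delta {Γ : List (Bool × ℕ)} {n k j : ℕ} (hn : Γ[n]? = some (false, 2))
    (hk : Γ[k]? = some (false, 4)) (hj : Γ[j]? = some (false, 2)) :
    L.DF Γ (fun env => L.s2 (env n) = L.tt (res (L.s4 (env k)) (L.cone (L.s2 (env j))))) := by
  refine L.df_congr (df_ex (w := false) (i := 2) (df_and (df_cone (n := 0) (k := j + 1) rfl hj)
    (df_ttres (n := n + 1) (k := k + 1) (j := 0) hn hk rfl))) (fun env he => ?_)
  simp only [scons_zero, scons_succ]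
  constructor
  · rintro ⟨p, hp, h1, h2⟩
    rw [← h1]
    exact h2 ⟨p, hp, rfl⟩
  · intro h
    obtain ⟨p, hp, h1⟩ := pr_cone (pt_of_D (he j false 2 hj))
    exact ⟨p, hp, h1, fun _ => by rw [h1, h]⟩

/-- Structures with the same point have the same segments. -/
theorem seg_of_tt {F F' : Set (Set (Set α))} (hF : L.St F) (h : L.tt F = L.tt F') {X : Set α}
    (hX : L.Seg X F) : L.Seg X F' := by
  have hpt : L.Pt X := by
    obtain ⟨P, hP, rfl⟩ := hX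
    obtain ⟨Φ, hΦ, rfl⟩ := hF
    exact pt_tt (st_res ⟨Φ, hΦ, rfl⟩ (pr_of_mem hP))
  obtain ⟨x, hx, rfl⟩ := hpt
  obtain ⟨q, hq, h1⟩ := L.gen (Γ := [(false, 2)]) (env := scons x fun _ => default)
    (df_seg (n := 1) (k := 0) rfl rfl) (by simp) (L.envOk_cons (L.envOk_nil _) (L.qu_D hx))
  obtain ⟨q', hq', h2⟩ := L.qu_ex hq
  obtain ⟨Φ, hΦ, rfl⟩ := hF
  have hm : q' ∈ L.tt (L.s4 Φ) :=
    ⟨hq', Φ, hΦ, rfl, (h2 _ (L.th_D (L.qu_D hΦ))).2 ((h1 Φ (L.qu_D hΦ)).2 hX)⟩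
  rw [h] at hm
  obtain ⟨-, Φ', hΦ', rfl, hm⟩ := hm
  exact (h1 Φ' (L.qu_D hΦ')).1 ((h2 _ (L.th_D (L.qu_D hΦ'))).1 hm)

theorem lt_tt {F : Set (Set (Set α))} (hF : L.St F) {Y : Set α} :
    L.Lt Y (L.tt F) ↔ L.Seg Y F := by
  constructor
  · rintro ⟨Φ, hΦ, h1, h2⟩
    exact seg_of_tt ⟨Φ, hΦ, rfl⟩ h1.symm h2
  · obtain ⟨Φ, hΦ, rfl⟩ := hF
    exact fun h => ⟨Φ, hΦ, rfl, h⟩

omit [Inhabited α] in
theorem res_res {F : Set (Set (Set α))} {P P' : Set (Set α)} (h : P' ∈ res F P) :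
    res (res F P) P' = res F P' := by
  ext X
  exact ⟨fun hX => ⟨hX.1.1, hX.2⟩, fun hX => ⟨⟨hX.1, hX.2.1.trans h.2.1,
    fun hP => h.2.2 (hP.trans hX.2.1)⟩, hX.2⟩⟩

theorem lt_pt {Y X : Set α} (h : L.Lt Y X) : L.Pt Y := by
  obtain ⟨Φ, hΦ, -, P, hP, rfl⟩ := h
  exact pt_tt (st_res ⟨Φ, hΦ, rfl⟩ (pr_of_mem hP))

theorem lt_trans' {Z Y X : Set α} (h : L.Lt Z Y) (h' : L.Lt Y X) : L.Lt Z X := by
  obtain ⟨Φ, hΦ, rfl, P, hP, rfl⟩ := h'
  obtain ⟨P', hP', rfl⟩ := (lt_tt (st_res ⟨Φ, hΦ, rfl⟩ (pr_of_mem hP))).1 h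
  exact ⟨Φ, hΦ, rfl, P', hP'.1, by rw [res_res hP']⟩

theorem W_ind {Γ : List (Bool × ℕ)} {P : (ℕ → α) → Prop} {env : ℕ → α}
    (h : L.DF ((false, 2) :: Γ) P) (he : EnvOk L.D Γ env) (A : Set α → Prop)
    (hA : ∀ x, L.D 2 x → (P (scons x env) ↔ A (L.s2 x)))
    (hp : ∀ Y, L.Pt Y → (∀ Z, L.Lt Z Y → A Z) → A Y) {X : Set α} (hX : L.W X) : A X := by
  obtain ⟨p, hq, e⟩ := compr3 h he A hA
  have := hX p hq (by
    intro y hy hz
    rw [e] at hz ⊢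
    refine ⟨⟨y, hy, rfl⟩, hp _ ⟨y, hy, rfl⟩ fun Z hZ => ?_⟩
    obtain ⟨z, hz', rfl⟩ := lt_pt hZ
    exact (hz z hz' hZ).2)
  rw [e] at this
  exact this.2

omit [Inhabited α] in
theorem W_prog {Y : Set α} (hY : L.Pt Y) (h : ∀ Z, L.Lt Z Y → L.W Z) : L.W Y := by
  obtain ⟨y, hy, rfl⟩ := hY
  exact fun p hp hprog => hprog y hy fun z _ hz => h _ hz p hp hprog

theorem W_down {X Y : Set α} (hX : L.W X) (h : L.Lt Y X) : L.W Y := by
  have := W_ind (Γ := []) (env := fun _ => default)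
    (df_all (w := false) (i := 1) (df_imp (df_lt (n := 0) (k := 1) rfl rfl) (df_W (n := 0) rfl)))
    (L.envOk_nil _) (fun X => ∀ z, L.Qu 1 z → L.Lt (L.s2 z) X → L.W (L.s2 z))
    (fun _ _ => Iff.rfl) (fun Y _ ih z hz hzY => W_prog ⟨z, hz, rfl⟩ fun Z hZ => by
      obtain ⟨z', hz', rfl⟩ := lt_pt hZ
      exact ih _ hzY z' hz' hZ) hX
  obtain ⟨y, hy, rfl⟩ := lt_pt h
  exact this y hy h

theorem W_irrefl {X : Set α} (hX : L.W X) : ¬ L.Lt X X :=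
  W_ind (Γ := []) (env := fun _ => default) (df_not (df_lt (n := 0) (k := 0) rfl rfl))
    (L.envOk_nil _) (fun X => ¬ L.Lt X X) (fun _ _ => Iff.rfl) (fun Y _ ih h => ih Y h h) hX

theorem paradox (L : Lang α) : False := by
  obtain ⟨Ω, hΩ, eΩ⟩ := compr4 (L := L) (Γ := []) (w := false) (env := fun _ => default)
    (df_ex (w := false) (i := 1) (df_and (df_W (n := 0) rfl) (df_cone (n := 1) (k := 0) rfl rfl)))
    (L.envOk_nil _) (fun P => ∃ x, L.Qu 1 x ∧ L.W (L.s2 x) ∧ P = L.cone (L.s2 x))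
    (fun _ _ => Iff.rfl)
  have hst : L.St (L.s4 Ω) := ⟨Ω, hΩ, rfl⟩
  have memΩ : ∀ P, P ∈ L.s4 Ω ↔ ∃ X, L.Pt X ∧ L.W X ∧ P = L.cone X := by
    intro P
    rw [eΩ]
    constructor
    · rintro ⟨-, x, hx, h1, h2⟩
      exact ⟨_, ⟨x, hx, rfl⟩, h1, h2⟩
    · rintro ⟨_, ⟨x, hx, rfl⟩, h1, rfl⟩
      exact ⟨pr_cone ⟨x, hx, rfl⟩, x, hx, h1, rfl⟩
  have memR : ∀ X, L.Pt X → L.W X → ∀ P, P ∈ res (L.s4 Ω) (L.cone X) ↔
      ∃ Y, L.Lt Y X ∧ P = L.cone Y := by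
    intro X hX hW P
    constructor
    · rintro ⟨h1, h2, h3⟩
      obtain ⟨Y, hY, -, rfl⟩ := (memΩ P).1 h1
      rcases (h2 ⟨hY, Or.inr rfl⟩).2 with h | rfl
      · exact ⟨Y, h, rfl⟩
      · exact absurd (fun _ h => h) h3
    · rintro ⟨Y, hY, rfl⟩
      refine ⟨(memΩ _).2 ⟨Y, lt_pt hY, W_down hW hY, rfl⟩, ?_, fun h => ?_⟩
      · rintro Z ⟨hZ, h | rfl⟩
        · exact ⟨hZ, Or.inl (lt_trans' h hY)⟩
        · exact ⟨hZ, Or.inl hY⟩
      · rcases (h ⟨hX, Or.inr rfl⟩).2 with h | rfl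
        · exact W_irrefl hW (lt_trans' h hY)
        · exact W_irrefl hW hY
  have ltδ : ∀ X, L.Pt X → L.W X → ∀ Z, L.Lt Z (L.tt (res (L.s4 Ω) (L.cone X))) ↔
      ∃ Y, L.Lt Y X ∧ Z = L.tt (res (L.s4 Ω) (L.cone Y)) := by
    intro X hX hW Z
    rw [lt_tt (st_res hst (pr_cone hX))]
    constructor
    · rintro ⟨P, hP, rfl⟩
      rw [res_res hP]
      obtain ⟨Y, hY, rfl⟩ := (memR X hX hW P).1 hP
      exact ⟨Y, hY, rfl⟩
    · rintro ⟨Y, hY, rfl⟩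
      have hP := (memR X hX hW _).2 ⟨Y, hY, rfl⟩
      exact ⟨_, hP, by rw [res_res hP]⟩
  have heΩ : EnvOk L.D [(false, 4)] (scons Ω fun _ => default) :=
    L.envOk_cons (L.envOk_nil _) (L.qu_D hΩ)
  have Wδ : ∀ X, L.W X → L.W (L.tt (res (L.s4 Ω) (L.cone X))) := by
    intro X hX
    refine W_ind (df_imp (df_W (n := 0) rfl) (df_ex (w := false) (i := 1)
      (df_and (df_delta (n := 0) (k := 2) (j := 1) rfl rfl rfl) (df_W (n := 0) rfl)))) heΩ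
      (fun X => L.W X → L.W (L.tt (res (L.s4 Ω) (L.cone X)))) ?_ ?_ hX hX
    · intro x hx
      simp only [scons_zero, scons_succ]
      refine imp_congr_right fun _ => ⟨?_, fun h => ?_⟩
      · rintro ⟨d, -, h1, h2⟩
        rwa [← h1]
      · obtain ⟨d, hd, e⟩ := pt_tt (st_res hst (pr_cone (pt_of_D hx)))
        exact ⟨d, hd, e, e ▸ h⟩
    · intro Y hY ih hW
      refine W_prog (pt_tt (st_res hst (pr_cone hY))) fun Z hZ => ?_
      obtain ⟨Y', hY', rfl⟩ := (ltδ Y hY hW Z).1 hZ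
      exact ih Y' hY' (W_down hW hY')
  have nδ : ∀ X, L.W X → ¬ L.Lt (L.tt (res (L.s4 Ω) (L.cone X))) X := by
    intro X hX
    refine W_ind (df_imp (df_W (n := 0) rfl) (df_not (df_ex (w := false) (i := 1)
      (df_and (df_delta (n := 0) (k := 2) (j := 1) rfl rfl rfl)
        (df_lt (n := 0) (k := 1) rfl rfl))))) heΩ
      (fun X => L.W X → ¬ L.Lt (L.tt (res (L.s4 Ω) (L.cone X))) X) ?_ ?_ hX hX
    · intro x hx
      simp only [scons_zero, scons_succ]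
      refine imp_congr_right fun _ => not_congr ⟨?_, fun h => ?_⟩
      · rintro ⟨d, -, h1, h2⟩
        rwa [← h1]
      · obtain ⟨d, hd, e⟩ := pt_tt (st_res hst (pr_cone (pt_of_D hx)))
        exact ⟨d, hd, e, e ▸ h⟩
    · intro Y hY ih hW h
      exact ih _ h (W_down hW h) ((ltδ Y hY hW _).2 ⟨_, h, rfl⟩)
  have Wω : L.W (L.tt (L.s4 Ω)) := by
    refine W_prog (pt_tt hst) fun Z hZ => ?_
    obtain ⟨P, hP, rfl⟩ := (lt_tt hst).1 hZ
    obtain ⟨X, -, hW, rfl⟩ := (memΩ P).1 hP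
    exact Wδ X hW
  exact nδ _ Wω ((lt_tt hst).2 ⟨_, (memΩ _).2 ⟨_, pt_tt hst, Wω, rfl⟩, rfl⟩)

end Lang

theorem Lang.false {α : Type u} [Inhabited α] (L : Lang α) : False := Lang.paradox L

end Vale.Agent.P340
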