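import Vale.Agent.P340.Levels
import Vale.Agent.P340.Lang

/-! P340: an impredicative negatable component over a rich layer gives the paradox. -/

namespace Vale.Agent.P340

universe u
open Tm
variable {S : Type u} {Q : Sys S} {K : S → Prop}

/-- The kind of the generic variable. -/
def Bad.Kq (B : Bad Q K) : Tm S := Wr atF B.πq (sort B.l)

/-- The levels over a generic variable `Z`. -/
def Bad.Lv (B : Bad Q K) (k : Kit Q K) : ℕ → Tm S → Tm S
  | 0, Z => Wr k.ans B.πB (apps B.πq Z)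
  | i + 1, Z => Wr k.ans (B.P i) (Bad.Lv B k i Z)

/-- The type of generic properties of structures of level 4. -/
def Bad.U (B : Bad Q K) (k : Kit Q K) : Tm S := pi B.Kq (Wr k.ans B.H (B.Lv k 4 (var 0)))

def Bad.Z₀ (B : Bad Q K) (k : Kit Q K) : Tm S := lams B.πq (Wr k.ans B.G (B.U k))

/-- The quantified kinds. -/
def Bad.κ (B : Bad Q K) (k : Kit Q K) (i : ℕ) : Tm S :=
  Wr k.ans (B.E (i + 1)) (B.Lv k (i + 1) (B.Z₀ k))

namespace Build

variable {B : Bad Q K} {k : Kit Q K}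

theorem Kq_bd : Bd 0 B.Kq := Wr_bd bd_atF _ trivial

theorem Lv_subst (i : ℕ) (Z : Tm S) (σ : ℕ → Tm S) :
    subst σ (B.Lv k i Z) = B.Lv k i (subst σ Z) := by
  induction i with
  | zero => simp only [Bad.Lv, Wr_subst k.ans_bd, apps_subst]
  | succ i ih => simp only [Bad.Lv, Wr_subst k.ans_bd, ih]

theorem Lv_lift (i : ℕ) (Z : Tm S) : lift (B.Lv k i Z) = B.Lv k i (lift Z) := by
  simp only [lift, ren_eq_subst, Lv_subst]

section typing
variable {C : Tm S → Tm S → Prop} (hN : Nice Q) (hC : ∀ A t, Cb Q A t → C A t)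
include hN hC

theorem Kq_ty {Γ : List (Tm S)} (hΓ : Wf Q C Γ) : Ty Q C Γ B.Kq (sort B.q) :=
  Wr_ty hN hC (fun _ h => h.elim) B.hπq (Ty.axWf hΓ B.hax)

theorem wr_ty {u v : S} {π : List (Bool × S)} (hπ : PV Q (Rel Q K) u π v) {Γ : List (Tm S)}
    {X : Tm S} (hX : Ty Q C Γ X (sort u)) : Ty Q C Γ (Wr k.ans π X) (sort v) :=
  Wr_ty hN hC (fun _ hb => k.ans_ty hN hC hb) hπ hX

theorem Lv_ty {Γ : List (Tm S)} {Z : Tm S} (hZ : Ty Q C Γ Z B.Kq) (i : ℕ) :
    Ty Q C Γ (B.Lv k i Z) (sort (B.m i)) := by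
  induction i with
  | zero => exact wr_ty hN hC B.hπB (apps_ty hN hC atF B.hπq hZ)
  | succ i ih => exact wr_ty hN hC (B.hP i) ih

theorem var_Kq : Ty Q C [B.Kq] (var 0) B.Kq := by
  have := Ty.var (Kq_ty (B := B) hN hC Wf.nil)
  rwa [lift_closed Kq_bd] at this

theorem U_ty : Ty Q C [] (B.U k) (sort B.r₃) :=
  Ty.pi (Kq_ty hN hC Wf.nil) (wr_ty hN hC B.hH (Lv_ty hN hC (var_Kq hN hC) 4)) B.hrule

theorem Z_ty : Ty Q C [] (B.Z₀ k) B.Kq :=
  lams_ty hN hC atF B.hπq (Ty.ax B.hax) (wr_ty hN hC B.hG (U_ty hN hC))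

theorem κ_ty (i : ℕ) : Ty Q C [] (B.κ k i) (sort (B.base (i + 1))) :=
  wr_ty hN hC (B.hE (i + 1)) (Lv_ty hN hC (Z_ty hN hC) (i + 1))

end typing

theorem U_bd (hN : Nice Q) : Bd 0 (B.U k) := (U_ty (C := Cb Q) hN (fun _ _ h => h)).closed
theorem Z_bd (hN : Nice Q) : Bd 0 (B.Z₀ k) := (Z_ty (C := Cb Q) hN (fun _ _ h => h)).closed

theorem conv_L0 : Conv (Wr k.ans (B.πB ++ B.G) (B.U k)) (B.Lv k 0 (B.Z₀ k)) := by
  rw [Wr_append]
  exact Wr_conv _ _ (apps_lams _ _).symm'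

theorem weak_Kq {C : Tm S → Tm S → Prop} {Γ : List (Tm S)} {Z A : Tm S} {s : S}
    (hZ : Ty Q C Γ Z B.Kq) (hA : Ty Q C Γ A (sort s)) : Ty Q C (A :: Γ) (lift Z) B.Kq := by
  have := hZ.weak hA
  rwa [lift_closed Kq_bd] at this

variable (L : Logic Q K (B.κ k) (fun i => B.base (i + 1)))

def ret (i : ℕ) (Z e : Tm S) : Tm S :=
  absP k L (B.P i) (B.Lv k i Z) (extP k L (B.E (i + 1)) (B.Lv k (i + 1) (lift Z)) (lift e)
    (memP k L (B.P i) (B.Lv k i (lift (lift Z))) (var 0) (var 1)))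

def th (Z Φ : Tm S) : Tm S :=
  absP k L (B.πB ++ B.G) (B.U k)
    (memP k L B.H (B.Lv k 4 (lift Z)) (app (var 0) (lift Z)) (lift Φ))

theorem ret_subst (i : ℕ) (Z e : Tm S) (σ : ℕ → Tm S) :
    subst σ (ret L i Z e) = ret L i (subst σ Z) (subst σ e) := by
  simp only [ret, absP_subst, extP_subst, memP_subst, Lv_subst, lift_subst_up, subst_var, up_zero]
  rfl

theorem th_subst (hN : Nice Q) (Z Φ : Tm S) (σ : ℕ → Tm S) :
    subst σ (th L Z Φ) = th L (subst σ Z) (subst σ Φ) := by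
  simp only [th, absP_subst, memP_subst, Lv_subst, lift_subst_up, subst_var, up_zero, subst_app,
    subst_closed (U_bd hN)]

theorem ret_body_ty (hN : Nice Q) {Γ : List (Tm S)} {i : ℕ} {Z e : Tm S}
    (hZ : Ty Q L.C Γ Z B.Kq) (he : Ty Q L.C Γ e (Wr k.ans (B.E (i + 1)) (B.Lv k (i + 1) Z))) :
    Ty Q L.C (B.Lv k i Z :: Γ) (extP k L (B.E (i + 1)) (B.Lv k (i + 1) (lift Z)) (lift e)
      (memP k L (B.P i) (B.Lv k i (lift (lift Z))) (var 0) (var 1))) (sort L.o) := by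
  have h0 := Lv_ty (k := k) hN L.base hZ i
  have hZ1 := weak_Kq hZ h0
  have h1 := Lv_ty (k := k) hN L.base hZ1 (i + 1)
  have hZ2 := weak_Kq hZ1 h1
  have he1 := he.weak h0
  rw [Wr_lift k.ans_bd, Lv_lift] at he1
  refine extP_ty hN (B.hE (i + 1)) (B.hEp (i + 1)) h1 he1 ?_
  have v0 := Ty.var h1
  rw [Lv_lift] at v0
  have v1 := (Ty.var h0).weak h1
  rw [Lv_lift, Lv_lift] at v1
  exact memP_ty hN (B.hP i) (B.hPp i) (Lv_ty hN L.base hZ2 i) v0 v1

theorem ret_ty (hN : Nice Q) {Γ : List (Tm S)} {i : ℕ} {Z e : Tm S}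
    (hZ : Ty Q L.C Γ Z B.Kq) (he : Ty Q L.C Γ e (Wr k.ans (B.E (i + 1)) (B.Lv k (i + 1) Z))) :
    Ty Q L.C Γ (ret L i Z e) (B.Lv k (i + 1) Z) :=
  absP_ty hN (B.hP i) (B.hPp i) (Lv_ty hN L.base hZ i) (ret_body_ty L hN hZ he)

theorem hGB : PV Q (Rel Q K) B.r₃ (B.πB ++ B.G) (B.m 0) := B.hG.append B.hπB

theorem th_body_ty (hN : Nice Q) {Γ : List (Tm S)} {Z Φ : Tm S}
    (hZ : Ty Q L.C Γ Z B.Kq) (hΦ : Ty Q L.C Γ Φ (B.Lv k 4 Z)) :
    Ty Q L.C (B.U k :: Γ) (memP k L B.H (B.Lv k 4 (lift Z)) (app (var 0) (lift Z)) (lift Φ))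
      (sort L.o) := by
  have hU := (U_ty (B := B) (k := k) hN L.base).ofClosed hZ.wf
  have hZ1 := weak_Kq hZ hU
  have hΦ1 := hΦ.weak hU
  rw [Lv_lift] at hΦ1
  have v0 := Ty.var hU
  rw [lift_closed (U_bd hN)] at v0
  have h := Ty.app v0 hZ1
  have e : inst (Wr k.ans B.H (B.Lv k 4 (var 0))) (lift Z) = Wr k.ans B.H (B.Lv k 4 (lift Z)) := by
    simp only [inst, Wr_subst k.ans_bd, Lv_subst, subst_var, scons_zero]
  rw [e] at h
  exact memP_ty hN B.hH B.hHp (Lv_ty hN L.base hZ1 4) h hΦ1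

theorem th_ty' (hN : Nice Q) {Γ : List (Tm S)} {Z Φ : Tm S}
    (hZ : Ty Q L.C Γ Z B.Kq) (hΦ : Ty Q L.C Γ Φ (B.Lv k 4 Z)) :
    Ty Q L.C Γ (th L Z Φ) (Wr k.ans (B.πB ++ B.G) (B.U k)) :=
  absP_ty hN hGB B.hGB ((U_ty hN L.base).ofClosed hZ.wf) (th_body_ty L hN hZ hΦ)

theorem th_ty (hN : Nice Q) {Γ : List (Tm S)} {Z Φ : Tm S}
    (hZ : Ty Q L.C Γ Z B.Kq) (hΦ : Ty Q L.C Γ Φ (B.Lv k 4 Z)) :
    Ty Q L.C Γ (th L Z Φ) (B.Lv k 0 (B.Z₀ k)) :=
  (th_ty' L hN hZ hΦ).conv ((Lv_ty hN L.base (Z_ty hN L.base) 0).ofClosed hZ.wf) conv_L0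

def zv (B : Bad Q K) (k : Kit Q K) (n : ℕ) (w : Bool) : Tm S := if w then var n else B.Z₀ k

def ctx (B : Bad Q K) (k : Kit Q K) : List (Bool × ℕ) → List (Tm S)
  | [] => [B.Kq]
  | x :: Γ => B.Lv k x.2 (zv B k Γ.length x.1) :: ctx B k Γ

def envG (n : ℕ) (env : ℕ → Tm S) (Z : Tm S) : ℕ → Tm S := fun j => if j < n then env j else Z

theorem envG_succ (n : ℕ) (env : ℕ → Tm S) (Z : Tm S) :
    envG (n + 1) env Z = scons (env 0) (envG n (fun j => env (j + 1)) Z) := by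
  funext j
  cases j <;> simp [envG]

theorem zv_lift (hN : Nice Q) (n : ℕ) (w : Bool) : lift (zv B k n w) = zv B k (n + 1) w := by
  cases w
  · exact lift_closed (Z_bd hN)
  · rfl

theorem zv_envG (hN : Nice Q) (n : ℕ) (w : Bool) (env : ℕ → Tm S) (Z : Tm S) :
    subst (envG n env Z) (zv B k n w) = if w then Z else B.Z₀ k := by
  cases w
  · exact subst_closed (Z_bd hN) _
  · simp [zv, envG]

theorem zv_envZ (hN : Nice Q) (n : ℕ) (w : Bool) (env : ℕ → Tm S) :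
    subst (envG n env (B.Z₀ k)) (zv B k n w) = B.Z₀ k := by
  rw [zv_envG hN]
  simp

theorem zv_ty (hN : Nice Q) (Γ : List (Bool × ℕ)) (w : Bool) :
    Ty Q L.C (ctx B k Γ) (zv B k Γ.length w) B.Kq := by
  induction Γ generalizing w with
  | nil =>
    cases w
    · exact (Z_ty hN L.base).ofClosed (var_Kq (B := B) hN L.base).wf
    · exact var_Kq hN L.base
  | cons x Γ ih =>
    have := weak_Kq (ih w) (Lv_ty (k := k) hN L.base (ih x.1) x.2)
    rwa [zv_lift hN] at this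

theorem var_ty (hN : Nice Q) {Γ : List (Bool × ℕ)} {n : ℕ} {w : Bool} {i : ℕ}
    (h : Γ[n]? = some (w, i)) :
    Ty Q L.C (ctx B k Γ) (var n) (B.Lv k i (zv B k Γ.length w)) := by
  induction Γ generalizing n with
  | nil => simp at h
  | cons x Γ ih =>
    have hx := Lv_ty (k := k) hN L.base (zv_ty L hN Γ x.1) x.2
    cases n with
    | zero =>
      simp only [List.getElem?_cons_zero, Option.some.injEq] at h
      subst h
      have := Ty.var hx
      rwa [Lv_lift, zv_lift hN] at this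
    | succ n =>
      have := (ih (by simpa using h)).weak hx
      rwa [Lv_lift, zv_lift hN] at this

theorem sub_envG (hN : Nice Q) {Δ : List (Tm S)} {Z : Tm S} (hZ : Ty Q L.C Δ Z B.Kq)
    {Γ : List (Bool × ℕ)} {env : ℕ → Tm S}
    (h : ∀ n w i, Γ[n]? = some (w, i) → Ty Q L.C Δ (env n) (B.Lv k i (if w then Z else B.Z₀ k))) :
    SubT Q L.C Δ (envG Γ.length env Z) (ctx B k Γ) := by
  induction Γ generalizing env with
  | nil =>
    have e : envG 0 env Z = scons Z (envG 0 env Z) := by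
      funext j
      cases j <;> simp [envG]
    show SubT Q L.C Δ (envG 0 env Z) [B.Kq]
    rw [e]
    refine (SubT.nil hZ.wf _).cons ?_
    rwa [subst_closed Kq_bd]
  | cons x Γ ih =>
    rw [List.length_cons, envG_succ]
    refine (ih fun n w i hn => h (n + 1) w i (by simpa using hn)).cons ?_
    rw [Lv_subst, zv_envG hN]
    exact h 0 x.1 x.2 rfl

def DD (i : ℕ) (a : Tm S) : Prop := Ty Q L.C [] a (B.Lv k i (B.Z₀ k))
def mm (i : ℕ) (a p : Tm S) : Prop := L.Tr (memP k L (B.P i) (B.Lv k i (B.Z₀ k)) p a)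
def QU (i : ℕ) (p : Tm S) : Prop := ∃ e, Ty Q L.C [] e (B.κ k i) ∧ p = ret L i (B.Z₀ k) e
def DF (Γ : List (Bool × ℕ)) (P : (ℕ → Tm S) → Prop) : Prop :=
  ∃ φ, Ty Q L.C (ctx B k Γ) φ (sort L.o) ∧ ∀ env, EnvOk (DD L) Γ env →
    (L.Tr (subst (envG Γ.length env (B.Z₀ k)) φ) ↔ P env)

theorem sub_envZ (hN : Nice Q) {Γ : List (Bool × ℕ)} {env : ℕ → Tm S} (h : EnvOk (DD L) Γ env) :
    SubT Q L.C [] (envG Γ.length env (B.Z₀ k)) (ctx B k Γ) :=
  sub_envG L hN (Z_ty hN L.base) fun n w i hn => by simpa [DD] using h n w i hn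

theorem envOk_cons {Γ : List (Bool × ℕ)} {env : ℕ → Tm S} {w : Bool} {i : ℕ} {a : Tm S}
    (h : EnvOk (DD L) Γ env) (ha : DD L i a) : EnvOk (DD L) ((w, i) :: Γ) (scons a env) := by
  intro n w' i' hn
  cases n with
  | zero =>
    simp only [List.getElem?_cons_zero, Option.some.injEq, Prod.mk.injEq] at hn
    exact hn.2 ▸ ha
  | succ n => exact h n w' i' (by simpa using hn)

theorem envG_lt {Γ : List (Bool × ℕ)} {n : ℕ} {x : Bool × ℕ} (h : Γ[n]? = some x)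
    (env : ℕ → Tm S) (Z : Tm S) : envG Γ.length env Z n = env n :=
  if_pos (List.getElem?_eq_some_iff.1 h).1

theorem qu_ex (hN : Nice Q) {i : ℕ} {p : Tm S} (hp : DD L (i + 1) p) :
    ∃ p', QU L i p' ∧ ∀ a, DD L i a → (mm L i a p' ↔ mm L i a p) := by
  have hZ := Z_ty (B := B) (k := k) hN L.base
  have h1 := Lv_ty (k := k) hN L.base hZ (i + 1)
  have he := injP_ty (k := k) hN (B.hE (i + 1)) (B.hEp (i + 1)) h1 hp
  refine ⟨_, ⟨_, he, rfl⟩, fun a ha => ?_⟩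
  unfold mm ret
  rw [memP_absP hN (B.hP i) (B.hPp i) (Lv_ty hN L.base hZ i) (ret_body_ty L hN hZ he) ha]
  have e : inst (extP k L (B.E (i + 1)) (B.Lv k (i + 1) (lift (B.Z₀ k)))
      (lift (injP k L (B.E (i + 1)) (B.Lv k (i + 1) (B.Z₀ k)) p))
      (memP k L (B.P i) (B.Lv k i (lift (lift (B.Z₀ k)))) (var 0) (var 1))) a =
      extP k L (B.E (i + 1)) (B.Lv k (i + 1) (B.Z₀ k))
        (injP k L (B.E (i + 1)) (B.Lv k (i + 1) (B.Z₀ k)) p)
        (memP k L (B.P i) (B.Lv k i (B.Z₀ k)) (var 0) (lift a)) := by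
    simp only [inst, extP_subst, memP_subst, Lv_subst, lift_subst_scons, subst_id,
      lift_closed (Z_bd hN), subst_closed (Z_bd hN), subst_var, up_zero]
    rfl
  rw [e]
  have hψ : Ty Q L.C [B.Lv k (i + 1) (B.Z₀ k)]
      (memP k L (B.P i) (B.Lv k i (B.Z₀ k)) (var 0) (lift a)) (sort L.o) := by
    have v0 := Ty.var h1
    have a1 := Ty.weak ha h1
    rw [Lv_lift, lift_closed (Z_bd hN)] at v0 a1
    exact memP_ty hN (B.hP i) (B.hPp i) ((Lv_ty hN L.base hZ i).ofClosed v0.wf) v0 a1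
  rw [extP_injP hN (B.hE (i + 1)) (B.hEp (i + 1)) h1 hψ hp]
  simp only [inst, memP_subst, Lv_subst, subst_closed (Z_bd hN), subst_var, scons_zero,
    lift_subst_scons, subst_id]

theorem df_mem (hN : Nice Q) {Γ : List (Bool × ℕ)} {n j : ℕ} {w : Bool} {i : ℕ}
    (hn : Γ[n]? = some (w, i)) (hj : Γ[j]? = some (w, i + 1)) :
    DF L Γ (fun env => mm L i (env n) (env j)) := by
  refine ⟨memP k L (B.P i) (B.Lv k i (zv B k Γ.length w)) (var j) (var n),
    memP_ty hN (B.hP i) (B.hPp i) (Lv_ty hN L.base (zv_ty L hN Γ w) i) (var_ty L hN hj)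
      (var_ty L hN hn), fun env _ => ?_⟩
  rw [memP_subst, Lv_subst, zv_envZ hN, subst_var, subst_var, envG_lt hn, envG_lt hj]
  rfl

theorem df_th (hN : Nice Q) {Γ : List (Bool × ℕ)} {n j : ℕ} {w : Bool}
    (hn : Γ[n]? = some (w, 4)) (hj : Γ[j]? = some (false, 1)) :
    DF L Γ (fun env => mm L 0 (th L (B.Z₀ k) (env n)) (env j)) := by
  refine ⟨memP k L (B.P 0) (B.Lv k 0 (B.Z₀ k)) (var j) (th L (zv B k Γ.length w) (var n)),
    memP_ty hN (B.hP 0) (B.hPp 0) (Lv_ty hN L.base (zv_ty L hN Γ false) 0) (var_ty L hN hj)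
      (th_ty L hN (zv_ty L hN Γ w) (var_ty L hN hn)), fun env _ => ?_⟩
  rw [memP_subst, Lv_subst, th_subst L hN, zv_envZ hN, subst_var, subst_var, envG_lt hn,
    envG_lt hj, subst_closed (Z_bd hN)]
  rfl

theorem df_nand (hN : Nice Q) {Γ : List (Bool × ℕ)} {P P' : (ℕ → Tm S) → Prop} (h : DF L Γ P)
    (h' : DF L Γ P') : DF L Γ (fun env => ¬ (P env ∧ P' env)) := by
  obtain ⟨φ, h1, h2⟩ := h
  obtain ⟨ψ, h1', h2'⟩ := h'
  refine ⟨L.nand φ ψ, L.nand_ty h1 h1', fun env he => ?_⟩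
  rw [L.nand_subst, L.nand_tr (h1.subst (sub_envZ L hN he)) (h1'.subst (sub_envZ L hN he)),
    h2 env he, h2' env he]

theorem df_alln (hN : Nice Q) {Γ : List (Bool × ℕ)} {w : Bool} {i : ℕ} {P : (ℕ → Tm S) → Prop}
    (h : DF L ((w, i + 1) :: Γ) P) : DF L Γ (fun env => ∀ p, QU L i p → ¬ P (scons p env)) := by
  obtain ⟨φ, h1, h2⟩ := h
  have hz := zv_ty L hN Γ w
  have hA : Ty Q L.C (ctx B k Γ) (Wr k.ans (B.E (i + 1)) (B.Lv k (i + 1) (zv B k Γ.length w)))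
      (sort (B.base (i + 1))) := wr_ty hN L.base (B.hE (i + 1)) (Lv_ty hN L.base hz (i + 1))
  have v0 := Ty.var hA
  rw [Wr_lift k.ans_bd, Lv_lift] at v0
  have hr := ret_ty L hN (weak_Kq hz hA) v0
  have hs : SubT Q L.C (Wr k.ans (B.E (i + 1)) (B.Lv k (i + 1) (zv B k Γ.length w)) :: ctx B k Γ)
      (scons (ret L i (lift (zv B k Γ.length w)) (var 0)) (fun n => var (n + 1)))
      (ctx B k ((w, i + 1) :: Γ)) := by
    refine (SubT.shift v0.wf).cons ?_
    rw [← ren_eq_subst]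
    show Ty Q L.C _ _ (lift _)
    rwa [Lv_lift]
  have hφ := h1.subst hs
  refine ⟨L.alln i _ _, L.alln_ty hA hφ, fun env he => ?_⟩
  have hσ := sub_envZ L hN he
  have hκ : subst (envG Γ.length env (B.Z₀ k))
      (Wr k.ans (B.E (i + 1)) (B.Lv k (i + 1) (zv B k Γ.length w))) = B.κ k i := by
    rw [Wr_subst k.ans_bd, Lv_subst, zv_envZ hN]
    rfl
  have hφ' := hφ.subst (hσ.up hA (κ_ty hN L.base i) (by rw [hκ]; exact Conv.rfl))
  rw [L.alln_subst, hκ, L.alln_tr hφ']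
  have key : ∀ c, Ty Q L.C [] c (B.κ k i) →
      (L.Tr (inst (subst (up (envG Γ.length env (B.Z₀ k)))
        (subst (scons (ret L i (lift (zv B k Γ.length w)) (var 0)) (fun n => var (n + 1))) φ)) c) ↔
        P (scons (ret L i (B.Z₀ k) c) env)) := by
    intro c hc
    rw [← h2 _ (envOk_cons L he (ret_ty L hN (Z_ty hN L.base) hc)), up_inst, subst_subst,
      List.length_cons, envG_succ]
    have e : (fun n => subst (scons c (envG Γ.length env (B.Z₀ k)))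
        (scons (ret L i (lift (zv B k Γ.length w)) (var 0)) (fun n => var (n + 1)) n)) =
        scons (ret L i (B.Z₀ k) c) (envG Γ.length env (B.Z₀ k)) := by
      funext n
      cases n with
      | zero => simp only [scons_zero, ret_subst, lift_subst_scons, zv_envZ hN, subst_var]
      | succ n => rfl
    rw [e]
    rfl
  constructor
  · rintro h _ ⟨c, hc, rfl⟩ hp
    exact h c hc ((key c hc).2 hp)
  · exact fun h c hc hp => h _ ⟨c, hc, rfl⟩ ((key c hc).1 hp)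

theorem compr (hN : Nice Q) {Γ : List (Bool × ℕ)} {w : Bool} {i : ℕ} {P : (ℕ → Tm S) → Prop}
    {env : ℕ → Tm S} (h : DF L ((w, i) :: Γ) P) (he : EnvOk (DD L) Γ env) :
    ∃ p, DD L (i + 1) p ∧ ∀ a, DD L i a → (mm L i a p ↔ P (scons a env)) := by
  obtain ⟨φ, h1, h2⟩ := h
  have hX := Lv_ty (k := k) hN L.base (Z_ty (B := B) (k := k) hN L.base) i
  have hφ := h1.subst ((sub_envZ L hN he).up (Lv_ty hN L.base (zv_ty L hN Γ w) i) hX
    (by rw [Lv_subst, zv_envZ hN]; exact Conv.rfl))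
  refine ⟨_, absP_ty (k := k) hN (B.hP i) (B.hPp i) hX hφ, fun a ha => ?_⟩
  unfold mm
  rw [memP_absP hN (B.hP i) (B.hPp i) hX hφ ha, up_inst, ← h2 _ (envOk_cons L he ha),
    List.length_cons, envG_succ]
  rfl

theorem gen (hN : Nice Q) {Γ : List (Bool × ℕ)} {P : (ℕ → Tm S) → Prop} {env : ℕ → Tm S}
    (h : DF L ((true, 4) :: Γ) P) (hΓ : ∀ x ∈ Γ, x.1 = false) (he : EnvOk (DD L) Γ env) :
    ∃ q, DD L 1 q ∧ ∀ Φ, DD L 4 Φ → (mm L 0 (th L (B.Z₀ k) Φ) q ↔ P (scons Φ env)) := by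
  obtain ⟨φ, h1, h2⟩ := h
  have hZ := Z_ty (B := B) (k := k) hN L.base
  have hU := U_ty (B := B) (k := k) hN L.base
  have v0 := var_Kq (B := B) hN L.base
  have h4 := Lv_ty (k := k) hN L.base v0 4
  have v1 : Ty Q L.C [B.Lv k 4 (var 0), B.Kq] (var 1) B.Kq := weak_Kq v0 h4
  have hs : SubT Q L.C [B.Lv k 4 (var 0), B.Kq] (scons (var 0) (envG Γ.length env (var 1)))
      (ctx B k ((true, 4) :: Γ)) := by
    refine (sub_envG L hN v1 fun n w i hn => ?_).cons ?_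
    · have : w = false := hΓ _ (List.mem_of_getElem? hn)
      subst this
      exact Ty.ofClosed (he n false i hn) v1.wf
    · rw [Lv_subst, zv_envG hN]
      have := Ty.var h4
      rwa [Lv_lift] at this
  have hφ := h1.subst hs
  have hu : Ty Q L.C [] (lam B.Kq (absP k L B.H (B.Lv k 4 (var 0))
      (subst (scons (var 0) (envG Γ.length env (var 1))) φ))) (B.U k) :=
    Ty.lam (absP_ty hN B.hH B.hHp h4 hφ) hU
  generalize hudef : lam B.Kq (absP k L B.H (B.Lv k 4 (var 0))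
      (subst (scons (var 0) (envG Γ.length env (var 1))) φ)) = u at hu
  have h0 := Lv_ty (k := k) hN L.base hZ 0
  have w0 := Ty.var h0
  rw [Lv_lift, lift_closed (Z_bd hN)] at w0
  have hq : Ty Q L.C [B.Lv k 0 (B.Z₀ k)] (memP k L (B.πB ++ B.G) (B.U k) (var 0) u) (sort L.o) :=
    memP_ty hN hGB B.hGB (hU.ofClosed w0.wf)
      (w0.conv ((wr_ty hN L.base hGB hU).ofClosed w0.wf) conv_L0.symm') (hu.ofClosed w0.wf)
  refine ⟨_, absP_ty (k := k) hN (B.hP 0) (B.hPp 0) h0 hq, fun Φ hΦ => ?_⟩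
  unfold mm
  rw [memP_absP hN (B.hP 0) (B.hPp 0) h0 hq (th_ty L hN hZ hΦ)]
  have e1 : inst (memP k L (B.πB ++ B.G) (B.U k) (var 0) u) (th L (B.Z₀ k) Φ) =
      memP k L (B.πB ++ B.G) (B.U k) (th L (B.Z₀ k) Φ) u := by
    simp only [inst, memP_subst, subst_closed (U_bd hN), subst_closed hu.closed, subst_var,
      scons_zero]
  rw [e1]
  unfold th
  rw [memP_absP hN hGB B.hGB hU (th_body_ty L hN hZ hΦ) hu]
  have e2 : inst (memP k L B.H (B.Lv k 4 (lift (B.Z₀ k))) (app (var 0) (lift (B.Z₀ k))) (lift Φ))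
      u = memP k L B.H (B.Lv k 4 (B.Z₀ k)) (app u (B.Z₀ k)) Φ := by
    simp only [inst, memP_subst, Lv_subst, lift_subst_scons, subst_id, subst_app, subst_var,
      scons_zero]
  rw [e2]
  have h4Z := Lv_ty (k := k) hN L.base hZ 4
  have hφ2 : Ty Q L.C [B.Lv k 4 (B.Z₀ k)] (subst (up (scons (B.Z₀ k) var))
      (subst (scons (var 0) (envG Γ.length env (var 1))) φ)) (sort L.o) := by
    refine hφ.subst (SubT.up (((SubT.id Wf.nil).cons ?_)) h4 h4Z ?_)
    · rwa [subst_id]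
    · rw [Lv_subst]
      exact Conv.rfl
  have hab := absP_ty (k := k) hN B.hH B.hHp h4Z hφ2
  have hap : Ty Q L.C [] (app u (B.Z₀ k)) (Wr k.ans B.H (B.Lv k 4 (B.Z₀ k))) := by
    have := Ty.app hu hZ
    simpa only [inst, Wr_subst k.ans_bd, Lv_subst, subst_var, scons_zero] using this
  have hc : Conv (app u (B.Z₀ k)) (absP k L B.H (B.Lv k 4 (B.Z₀ k))
      (subst (up (scons (B.Z₀ k) var)) (subst (scons (var 0) (envG Γ.length env (var 1))) φ))) := by
    have := (Step.beta B.Kq (absP k L B.H (B.Lv k 4 (var 0))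
      (subst (scons (var 0) (envG Γ.length env (var 1))) φ)) (B.Z₀ k)).conv
    rw [hudef] at this
    simpa only [inst, absP_subst, Lv_subst, subst_var, scons_zero] using this
  have t1 := memP_ty (k := k) hN B.hH B.hHp h4Z hap hΦ
  have t2 := memP_ty (k := k) hN B.hH B.hHp h4Z hab hΦ
  have hcc := memP_conv k L B.H (Conv.rfl (M := B.Lv k 4 (B.Z₀ k))) hc (Conv.rfl (M := Φ))
  rw [show L.Tr _ ↔ L.Tr _ from ⟨L.tr_conv t1 t2 hcc, L.tr_conv t2 t1 hcc.symm'⟩,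
    memP_absP hN B.hH B.hHp h4Z hφ2 hΦ, up_inst, subst_subst, ← h2 _ (envOk_cons L he hΦ),
    List.length_cons, envG_succ]
  have e3 : (fun n => subst (scons Φ (scons (B.Z₀ k) var))
      (scons (var 0) (envG Γ.length env (var 1)) n)) = scons Φ (envG Γ.length env (B.Z₀ k)) := by
    funext n
    cases n with
    | zero => rfl
    | succ n =>
      simp only [scons_succ, envG]
      split_ifs with hn
      · exact subst_closed (Ty.closed (he n _ _ (List.getElem?_eq_getElem hn))) _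
      · rfl
  rw [e3]
  rfl

end Build

open Build in
theorem lang_of_bad (hN : Nice Q) (B : Bad Q K) (k : Kit Q K)
    (L : Logic Q K (B.κ k) (fun i => B.base (i + 1))) : Nonempty (Lang (Tm S)) :=
  ⟨{ D := DD L
     mem := mm L
     Qu := QU L
     th := th L (B.Z₀ k)
     DF := DF L
     qu_D := by
      rintro i _ ⟨e, he, rfl⟩
      exact ret_ty L hN (Z_ty hN L.base) he
     qu_ex := qu_ex L hN
     th_D := th_ty L hN (Z_ty hN L.base)
     df_congr := by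
      rintro Γ P P' ⟨φ, h1, h2⟩ h
      exact ⟨φ, h1, fun env he => (h2 env he).trans (h env he)⟩
     df_mem := df_mem L hN
     df_th := df_th L hN
     df_nand := df_nand L hN
     df_alln := df_alln L hN
     compr := compr L hN
     gen := gen L hN }⟩

open Build in
theorem not_rich_bad (hN : Nice Q) (hR : Rich Q K) (B : Bad Q K) : False := by
  obtain ⟨k⟩ := exists_kit Q K
  obtain ⟨L⟩ := exists_logic hN hR (B.κ k) (fun i => B.base (i + 1))
    (κ_ty hN (fun _ _ h => h))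
    (fun i => Wr_sortTail (fun _ hb => k.ans_sortTail hb) (B.hE (i + 1))
      (Or.inl (Wr_sortTail (fun _ hb => k.ans_sortTail hb) (B.hP i) (Or.inr (B.hPp i)))))
    (fun i => B.hbase (i + 1))
  obtain ⟨M⟩ := lang_of_bad hN B k L
  exact M.false

end Vale.Agent.P340
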