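import Vale.Agent.P340.Conf

/-! P340: strong normalization and reducibility candidates. -/

namespace Vale.Agent.P340

universe u v
open Tm
variable {S : Type u}

theorem SN.step {M N : Tm S} (h : SN M) (h' : Step M N) : SN N := h.inv h'

namespace CandAux

theorem sn_of_map {f : Tm S → Tm S} (hf : ∀ {M N : Tm S}, Step M N → Step (f M) (f N))
    {M : Tm S} (h : SN (f M)) : SN M :=
  Subrelation.accessible (fun hMN => hf hMN) (InvImage.accessible f h)

theorem sn_red {M N : Tm S} (h : SN M) (h' : Red M N) : SN N := by
  induction h' with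
  | refl => exact h
  | tail _ hs ih => exact ih.step hs

theorem red_inst_right (P : Tm S) {N N' : Tm S} (h : Step N N') : Red (inst P N) (inst P N') := by
  refine red_subst_env P fun n => ?_
  cases n with
  | zero => exact Relation.ReflTransGen.single h
  | succ n => exact Relation.ReflTransGen.refl

theorem sn_beta {A P N : Tm S} (hA : SN A) (hP : SN P) (hN : SN N) (h : SN (inst P N)) :
    SN (app (lam A P) N) := by
  induction hA generalizing P N with
  | intro A hA0 ihA =>
    induction hP generalizing N with
    | intro P hP0 ihP =>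
      induction hN with
      | intro N hN0 ihN =>
        refine Acc.intro _ fun T hT => ?_
        cases hT with
        | beta => exact h
        | appL _ h1 =>
          cases h1 with
          | lamL _ h2 => exact ihA _ h2 (Acc.intro _ hP0) (Acc.intro _ hN0) h
          | lamR _ h2 => exact ihP _ h2 (Acc.intro _ hN0) (SN.step h (h2.subst _))
        | appR _ h1 => exact ihN _ h1 (sn_red h (red_inst_right P h1))

theorem hred_std {M M' A N M₁ : Tm S} (h : HRed M M' A N) (hs : Step M M₁) :
    M₁ = M' ∨ ∃ M₁' A₁ N₁, HRed M₁ M₁' A₁ N₁ ∧ Red M' M₁' := by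
  induction h generalizing M₁ with
  | beta A P N =>
    cases hs with
    | beta => exact Or.inl rfl
    | appL _ h1 =>
      cases h1 with
      | lamL _ h2 => exact Or.inr ⟨_, _, _, HRed.beta _ _ _, Relation.ReflTransGen.refl⟩
      | lamR _ h2 =>
        exact Or.inr ⟨_, _, _, HRed.beta _ _ _, Relation.ReflTransGen.single (h2.subst _)⟩
    | appR _ h1 => exact Or.inr ⟨_, _, _, HRed.beta _ _ _, red_inst_right P h1⟩
  | app R h ih =>
    cases hs with
    | beta => cases h
    | appL _ h1 =>
      rcases ih h1 with e | ⟨M₂, A₁, N₁, h2, h3⟩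
      · exact Or.inl (by rw [e])
      · exact Or.inr ⟨_, _, _, HRed.app R h2, Red.app h3 Relation.ReflTransGen.refl⟩
    | appR _ h1 =>
      exact Or.inr ⟨_, _, _, HRed.app _ h, Relation.ReflTransGen.single (Step.appR _ h1)⟩

theorem sn_hred_app {M R : Tm S} (hM : SN M) (hR : SN R) :
    ∀ {M' A N : Tm S}, HRed M M' A N → SN (app M' R) → SN (app M R) := by
  induction hM generalizing R with
  | intro M hM0 ihM =>
    induction hR with
    | intro R hR0 ihR =>
      intro M' A N h hS
      refine Acc.intro _ fun T hT => ?_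
      cases hT with
      | beta => cases h
      | appL _ h1 =>
        rcases hred_std h h1 with e | ⟨M₂, A₁, N₁, h2, h3⟩
        · rw [e]; exact hS
        · exact ihM _ h1 (Acc.intro _ hR0) h2
            (sn_red hS (Red.app h3 Relation.ReflTransGen.refl))
      | appR _ h1 => exact ihR _ h1 h (hS.step (Step.appR _ h1))

end CandAux

open CandAux

theorem SN.of_subst {M : Tm S} {σ : ℕ → Tm S} (h : SN (subst σ M)) : SN M :=
  sn_of_map (f := subst σ) (fun h => h.subst σ) h
theorem SN.app_left {M N : Tm S} (h : SN (app M N)) : SN M :=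
  sn_of_map (f := fun M => app M N) (fun h => Step.appL N h) h
theorem SN.app_right {M N : Tm S} (h : SN (app M N)) : SN N :=
  sn_of_map (f := fun N => app M N) (fun h => Step.appR M h) h
theorem Normal.sn {M : Tm S} (h : Normal M) : SN M :=
  Acc.intro _ fun N hN => absurd hN (h N)
theorem sn_lam {A M : Tm S} (hA : SN A) (hM : SN M) : SN (lam A M) := by
  induction hA generalizing M with
  | intro A hA0 ihA =>
    induction hM with
    | intro M hM0 ihM =>
      refine Acc.intro _ fun T hT => ?_
      cases hT with
      | lamL _ h => exact ihA _ h (Acc.intro _ hM0)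
      | lamR _ h => exact ihM _ h
theorem sn_pi {A M : Tm S} (hA : SN A) (hM : SN M) : SN (pi A M) := by
  induction hA generalizing M with
  | intro A hA0 ihA =>
    induction hM with
    | intro M hM0 ihM =>
      refine Acc.intro _ fun T hT => ?_
      cases hT with
      | piL _ h => exact ihA _ h (Acc.intro _ hM0)
      | piR _ h => exact ihM _ h
theorem sn_neut_app {M N : Tm S} (h : Neut M) (hM : SN M) (hN : SN N) : SN (app M N) := by
  induction hM generalizing N with
  | intro M hM0 ihM =>
    induction hN with
    | intro N hN0 ihN =>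
      refine Acc.intro _ fun T hT => ?_
      cases hT with
      | beta => cases h
      | appL _ h1 => exact ihM _ h1 (h.step h1) (Acc.intro _ hN0)
      | appR _ h1 => exact ihN _ h1
theorem HRed.step {M M' A N : Tm S} (h : HRed M M' A N) : Step M M' := by
  induction h with
  | beta A P N => exact Step.beta A P N
  | app R _ ih => exact Step.appL R ih
theorem HRed.subst {M M' A N : Tm S} (h : HRed M M' A N) (σ : ℕ → Tm S) :
    HRed (subst σ M) (subst σ M') (subst σ A) (subst σ N) := by
  induction h with
  | beta A P N =>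
    rw [inst_subst']
    exact HRed.beta _ _ _
  | app R _ ih => exact HRed.app _ ih
/-- Strong normalization is closed under head expansion. -/
theorem HRed.sn {M M' A N : Tm S} (h : HRed M M' A N) (hA : SN A) (hN : SN N) (hM : SN M') :
    SN M := by
  induction h with
  | beta A P N => exact sn_beta hA (SN.of_subst hM) hN hM
  | app R h ih => exact sn_hred_app (ih hA hN hM.app_left) hM.app_right h hM

/-- Reducibility candidates (untyped saturated sets). -/
structure IsCand (C : Set (Tm S)) : Prop where
  sn : ∀ M ∈ C, SN M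
  neut : ∀ M, SN M → Neut M → M ∈ C
  exp : ∀ M M' A N, HRed M M' A N → SN A → SN N → M' ∈ C → M ∈ C

def Cand (S : Type u) : Type u := {C : Set (Tm S) // IsCand C}

def Cand.top : Cand S :=
  ⟨{M | SN M}, ⟨fun _ h => h, fun _ h _ => h, fun _ _ _ _ h hA hN hM => h.sn hA hN hM⟩⟩

instance : Inhabited (Cand S) := ⟨Cand.top⟩

def Cand.bot : Cand S :=
  ⟨{M | ∀ C : Cand S, M ∈ C.1},
    ⟨fun _ h => h Cand.top, fun M h h' C => C.2.neut M h h',
      fun M M' A N h hA hN hM C => C.2.exp M M' A N h hA hN (hM C)⟩⟩

theorem Cand.bot_le (C : Cand S) : (Cand.bot : Cand S).1 ⊆ C.1 := fun _ h => h C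
theorem Cand.le_top (C : Cand S) : C.1 ⊆ (Cand.top : Cand S).1 := fun M h => C.2.sn M h

/-- Dependent arrow of candidates: arguments `a` in `A`, indices `i` with `P a i`. -/
def Cand.arr {ι : Type v} (A : Cand S) (P : Tm S → ι → Prop) (B : Tm S → ι → Cand S) : Cand S :=
  ⟨{M | SN M ∧ ∀ a i, P a i → a ∈ A.1 → app M a ∈ (B a i).1},
    ⟨fun _ h => h.1,
      fun M h h' => ⟨h, fun a i _ ha =>
        (B a i).2.neut _ (sn_neut_app h' h (A.2.sn a ha)) (Neut.app a h')⟩,
      fun _ _ _ _ h hA hN hM => ⟨h.sn hA hN hM.1, fun a i hP ha =>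
        (B a i).2.exp _ _ _ _ (HRed.app a h) hA hN (hM.2 a i hP ha)⟩⟩⟩

theorem Cand.mem_arr {ι : Type v} {A : Cand S} {P : Tm S → ι → Prop} {B : Tm S → ι → Cand S}
    {M : Tm S} :
    M ∈ (Cand.arr A P B).1 ↔ SN M ∧ ∀ a i, P a i → a ∈ A.1 → app M a ∈ (B a i).1 := Iff.rfl

open Classical in
/-- `top` if `p` holds, `c` otherwise. -/
noncomputable def Cand.cut (p : Prop) (c : Cand S) : Cand S := if p then Cand.top else c

end Vale.Agent.P340
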