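import Vale.Agent.P340.Defs

/-! P340: untyped reduction theory (congruences, Church-Rosser, normal forms, candidates). -/

namespace Vale.Agent.P340

universe u v
open Tm
variable {S : Type u}

theorem Step.subst {M M' : Tm S} (h : Step M M') (σ : ℕ → Tm S) :
    Step (subst σ M) (subst σ M') := by
  induction h generalizing σ with
  | beta A M N => rw [inst_subst']; exact Step.beta _ _ _
  | appL N _ ih => exact Step.appL _ (ih σ)
  | appR M _ ih => exact Step.appR _ (ih σ)
  | lamL M _ ih => exact Step.lamL _ (ih σ)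
  | lamR A _ ih => exact Step.lamR _ (ih _)
  | piL M _ ih => exact Step.piL _ (ih σ)
  | piR A _ ih => exact Step.piR _ (ih _)

theorem Step.ren {M M' : Tm S} (h : Step M M') (f : ℕ → ℕ) : Step (ren f M) (ren f M') := by
  rw [ren_eq_subst, ren_eq_subst]; exact h.subst _

/-- Steps of a renamed term come from steps of the term. -/
theorem step_ren_inv {M N : Tm S} {f : ℕ → ℕ} (h : Step (ren f M) N) :
    ∃ M', Step M M' ∧ N = ren f M' := by
  induction M generalizing f N with
  | var n => cases h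
  | sort s => cases h
  | con A t => cases h
  | app M₁ M₂ ih₁ ih₂ =>
    rw [ren_app] at h
    generalize hM : ren f M₁ = R at h
    cases h with
    | beta A P _ =>
      cases M₁ with
      | lam A' P' =>
        rw [ren_lam] at hM
        cases hM
        exact ⟨_, Step.beta _ _ _, (inst_ren _ _ _).symm⟩
      | _ => cases hM
    | appL _ h =>
      subst hM
      obtain ⟨M', h1, rfl⟩ := ih₁ h
      exact ⟨_, Step.appL _ h1, rfl⟩
    | appR _ h =>
      subst hM
      obtain ⟨M', h1, rfl⟩ := ih₂ h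
      exact ⟨_, Step.appR _ h1, rfl⟩
  | lam M₁ M₂ ih₁ ih₂ =>
    rw [ren_lam] at h
    cases h with
    | lamL _ h =>
      obtain ⟨M', h1, rfl⟩ := ih₁ h
      exact ⟨_, Step.lamL _ h1, rfl⟩
    | lamR _ h =>
      obtain ⟨M', h1, rfl⟩ := ih₂ h
      exact ⟨_, Step.lamR _ h1, rfl⟩
  | pi M₁ M₂ ih₁ ih₂ =>
    rw [ren_pi] at h
    cases h with
    | piL _ h =>
      obtain ⟨M', h1, rfl⟩ := ih₁ h
      exact ⟨_, Step.piL _ h1, rfl⟩
    | piR _ h =>
      obtain ⟨M', h1, rfl⟩ := ih₂ h
      exact ⟨_, Step.piR _ h1, rfl⟩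

namespace Conf

theorem red_map (F : Tm S → Tm S) (hF : ∀ M N, Step M N → Step (F M) (F N)) {M N : Tm S}
    (h : Red M N) : Red (F M) (F N) := by
  induction h with
  | refl => exact Relation.ReflTransGen.refl
  | tail _ h ih => exact ih.tail (hF _ _ h)

theorem conv_map (F : Tm S → Tm S) (hF : ∀ M N, Step M N → Step (F M) (F N)) {M N : Tm S}
    (h : Conv M N) : Conv (F M) (F N) := by
  induction h with
  | rel _ _ h => exact Relation.EqvGen.rel _ _ (hF _ _ h)
  | refl => exact Relation.EqvGen.refl _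
  | symm _ _ _ ih => exact Relation.EqvGen.symm _ _ ih
  | trans _ _ _ _ _ ih ih' => exact Relation.EqvGen.trans _ _ _ ih ih'

theorem red_pres (P : Tm S → Prop) (hP : ∀ M N, P M → Step M N → P N) {M N : Tm S}
    (h : Red M N) (hM : P M) : P N := by
  induction h with
  | refl => exact hM
  | tail _ h ih => exact hP _ _ ih h

end Conf

open Conf

theorem Red.app {M M' N N' : Tm S} (h : Red M M') (h' : Red N N') : Red (app M N) (app M' N') :=
  (red_map (fun X => Tm.app X N) (fun _ _ => Step.appL _) h).trans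
    (red_map (fun X => Tm.app M' X) (fun _ _ => Step.appR _) h')
theorem Red.lam {M M' N N' : Tm S} (h : Red M M') (h' : Red N N') : Red (lam M N) (lam M' N') :=
  (red_map (fun X => Tm.lam X N) (fun _ _ => Step.lamL _) h).trans
    (red_map (fun X => Tm.lam M' X) (fun _ _ => Step.lamR _) h')
theorem Red.pi {M M' N N' : Tm S} (h : Red M M') (h' : Red N N') : Red (pi M N) (pi M' N') :=
  (red_map (fun X => Tm.pi X N) (fun _ _ => Step.piL _) h).trans
    (red_map (fun X => Tm.pi M' X) (fun _ _ => Step.piR _) h')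
theorem Red.subst {M M' : Tm S} (h : Red M M') (σ : ℕ → Tm S) :
    Red (subst σ M) (subst σ M') := red_map (Tm.subst σ) (fun _ _ h => h.subst σ) h
theorem Red.ren {M M' : Tm S} (h : Red M M') (f : ℕ → ℕ) : Red (ren f M) (ren f M') :=
  red_map (Tm.ren f) (fun _ _ h => h.ren f) h
theorem red_subst_env (M : Tm S) {σ τ : ℕ → Tm S} (h : ∀ n, Red (σ n) (τ n)) :
    Red (subst σ M) (subst τ M) := by
  have hup : ∀ {σ τ : ℕ → Tm S}, (∀ n, Red (σ n) (τ n)) → ∀ n, Red (up σ n) (up τ n) := by
    intro σ τ h n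
    cases n with
    | zero => exact Relation.ReflTransGen.refl
    | succ n => exact Red.ren (h n) _
  induction M generalizing σ τ with
  | var n => exact h n
  | sort s => exact Relation.ReflTransGen.refl
  | con A t => exact Relation.ReflTransGen.refl
  | app M N ihM ihN => exact Red.app (ihM h) (ihN h)
  | lam M N ihM ihN => exact Red.lam (ihM h) (ihN (hup h))
  | pi M N ihM ihN => exact Red.pi (ihM h) (ihN (hup h))
theorem Red.conv {M N : Tm S} (h : Red M N) : Conv M N := by
  induction h with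
  | refl => exact Relation.EqvGen.refl _
  | tail _ h ih => exact Relation.EqvGen.trans _ _ _ ih (Relation.EqvGen.rel _ _ h)
theorem Step.conv {M N : Tm S} (h : Step M N) : Conv M N := Relation.EqvGen.rel _ _ h

theorem Conv.rfl {M : Tm S} : Conv M M := Relation.EqvGen.refl _
theorem Conv.symm' {M N : Tm S} (h : Conv M N) : Conv N M := Relation.EqvGen.symm _ _ h
theorem Conv.trans' {M N P : Tm S} (h : Conv M N) (h' : Conv N P) : Conv M P :=
  Relation.EqvGen.trans _ _ _ h h'
theorem Conv.app {M M' N N' : Tm S} (h : Conv M M') (h' : Conv N N') :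
    Conv (app M N) (app M' N') :=
  Conv.trans' (conv_map (fun X => Tm.app X N) (fun _ _ => Step.appL _) h)
    (conv_map (fun X => Tm.app M' X) (fun _ _ => Step.appR _) h')
theorem Conv.lam {M M' N N' : Tm S} (h : Conv M M') (h' : Conv N N') :
    Conv (lam M N) (lam M' N') :=
  Conv.trans' (conv_map (fun X => Tm.lam X N) (fun _ _ => Step.lamL _) h)
    (conv_map (fun X => Tm.lam M' X) (fun _ _ => Step.lamR _) h')
theorem Conv.pi {M M' N N' : Tm S} (h : Conv M M') (h' : Conv N N') :
    Conv (pi M N) (pi M' N') :=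
  Conv.trans' (conv_map (fun X => Tm.pi X N) (fun _ _ => Step.piL _) h)
    (conv_map (fun X => Tm.pi M' X) (fun _ _ => Step.piR _) h')
theorem Conv.subst {M M' : Tm S} (h : Conv M M') (σ : ℕ → Tm S) :
    Conv (subst σ M) (subst σ M') := conv_map (Tm.subst σ) (fun _ _ h => h.subst σ) h
theorem Conv.ren {M M' : Tm S} (h : Conv M M') (f : ℕ → ℕ) : Conv (ren f M) (ren f M') :=
  conv_map (Tm.ren f) (fun _ _ h => h.ren f) h
theorem Conv.lift {M M' : Tm S} (h : Conv M M') : Conv (lift M) (lift M') := h.ren _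
theorem conv_subst_env (M : Tm S) {σ τ : ℕ → Tm S} (h : ∀ n, Conv (σ n) (τ n)) :
    Conv (subst σ M) (subst τ M) := by
  have hup : ∀ {σ τ : ℕ → Tm S}, (∀ n, Conv (σ n) (τ n)) → ∀ n, Conv (up σ n) (up τ n) := by
    intro σ τ h n
    cases n with
    | zero => exact Conv.rfl
    | succ n => exact Conv.lift (h n)
  induction M generalizing σ τ with
  | var n => exact h n
  | sort s => exact Conv.rfl
  | con A t => exact Conv.rfl
  | app M N ihM ihN => exact Conv.app (ihM h) (ihN h)
  | lam M N ihM ihN => exact Conv.lam (ihM h) (ihN (hup h))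
  | pi M N ihM ihN => exact Conv.pi (ihM h) (ihN (hup h))
theorem Conv.inst {M M' N N' : Tm S} (h : Conv M M') (h' : Conv N N') :
    Conv (inst M N) (inst M' N') :=
  Conv.trans' (Conv.subst h _) (conv_subst_env M' fun n => by
    cases n with
    | zero => exact h'
    | succ n => exact Conv.rfl)

namespace Conf

/-- Parallel reduction. -/
inductive Par : Tm S → Tm S → Prop
  | var (n : ℕ) : Par (var n) (var n)
  | sort (s : S) : Par (sort s) (sort s)
  | con (A t : Tm S) : Par (con A t) (con A t)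
  | app {M M' N N' : Tm S} : Par M M' → Par N N' → Par (app M N) (app M' N')
  | lam {M M' N N' : Tm S} : Par M M' → Par N N' → Par (lam M N) (lam M' N')
  | pi {M M' N N' : Tm S} : Par M M' → Par N N' → Par (pi M N) (pi M' N')
  | beta (A : Tm S) {M M' N N' : Tm S} : Par M M' → Par N N' →
      Par (app (lam A M) N) (inst M' N')

theorem Par.refl (M : Tm S) : Par M M := by
  induction M with
  | var n => exact Par.var n
  | sort s => exact Par.sort s
  | con A t => exact Par.con A t
  | app M N ihM ihN => exact Par.app ihM ihN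
  | lam M N ihM ihN => exact Par.lam ihM ihN
  | pi M N ihM ihN => exact Par.pi ihM ihN

theorem Par.of_step {M N : Tm S} (h : Step M N) : Par M N := by
  induction h with
  | beta A M N => exact Par.beta A (Par.refl _) (Par.refl _)
  | appL N _ ih => exact Par.app ih (Par.refl _)
  | appR M _ ih => exact Par.app (Par.refl _) ih
  | lamL N _ ih => exact Par.lam ih (Par.refl _)
  | lamR M _ ih => exact Par.lam (Par.refl _) ih
  | piL N _ ih => exact Par.pi ih (Par.refl _)
  | piR M _ ih => exact Par.pi (Par.refl _) ih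

theorem Par.red {M N : Tm S} (h : Par M N) : Red M N := by
  induction h with
  | var n => exact Relation.ReflTransGen.refl
  | sort s => exact Relation.ReflTransGen.refl
  | con A t => exact Relation.ReflTransGen.refl
  | app _ _ ih ih' => exact Red.app ih ih'
  | lam _ _ ih ih' => exact Red.lam ih ih'
  | pi _ _ ih ih' => exact Red.pi ih ih'
  | beta A _ _ ih ih' =>
    exact (Red.app (Red.lam Relation.ReflTransGen.refl ih) ih').tail (Step.beta _ _ _)

theorem Par.ren {M N : Tm S} (h : Par M N) (f : ℕ → ℕ) : Par (ren f M) (ren f N) := by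
  induction h generalizing f with
  | var n => exact Par.refl _
  | sort s => exact Par.refl _
  | con A t => exact Par.refl _
  | app _ _ ih ih' => exact Par.app (ih _) (ih' _)
  | lam _ _ ih ih' => exact Par.lam (ih _) (ih' _)
  | pi _ _ ih ih' => exact Par.pi (ih _) (ih' _)
  | beta A _ _ ih ih' => rw [inst_ren]; exact Par.beta _ (ih _) (ih' _)

theorem Par.subst {M N : Tm S} (h : Par M N) {σ τ : ℕ → Tm S} (hs : ∀ n, Par (σ n) (τ n)) :
    Par (subst σ M) (subst τ N) := by
  have hup : ∀ {σ τ : ℕ → Tm S}, (∀ n, Par (σ n) (τ n)) → ∀ n, Par (up σ n) (up τ n) := by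
    intro σ τ h n
    cases n with
    | zero => exact Par.refl _
    | succ n => exact (h n).ren _
  induction h generalizing σ τ with
  | var n => exact hs n
  | sort s => exact Par.refl _
  | con A t => exact Par.refl _
  | app _ _ ih ih' => exact Par.app (ih hs) (ih' hs)
  | lam _ _ ih ih' => exact Par.lam (ih hs) (ih' (hup hs))
  | pi _ _ ih ih' => exact Par.pi (ih hs) (ih' (hup hs))
  | beta A _ _ ih ih' => rw [inst_subst']; exact Par.beta _ (ih (hup hs)) (ih' hs)

theorem Par.inst {M M' N N' : Tm S} (h : Par M M') (h' : Par N N') :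
    Par (inst M N) (inst M' N') :=
  h.subst fun n => by
    cases n with
    | zero => exact h'
    | succ n => exact Par.refl _

theorem Par.lam_inv {A P T : Tm S} (h : Par (Tm.lam A P) T) :
    ∃ A' P', T = Tm.lam A' P' ∧ Par A A' ∧ Par P P' := by
  cases h with
  | lam h h' => exact ⟨_, _, rfl, h, h'⟩

theorem Par.diamond {M N P : Tm S} (h : Par M N) (h' : Par M P) : ∃ Q, Par N Q ∧ Par P Q := by
  induction h generalizing P with
  | var n => exact ⟨P, h', Par.refl _⟩
  | sort s => exact ⟨P, h', Par.refl _⟩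
  | con A t => exact ⟨P, h', Par.refl _⟩
  | app h1 h2 ih ih' =>
    cases h' with
    | app g1 g2 =>
      obtain ⟨Q, a, b⟩ := ih g1
      obtain ⟨Q', a', b'⟩ := ih' g2
      exact ⟨_, Par.app a a', Par.app b b'⟩
    | beta A g1 g2 =>
      obtain ⟨A', P', rfl, -, -⟩ := h1.lam_inv
      obtain ⟨Q, a, b⟩ := ih (Par.lam (Par.refl A) g1)
      obtain ⟨Q', a', b'⟩ := ih' g2
      obtain ⟨A₁, P₁, rfl, -, a1⟩ := a.lam_inv
      obtain ⟨A₂, P₂, e, -, b1⟩ := b.lam_inv
      cases e
      exact ⟨_, Par.beta _ a1 a', b1.inst b'⟩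
  | lam h1 h2 ih ih' =>
    cases h' with
    | lam g1 g2 =>
      obtain ⟨Q, a, b⟩ := ih g1
      obtain ⟨Q', a', b'⟩ := ih' g2
      exact ⟨_, Par.lam a a', Par.lam b b'⟩
  | pi h1 h2 ih ih' =>
    cases h' with
    | pi g1 g2 =>
      obtain ⟨Q, a, b⟩ := ih g1
      obtain ⟨Q', a', b'⟩ := ih' g2
      exact ⟨_, Par.pi a a', Par.pi b b'⟩
  | beta A h1 h2 ih ih' =>
    cases h' with
    | app g1 g2 =>
      obtain ⟨A', P', rfl, -, g3⟩ := g1.lam_inv
      obtain ⟨Q, a, b⟩ := ih g3
      obtain ⟨Q', a', b'⟩ := ih' g2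
      exact ⟨_, a.inst a', Par.beta _ b b'⟩
    | beta _ g1 g2 =>
      obtain ⟨Q, a, b⟩ := ih g1
      obtain ⟨Q', a', b'⟩ := ih' g2
      exact ⟨_, a.inst a', b.inst b'⟩

theorem strip {M N P : Tm S} (h : Par M N) (h' : Red M P) : ∃ Q, Red N Q ∧ Par P Q := by
  induction h' with
  | refl => exact ⟨N, Relation.ReflTransGen.refl, h⟩
  | tail _ g ih =>
    obtain ⟨Q, a, b⟩ := ih
    obtain ⟨R, c, d⟩ := b.diamond (Par.of_step g)
    exact ⟨R, a.trans c.red, d⟩

theorem confl {M N P : Tm S} (h : Red M N) (h' : Red M P) : ∃ Q, Red N Q ∧ Red P Q := by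
  induction h with
  | refl => exact ⟨P, h', Relation.ReflTransGen.refl⟩
  | tail _ g ih =>
    obtain ⟨Q, a, b⟩ := ih
    obtain ⟨R, c, d⟩ := strip (Par.of_step g) a
    exact ⟨R, c, b.trans d.red⟩

end Conf

/-- Church-Rosser. -/
theorem Conv.join {M N : Tm S} (h : Conv M N) : ∃ P, Red M P ∧ Red N P := by
  induction h with
  | rel _ y h => exact ⟨y, Relation.ReflTransGen.single h, Relation.ReflTransGen.refl⟩
  | refl x => exact ⟨x, Relation.ReflTransGen.refl, Relation.ReflTransGen.refl⟩
  | symm _ _ _ ih => obtain ⟨P, a, b⟩ := ih; exact ⟨P, b, a⟩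
  | trans _ _ _ _ _ ih ih' =>
    obtain ⟨P, a, b⟩ := ih
    obtain ⟨Q, c, d⟩ := ih'
    obtain ⟨R, e, f⟩ := confl b c
    exact ⟨R, a.trans e, d.trans f⟩

theorem normal_var (n : ℕ) : Normal (var n : Tm S) := fun _ h => by cases h
theorem normal_sort (s : S) : Normal (sort s : Tm S) := fun _ h => by cases h
theorem normal_con (A t : Tm S) : Normal (con A t) := fun _ h => by cases h

theorem Normal.red_eq {M N : Tm S} (h : Normal M) (h' : Red M N) : N = M :=
  red_pres (fun X => X = M) (fun _ Y hX hs => absurd (hX ▸ hs) (h Y)) h' rfl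

theorem red_sort_inv {s : S} {T : Tm S} (h : Red (sort s) T) : T = sort s :=
  (normal_sort s).red_eq h
theorem red_con_inv {A t T : Tm S} (h : Red (con A t) T) : T = con A t :=
  (normal_con A t).red_eq h
theorem red_pi_inv {A B T : Tm S} (h : Red (pi A B) T) :
    ∃ A' B', T = pi A' B' ∧ Red A A' ∧ Red B B' := by
  induction h with
  | refl => exact ⟨A, B, rfl, Relation.ReflTransGen.refl, Relation.ReflTransGen.refl⟩
  | tail _ g ih =>
    obtain ⟨A', B', rfl, a, b⟩ := ih
    cases g with
    | piL _ g => exact ⟨_, _, rfl, a.tail g, b⟩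
    | piR _ g => exact ⟨_, _, rfl, a, b.tail g⟩
theorem red_lam_inv {A B T : Tm S} (h : Red (lam A B) T) :
    ∃ A' B', T = lam A' B' ∧ Red A A' ∧ Red B B' := by
  induction h with
  | refl => exact ⟨A, B, rfl, Relation.ReflTransGen.refl, Relation.ReflTransGen.refl⟩
  | tail _ g ih =>
    obtain ⟨A', B', rfl, a, b⟩ := ih
    cases g with
    | lamL _ g => exact ⟨_, _, rfl, a.tail g, b⟩
    | lamR _ g => exact ⟨_, _, rfl, a, b.tail g⟩
theorem Normal.red_of_conv {M N : Tm S} (h : Normal N) (h' : Conv M N) : Red M N := by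
  obtain ⟨P, a, b⟩ := Conv.join h'
  exact h.red_eq b ▸ a
theorem Normal.eq_of_conv {M N : Tm S} (h : Normal M) (h' : Normal N) (hc : Conv M N) : M = N :=
  (h.red_eq (h'.red_of_conv hc)).symm
theorem conv_pi_inj {A B A' B' : Tm S} (h : Conv (pi A B) (pi A' B')) :
    Conv A A' ∧ Conv B B' := by
  obtain ⟨P, a, b⟩ := Conv.join h
  obtain ⟨A₁, B₁, rfl, a1, a2⟩ := red_pi_inv a
  obtain ⟨A₂, B₂, e, b1, b2⟩ := red_pi_inv b
  cases e
  exact ⟨Conv.trans' (Red.conv a1) (Conv.symm' (Red.conv b1)),
    Conv.trans' (Red.conv a2) (Conv.symm' (Red.conv b2))⟩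
theorem conv_sort_inj {s t : S} (h : Conv (sort s : Tm S) (sort t)) : s = t :=
  Tm.sort.inj ((normal_sort s).eq_of_conv (normal_sort t) h)
theorem not_conv_sort_pi {s : S} {A B : Tm S} : ¬ Conv (sort s) (pi A B) := by
  intro h
  obtain ⟨A', B', e, -⟩ := red_pi_inv ((normal_sort s).red_of_conv (Conv.symm' h))
  cases e
theorem ConHd.step {M N : Tm S} (h : ConHd M) (h' : Step M N) : ConHd N := by
  induction h generalizing N with
  | con A t => cases h'
  | app R hM ih =>
    cases h' with
    | beta A P _ => cases hM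
    | appL _ g => exact ConHd.app _ (ih g)
    | appR _ g => exact ConHd.app _ hM
theorem VarHd.step {y : ℕ} {M N : Tm S} (h : VarHd y M) (h' : Step M N) : VarHd y N := by
  induction h generalizing N with
  | var => cases h'
  | app R hM ih =>
    cases h' with
    | beta A P _ => cases hM
    | appL _ g => exact VarHd.app _ (ih g)
    | appR _ g => exact VarHd.app _ hM
theorem Neut.step {M N : Tm S} (h : Neut M) (h' : Step M N) : Neut N := by
  induction h generalizing N with
  | var n => cases h'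
  | sort s => cases h'
  | con A t => cases h'
  | pi A B =>
    cases h' with
    | piL _ g => exact Neut.pi _ _
    | piR _ g => exact Neut.pi _ _
  | app R hM ih =>
    cases h' with
    | beta A P _ => cases hM
    | appL _ g => exact Neut.app _ (ih g)
    | appR _ g => exact Neut.app _ hM
theorem ConHd.subst {M : Tm S} (h : ConHd M) (σ : ℕ → Tm S) : ConHd (subst σ M) := by
  induction h with
  | con A t => exact ConHd.con A t
  | app R _ ih => exact ConHd.app _ ih
theorem ConHd.not_conv_pi {M A B : Tm S} (h : ConHd M) : ¬ Conv M (pi A B) := by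
  intro hc
  obtain ⟨P, a, b⟩ := Conv.join hc
  obtain ⟨A', B', rfl, -⟩ := red_pi_inv b
  cases red_pres ConHd (fun _ _ => ConHd.step) a h
theorem ConHd.not_conv_sort {M : Tm S} {s : S} (h : ConHd M) : ¬ Conv M (sort s) := by
  intro hc
  cases red_pres ConHd (fun _ _ => ConHd.step) ((normal_sort s).red_of_conv hc) h
theorem VarHd.neut {y : ℕ} {M : Tm S} (h : VarHd y M) : Neut M := by
  induction h with
  | var => exact Neut.var _
  | app R _ ih => exact Neut.app _ ih
theorem ConHd.neut {M : Tm S} (h : ConHd M) : Neut M := by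
  induction h with
  | con A t => exact Neut.con _ _
  | app R _ ih => exact Neut.app _ ih
theorem VarHd.unique {y z : ℕ} {M : Tm S} (h : VarHd y M) (h' : VarHd z M) : y = z := by
  induction h with
  | var => cases h'; rfl
  | app R _ ih =>
    cases h' with
    | app _ g => exact ih g
/-- A variable-headed term under a substitution sending its head to a variable. -/
theorem VarHd.subst_var {y z : ℕ} {M : Tm S} (h : VarHd y M) {σ : ℕ → Tm S}
    (hσ : σ y = Tm.var z) : VarHd z (subst σ M) := by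
  induction h with
  | var => rw [Tm.subst_var, hσ]; exact VarHd.var
  | app R _ ih => exact VarHd.app _ ih

theorem normal_pi {A B : Tm S} : Normal (pi A B) ↔ Normal A ∧ Normal B := by
  refine ⟨fun h => ⟨fun _ g => h _ (Step.piL _ g), fun _ g => h _ (Step.piR _ g)⟩, ?_⟩
  rintro ⟨h, h'⟩ N g
  cases g with
  | piL _ g => exact h _ g
  | piR _ g => exact h' _ g
theorem normal_lam {A B : Tm S} : Normal (lam A B) ↔ Normal A ∧ Normal B := by
  refine ⟨fun h => ⟨fun _ g => h _ (Step.lamL _ g), fun _ g => h _ (Step.lamR _ g)⟩, ?_⟩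
  rintro ⟨h, h'⟩ N g
  cases g with
  | lamL _ g => exact h _ g
  | lamR _ g => exact h' _ g
/-- Every term is an abstraction, neutral, or has a head redex. -/
theorem shape (M : Tm S) : (∃ A P, M = lam A P) ∨ Neut M ∨ ∃ M' A N, HRed M M' A N := by
  induction M with
  | var n => exact Or.inr (Or.inl (Neut.var n))
  | sort s => exact Or.inr (Or.inl (Neut.sort s))
  | con A t => exact Or.inr (Or.inl (Neut.con A t))
  | pi A B => exact Or.inr (Or.inl (Neut.pi A B))
  | lam A P => exact Or.inl ⟨A, P, rfl⟩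
  | app M N ihM _ =>
    rcases ihM with ⟨A, P, rfl⟩ | h | ⟨M', A, N', h⟩
    · exact Or.inr (Or.inr ⟨_, _, _, HRed.beta A P N⟩)
    · exact Or.inr (Or.inl (Neut.app _ h))
    · exact Or.inr (Or.inr ⟨_, _, _, HRed.app _ h⟩)
theorem Conf.hred_step {M M' A N : Tm S} (h : HRed M M' A N) : Step M M' := by
  induction h with
  | beta A P N => exact Step.beta _ _ _
  | app R _ ih => exact Step.appL _ ih
theorem normal_app {M N : Tm S} : Normal (app M N) ↔ Normal M ∧ Normal N ∧ Neut M := by
  constructor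
  · intro h
    refine ⟨fun _ g => h _ (Step.appL _ g), fun _ g => h _ (Step.appR _ g), ?_⟩
    rcases shape M with ⟨A, P, rfl⟩ | g | ⟨M', A, N', g⟩
    · exact absurd (Step.beta _ _ _) (h _)
    · exact g
    · exact absurd (Step.appL _ (hred_step g)) (h _)
  · rintro ⟨h, h', hn⟩ T g
    cases g with
    | beta A P _ => cases hn
    | appL _ g => exact h _ g
    | appR _ g => exact h' _ g
theorem normal_ren {M : Tm S} {f : ℕ → ℕ} : Normal (ren f M) ↔ Normal M := by
  refine ⟨fun h _ g => h _ (g.ren f), fun h N g => ?_⟩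
  obtain ⟨M', g', -⟩ := step_ren_inv g
  exact h _ g'

theorem nf_eq_of_conv {M N : Tm S} (h : Conv M N) (hN : Normal N) : nf M = N := by
  have hex : ∃ N, Conv M N ∧ Normal N := ⟨N, h, hN⟩
  rw [nf, dif_pos hex]
  exact hex.choose_spec.2.eq_of_conv hN (Conv.trans' (Conv.symm' hex.choose_spec.1) h)
theorem nf_conv {M N : Tm S} (h : Conv M N) : nf M = nf N := by
  by_cases hex : ∃ P, Conv M P ∧ Normal P
  · obtain ⟨P, a, b⟩ := hex
    rw [nf_eq_of_conv a b, nf_eq_of_conv (Conv.trans' (Conv.symm' h) a) b]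
  · have hex' : ¬ ∃ P, Conv N P ∧ Normal P := fun ⟨P, a, b⟩ => hex ⟨P, Conv.trans' h a, b⟩
    rw [nf, nf, dif_neg hex, dif_neg hex']
theorem WN.red_nf {M : Tm S} (h : WN M) : Red M (nf M) := by
  obtain ⟨N, a, b⟩ := h
  rwa [nf_eq_of_conv (Red.conv a) b]
theorem WN.normal_nf {M : Tm S} (h : WN M) : Normal (nf M) := by
  obtain ⟨N, a, b⟩ := h
  rwa [nf_eq_of_conv (Red.conv a) b]
theorem Normal.nf_eq {M : Tm S} (h : Normal M) : nf M = M := nf_eq_of_conv Conv.rfl h
theorem WN.of_conv {M N : Tm S} (h : WN N) (hc : Conv M N) : WN M := by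
  obtain ⟨P, a, b⟩ := h
  exact ⟨P, b.red_of_conv (Conv.trans' hc (Red.conv a)), b⟩
theorem wn_pi {A B : Tm S} : WN (pi A B) ↔ WN A ∧ WN B := by
  constructor
  · rintro ⟨P, a, b⟩
    obtain ⟨A', B', rfl, a1, a2⟩ := red_pi_inv a
    exact ⟨⟨A', a1, (normal_pi.1 b).1⟩, ⟨B', a2, (normal_pi.1 b).2⟩⟩
  · rintro ⟨⟨A', a, b⟩, ⟨B', c, d⟩⟩
    exact ⟨_, Red.pi a c, normal_pi.2 ⟨b, d⟩⟩
theorem nf_pi {A B : Tm S} (h : WN (pi A B)) : nf (pi A B) = pi (nf A) (nf B) := by
  obtain ⟨hA, hB⟩ := wn_pi.1 h
  exact nf_eq_of_conv (Red.conv (Red.pi hA.red_nf hB.red_nf))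
    (normal_pi.2 ⟨hA.normal_nf, hB.normal_nf⟩)
theorem nf_ren {M : Tm S} (h : WN M) (f : ℕ → ℕ) : nf (ren f M) = ren f (nf M) :=
  nf_eq_of_conv (Red.conv (Red.ren h.red_nf f)) (normal_ren.2 h.normal_nf)
theorem VarHd.nf {y : ℕ} {M : Tm S} (h : VarHd y M) (hw : WN M) : VarHd y (nf M) :=
  red_pres (VarHd y) (fun _ _ => VarHd.step) hw.red_nf h
theorem ConHd.nf {M : Tm S} (h : ConHd M) (hw : WN M) : ConHd (nf M) :=
  red_pres ConHd (fun _ _ => ConHd.step) hw.red_nf h

end Vale.Agent.P340
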