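import Vale.Agent.P340.TypB

/-! P340: substitution for constants, generalization of a constant, cut. -/

namespace Vale.Agent.P340

universe u
open Tm
variable {S : Type u}

/-- Replace every visible constant `con A t` by `f A t`, under `k` binders. -/
def csub (f : Tm S → Tm S → Tm S) : ℕ → Tm S → Tm S
  | _, var n => var n
  | _, sort s => sort s
  | k, app M N => app (csub f k M) (csub f k N)
  | k, lam A M => lam (csub f k A) (csub f (k + 1) M)
  | k, pi A B => pi (csub f k A) (csub f (k + 1) B)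
  | k, con A t => ren (fun n => n + k) (f A t)

def csubCtx (f : Tm S → Tm S → Tm S) : List (Tm S) → List (Tm S)
  | [] => []
  | A :: Γ => csub f Γ.length A :: csubCtx f Γ

/-- All visible constants satisfy `C`. -/
def Vis (C : Tm S → Tm S → Prop) : Tm S → Prop
  | var _ => True
  | sort _ => True
  | app M N => Vis C M ∧ Vis C N
  | lam A M => Vis C A ∧ Vis C M
  | pi A B => Vis C A ∧ Vis C B
  | con A t => C A t

/-- The constant `con X t` is not visible. -/
def Fresh (X t : Tm S) (M : Tm S) : Prop := Vis (fun A s => ¬ (A = X ∧ s = t)) M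

open Classical in
/-- Abstraction of the constant `con X t` as the variable `0`. -/
noncomputable def cabs (X t : Tm S) (M : Tm S) : Tm S :=
  csub (fun A s => if A = X ∧ s = t then var 0 else con A s) 0 M

variable {Q Q' : Sys S} {C C' : Tm S → Tm S → Prop}

theorem Vis.mono {M : Tm S} (h : Vis C M) (hC : ∀ A t, C A t → C' A t) : Vis C' M := by
  induction M with
  | var n => trivial
  | sort s => trivial
  | con A t => exact hC _ _ h
  | app M N ih ih' => exact ⟨ih h.1, ih' h.2⟩
  | lam M N ih ih' => exact ⟨ih h.1, ih' h.2⟩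
  | pi M N ih ih' => exact ⟨ih h.1, ih' h.2⟩
theorem vis_ren {M : Tm S} {f : ℕ → ℕ} : Vis C (ren f M) ↔ Vis C M := by
  induction M generalizing f with
  | var n => exact Iff.rfl
  | sort s => exact Iff.rfl
  | con A t => exact Iff.rfl
  | app M N ih ih' => exact and_congr ih ih'
  | lam M N ih ih' => exact and_congr ih ih'
  | pi M N ih ih' => exact and_congr ih ih'
theorem Vis.subst {M : Tm S} {σ : ℕ → Tm S} (h : Vis C M) (hσ : ∀ n, Vis C (σ n)) :
    Vis C (subst σ M) := by
  have hup : ∀ {σ : ℕ → Tm S}, (∀ n, Vis C (σ n)) → ∀ n, Vis C (up σ n) := by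
    intro σ h n
    cases n with
    | zero => trivial
    | succ n => exact vis_ren.2 (h n)
  induction M generalizing σ with
  | var n => exact hσ n
  | sort s => trivial
  | con A t => exact h
  | app M N ih ih' => exact ⟨ih h.1 hσ, ih' h.2 hσ⟩
  | lam M N ih ih' => exact ⟨ih h.1 hσ, ih' h.2 (hup hσ)⟩
  | pi M N ih ih' => exact ⟨ih h.1 hσ, ih' h.2 (hup hσ)⟩
theorem Ty.vis {Γ : List (Tm S)} {M T : Tm S} (h : Ty Q C Γ M T) : Vis C M := by
  induction h with
  | ax _ => trivial
  | var _ _ => trivial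
  | weak _ _ ih _ => exact vis_ren.2 ih
  | pi _ _ _ ih ih' => exact ⟨ih, ih'⟩
  | lam _ _ ih ih' => exact ⟨ih'.1, ih⟩
  | app _ _ ih ih' => exact ⟨ih, ih'⟩
  | conv _ _ _ ih _ => exact ih
  | conT h _ _ => exact h
  | conS h _ => exact h
theorem Csub.vis_size (M : Tm S) (n : ℕ) (h : sizeOf M ≤ n) :
    Vis (fun A _ => sizeOf A < n) M := by
  induction M with
  | var n => trivial
  | sort s => trivial
  | con A t =>
    simp only [Tm.con.sizeOf_spec] at h
    change sizeOf A < n
    omega
  | app M N ih ih' =>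
    simp only [Tm.app.sizeOf_spec] at h
    exact ⟨ih (by omega), ih' (by omega)⟩
  | lam M N ih ih' =>
    simp only [Tm.lam.sizeOf_spec] at h
    exact ⟨ih (by omega), ih' (by omega)⟩
  | pi M N ih ih' =>
    simp only [Tm.pi.sizeOf_spec] at h
    exact ⟨ih (by omega), ih' (by omega)⟩
theorem fresh_self (X t : Tm S) : Fresh X t X :=
  (Csub.vis_size X _ le_rfl).mono fun _ _ h h' => by rw [h'.1] at h; exact lt_irrefl _ h
theorem csub_congr {f g : Tm S → Tm S → Tm S} {M : Tm S} (h : Vis (fun A t => f A t = g A t) M)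
    (k : ℕ) : csub f k M = csub g k M := by
  induction M generalizing k with
  | var n => rfl
  | sort s => rfl
  | con A t => exact congrArg (ren _) h
  | app M N ih ih' => simp only [csub, ih h.1, ih' h.2]
  | lam M N ih ih' => simp only [csub, ih h.1, ih' h.2]
  | pi M N ih ih' => simp only [csub, ih h.1, ih' h.2]
theorem csub_con (k : ℕ) (M : Tm S) : csub con k M = M := by
  induction M generalizing k <;> simp_all [csub]
theorem Csub.csub_ren (f : Tm S → Tm S → Tm S) {k k' : ℕ} {g : ℕ → ℕ}
    (hg : ∀ n, g (n + k) = n + k') (M : Tm S) : csub f k' (ren g M) = ren g (csub f k M) := by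
  have hup : ∀ {k k' : ℕ} {g : ℕ → ℕ}, (∀ n, g (n + k) = n + k') →
      ∀ n, upr g (n + (k + 1)) = n + (k' + 1) := fun h n => congrArg (· + 1) (h n)
  induction M generalizing k k' g with
  | var n => rfl
  | sort s => rfl
  | con A t => simp only [ren_con, csub, ren_ren, hg]
  | app M N ih ih' => simp only [ren_app, csub, ih hg, ih' hg]
  | lam M N ih ih' => simp only [ren_lam, csub, ih hg, ih' (hup hg)]
  | pi M N ih ih' => simp only [ren_pi, csub, ih hg, ih' (hup hg)]
theorem csub_lift (f : Tm S → Tm S → Tm S) (k : ℕ) (M : Tm S) :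
    csub f (k + 1) (lift M) = lift (csub f k M) := Csub.csub_ren f (fun _ => rfl) M
theorem Csub.csub_subst (f : Tm S → Tm S → Tm S) {k k' : ℕ} {σ τ : ℕ → Tm S}
    (h : ∀ n, τ n = csub f k (σ n)) (h' : ∀ n, τ (n + k') = var (n + k)) (M : Tm S) :
    csub f k (subst σ M) = subst τ (csub f k' M) := by
  have hup : ∀ {k : ℕ} {σ τ : ℕ → Tm S}, (∀ n, τ n = csub f k (σ n)) →
      ∀ n, up τ n = csub f (k + 1) (up σ n) := by
    intro k σ τ h n
    cases n with
    | zero => rfl
    | succ n => rw [up_succ, up_succ, csub_lift, h]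
  have hup' : ∀ {k k' : ℕ} {τ : ℕ → Tm S}, (∀ n, τ (n + k') = var (n + k)) →
      ∀ n, up τ (n + (k' + 1)) = var (n + (k + 1)) := fun h n => congrArg lift (h n)
  induction M generalizing k k' σ τ with
  | var n => exact (h n).symm
  | sort s => rfl
  | con A t => simp only [subst_con, csub, subst_ren, h', ← ren_eq_subst]
  | app M N ih ih' => simp only [subst_app, csub, ih h h', ih' h h']
  | lam M N ih ih' => simp only [subst_lam, csub, ih h h', ih' (hup h) (hup' h')]
  | pi M N ih ih' => simp only [subst_pi, csub, ih h h', ih' (hup h) (hup' h')]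
theorem csub_inst (f : Tm S → Tm S → Tm S) (k : ℕ) (M N : Tm S) :
    csub f k (inst M N) = inst (csub f (k + 1) M) (csub f k N) :=
  Csub.csub_subst f (σ := scons N var) (τ := scons (csub f k N) var) (k := k) (k' := k + 1)
    (fun n => by cases n <;> rfl) (fun _ => rfl) M
theorem Step.csub {M N : Tm S} (h : Step M N) (f : Tm S → Tm S → Tm S) (k : ℕ) :
    Step (csub f k M) (csub f k N) := by
  induction h generalizing k with
  | beta A M N => rw [csub_inst]; exact Step.beta _ _ _
  | appL N _ ih => exact Step.appL _ (ih _)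
  | appR M _ ih => exact Step.appR _ (ih _)
  | lamL M _ ih => exact Step.lamL _ (ih _)
  | lamR A _ ih => exact Step.lamR _ (ih _)
  | piL M _ ih => exact Step.piL _ (ih _)
  | piR A _ ih => exact Step.piR _ (ih _)
theorem Conv.csub {M N : Tm S} (h : Conv M N) (f : Tm S → Tm S → Tm S) (k : ℕ) :
    Conv (csub f k M) (csub f k N) :=
  Conf.conv_map (P340.csub f k) (fun _ _ h => h.csub f k) h
theorem Csub.neut_ren {M : Tm S} (h : Neut M) (g : ℕ → ℕ) : Neut (ren g M) := by
  induction h with
  | var n => exact Neut.var _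
  | sort s => exact Neut.sort _
  | pi A B => exact Neut.pi _ _
  | con A t => exact Neut.con _ _
  | app N _ ih => exact Neut.app _ ih
theorem Csub.step_inv {f : Tm S → Tm S → Tm S} (hf : ∀ A t, Normal (f A t) ∧ Neut (f A t))
    {k : ℕ} {M N : Tm S} (h : Step (csub f k M) N) : ∃ M', Step M M' ∧ N = csub f k M' := by
  induction M generalizing k N with
  | var n => cases h
  | sort s => cases h
  | con A t => exact absurd h (normal_ren.2 (hf A t).1 _)
  | app M₁ M₂ ih₁ ih₂ =>
    rw [csub] at h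
    generalize hM : csub f k M₁ = R at h
    cases h with
    | beta A P _ =>
      cases M₁ with
      | lam A' P' =>
        rw [csub] at hM
        cases hM
        exact ⟨_, Step.beta _ _ _, (csub_inst _ _ _ _).symm⟩
      | con A' t =>
        have := Csub.neut_ren (hf A' t).2 fun n => n + k
        rw [csub] at hM
        rw [hM] at this
        cases this
      | _ => cases hM
    | appL _ h =>
      subst hM
      obtain ⟨M', h1, rfl⟩ := ih₁ h
      exact ⟨_, Step.appL _ h1, rfl⟩
    | appR _ h =>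
      subst hM
      obtain ⟨M', h1, rfl⟩ := ih₂ h
      exact ⟨_, Step.appR _ h1, rfl⟩
  | lam M₁ M₂ ih₁ ih₂ =>
    rw [csub] at h
    cases h with
    | lamL _ h =>
      obtain ⟨M', h1, rfl⟩ := ih₁ h
      exact ⟨_, Step.lamL _ h1, rfl⟩
    | lamR _ h =>
      obtain ⟨M', h1, rfl⟩ := ih₂ h
      exact ⟨_, Step.lamR _ h1, rfl⟩
  | pi M₁ M₂ ih₁ ih₂ =>
    rw [csub] at h
    cases h with
    | piL _ h =>
      obtain ⟨M', h1, rfl⟩ := ih₁ h
      exact ⟨_, Step.piL _ h1, rfl⟩
    | piR _ h =>
      obtain ⟨M', h1, rfl⟩ := ih₂ h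
      exact ⟨_, Step.piR _ h1, rfl⟩
/-- Reflection of weak normalization when constants go to normal neutral terms. -/
theorem wn_of_csub {f : Tm S → Tm S → Tm S} (hf : ∀ A t, Normal (f A t) ∧ Neut (f A t))
    {k : ℕ} {M : Tm S} (h : WN (csub f k M)) : WN M := by
  obtain ⟨N, h1, h2⟩ := h
  have key : ∃ M', Red M M' ∧ N = csub f k M' := by
    clear h2
    induction h1 with
    | refl => exact ⟨M, Relation.ReflTransGen.refl, rfl⟩
    | tail _ g ih =>
      obtain ⟨M', a, rfl⟩ := ih
      obtain ⟨M'', b, rfl⟩ := Csub.step_inv hf g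
      exact ⟨M'', a.tail b, rfl⟩
  obtain ⟨M', a, rfl⟩ := key
  exact ⟨M', a, fun _ g => h2 _ (g.csub f k)⟩

theorem Csub.ren_zero (M : Tm S) : ren (fun n => n + 0) M = M := by
  rw [ren_eq_subst]; exact subst_id M

/-- The constant substitution lemma. -/
theorem Ty.csub (ha : ∀ a b, Q.ax a b → Q'.ax a b)
    (hr : ∀ a b c, Q.rule a b c → Q'.rule a b c) {Δ : List (Tm S)} (hΔ : Wf Q' C' Δ)
    {f : Tm S → Tm S → Tm S}
    (hf : ∀ A t, C A t → Ty Q C [] (con A t) A → Ty Q' C' Δ (f A t) (csub f 0 A))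
    {Γ : List (Tm S)} {M T : Tm S} (h : Ty Q C Γ M T) :
    Ty Q' C' (csubCtx f Γ ++ Δ) (csub f Γ.length M) (csub f Γ.length T) := by
  induction h with
  | ax h => exact Ty.axWf hΔ (ha _ _ h)
  | var _ ih => rw [List.length_cons, csub_lift]; exact Ty.var ih
  | weak _ _ ih ih' => rw [List.length_cons, csub_lift, csub_lift]; exact Ty.weak ih ih'
  | pi _ _ h ih ih' => exact Ty.pi ih ih' (hr _ _ _ h)
  | lam _ _ ih ih' => exact Ty.lam ih ih'
  | app _ _ ih ih' => rw [csub_inst]; exact Ty.app ih ih'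
  | conv _ _ h ih ih' => exact Ty.conv ih ih' (Conv.csub h _ _)
  | conT h h' _ =>
    rw [List.length_nil, P340.csub, Csub.ren_zero]; exact hf _ _ h (Ty.conT h h')
  | conS h h' =>
    have := hf _ _ h (Ty.conS h h')
    rw [← Csub.ren_zero (f _ _)] at this
    exact this

open Classical in
theorem Csub.csub_fresh {X t M : Tm S} (h : Fresh X t M) (k : ℕ) :
    csub (fun A s => if A = X ∧ s = t then var 0 else con A s) k M = M :=
  (csub_congr (Vis.mono h fun _ _ h => if_neg h) k).trans (csub_con k M)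

theorem cabs_fresh {X t M : Tm S} (h : Fresh X t M) : cabs X t M = M := Csub.csub_fresh h 0
theorem cabs_inst {X t φ : Tm S} (h : Fresh X t φ) (hb : Bd 1 φ) :
    cabs X t (inst φ (con X t)) = φ := by
  rw [cabs, csub_inst, Csub.csub_fresh h, csub, if_pos ⟨rfl, rfl⟩, inst,
    subst_congr_bd hb (τ := var), subst_id]
  intro n hn
  obtain rfl : n = 0 := by omega
  rfl

/-- Generalization of a constant. -/
theorem Ty.gen {X t : Tm S} {s : S} (hX : Ty Q C' [] X (sort s))
    (hC : ∀ A r, C A r → ¬ (A = X ∧ r = t) → Ty Q C' [] (con A r) A ∧ Fresh X t A)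
    {M T : Tm S} (h : Ty Q C [] M T) : Ty Q C' [X] (cabs X t M) (cabs X t T) := by
  refine Ty.csub (Δ := [X]) (fun _ _ h => h) (fun _ _ _ h => h) (Wf.cons hX) ?_ h
  intro A r h1 _
  by_cases hc : A = X ∧ r = t
  · obtain ⟨rfl, rfl⟩ := hc
    rw [if_pos ⟨rfl, rfl⟩, Csub.csub_fresh (fresh_self _ _)]
    have := Ty.var hX
    rwa [lift_closed hX.closed] at this
  · rw [if_neg hc, Csub.csub_fresh (hC A r h1 hc).2]
    exact (hC A r h1 hc).1.ofClosed (Wf.cons hX)

end Vale.Agent.P340
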