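import Vale.Agent.P340.TypB
import Vale.Agent.P340.Cand

/-! P340: the layer induction. An interpretation of the types that have a sort in `Lo ∪ K`
gives closure of strong normalization under application at those product types. -/

namespace Vale.Agent.P340

universe u v
open Tm
variable {S : Type u}

/-- Interpretation of types in context by candidates. -/
structure Model (Q : Sys S) (Mid : S → Prop) where
  Env : Type v
  sub : Env → ℕ → Tm S
  ok : List (Tm S) → Env → Prop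
  ext : Tm S → Env → Tm S → Env → Prop
  I : List (Tm S) → Tm S → Env → Cand S
  ok_sub : ∀ {Γ e}, ok Γ e → SubT Q allC [] (sub e) Γ
  ok_nil : ∃ e, ok [] e
  ext_ok : ∀ {Γ A s e N e'}, ok Γ e → Ty Q allC Γ A (sort s) →
    Ty Q allC [] N (subst (sub e) A) → ext A e N e' → ok (A :: Γ) e' ∧ sub e' = scons N (sub e)
  ext_ex : ∀ A e N, ∃ e', ext A e N e'
  conv : ∀ {Γ T T' s s' e}, ok Γ e → Ty Q allC Γ T (sort s) → Ty Q allC Γ T' (sort s') →
    Conv T T' → (I Γ T e).1 ⊆ (I Γ T' e).1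
  weak : ∀ {Γ A s T s' e N e'}, ok Γ e → Ty Q allC Γ A (sort s) → Ty Q allC Γ T (sort s') →
    Ty Q allC [] N (subst (sub e) A) → ext A e N e' → (I Γ T e).1 ⊆ (I (A :: Γ) (lift T) e').1
  elim : ∀ {Γ A B s e M N}, ok Γ e → Ty Q allC Γ (pi A B) (sort s) → HasS Q Mid Γ (pi A B) →
    Ty Q allC [] M (subst (sub e) (pi A B)) → M ∈ (I Γ (pi A B) e).1 → Ty Q allC Γ N A →
    subst (sub e) N ∈ (I Γ A e).1 → app M (subst (sub e) N) ∈ (I Γ (inst B N) e).1
  intro : ∀ {Γ A B s e M}, ok Γ e → Ty Q allC Γ (pi A B) (sort s) → SN M →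
    (∀ N e', Ty Q allC [] N (subst (sub e) A) → N ∈ (I Γ A e).1 → ext A e N e' →
      app M N ∈ (I (A :: Γ) B e').1) → M ∈ (I Γ (pi A B) e).1

namespace David

/-- Immediate subterms. -/
inductive Sb : Tm S → Tm S → Prop
  | appL (M N : Tm S) : Sb M (app M N)
  | appR (M N : Tm S) : Sb N (app M N)
  | lamL (M N : Tm S) : Sb M (lam M N)
  | lamR (M N : Tm S) : Sb N (lam M N)
  | piL (M N : Tm S) : Sb M (pi M N)
  | piR (M N : Tm S) : Sb N (pi M N)

theorem acc_sb (M : Tm S) : Acc Sb M := by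
  induction M <;> refine Acc.intro _ fun N h => ?_ <;> cases h <;> assumption

theorem Sb.step {M P M' : Tm S} (h : Sb M P) (hs : Step M M') : ∃ P', Step P P' ∧ Sb M' P' := by
  cases h with
  | appL => exact ⟨_, Step.appL _ hs, Sb.appL _ _⟩
  | appR => exact ⟨_, Step.appR _ hs, Sb.appR _ _⟩
  | lamL => exact ⟨_, Step.lamL _ hs, Sb.lamL _ _⟩
  | lamR => exact ⟨_, Step.lamR _ hs, Sb.lamR _ _⟩
  | piL => exact ⟨_, Step.piL _ hs, Sb.piL _ _⟩
  | piR => exact ⟨_, Step.piR _ hs, Sb.piR _ _⟩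

theorem sbs_step {M P M' : Tm S} (h : Relation.ReflTransGen Sb M P) (hs : Step M M') :
    ∃ P', Step P P' ∧ Relation.ReflTransGen Sb M' P' := by
  induction h with
  | refl => exact ⟨M', hs, Relation.ReflTransGen.refl⟩
  | tail _ h ih =>
    obtain ⟨R, h1, h2⟩ := ih
    obtain ⟨P', h3, h4⟩ := h.step h1
    exact ⟨P', h3, h2.tail h4⟩

/-- Reducts and subterms. -/
def Rr (M P : Tm S) : Prop := Step P M ∨ Sb M P

theorem acc_rr {P : Tm S} (h : SN P) : Acc Rr P := by
  suffices H : ∀ M, Relation.ReflTransGen Sb M P → Acc Rr M from H P Relation.ReflTransGen.refl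
  induction h with
  | intro P _ ih =>
    intro M
    induction acc_sb M with
    | intro M _ ih' =>
      intro hM
      refine Acc.intro _ fun N hN => ?_
      rcases hN with hN | hN
      · obtain ⟨P', h1, h2⟩ := sbs_step hM hN
        exact ih P' h1 N h2
      · exact ih' N hN (Relation.ReflTransGen.head hN hM)

theorem hred_rr {P P' A N : Tm S} (h : HRed P P' A N) :
    Relation.TransGen Rr A P ∧ Relation.TransGen Rr N P := by
  induction h with
  | beta A P N =>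
    exact ⟨Relation.TransGen.tail (r := Rr) (Relation.TransGen.single (Or.inr (Sb.lamL _ _)))
      (Or.inr (Sb.appL _ _)),
      Relation.TransGen.single (Or.inr (Sb.appR _ _))⟩
  | app R _ ih => exact ⟨ih.1.tail (Or.inr (Sb.appL _ _)), ih.2.tail (Or.inr (Sb.appL _ _))⟩

variable {Q : Sys S}

theorem hasS_weak {X : S → Prop} {Γ : List (Tm S)} {T A : Tm S} (h : HasS Q X Γ T)
    (hA : Wf Q allC (A :: Γ)) : HasS Q X (A :: Γ) (lift T) := by
  obtain ⟨U, s, h1, h2, h3⟩ := h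
  exact ⟨_, s, h1, Conv.lift h2, h3.weak' hA⟩

theorem varHd_lk {y : ℕ} {Γ : List (Tm S)} {M T : Tm S} (hM : VarHd y M)
    (h : Ty Q allC Γ M T) : ∃ Y, Lk Γ y Y := by
  induction hM generalizing T with
  | var => obtain ⟨A, h1, -⟩ := gen_var h; exact ⟨A, h1⟩
  | app N _ ih => obtain ⟨A, B, h1, -⟩ := gen_app h; exact ih h1

theorem varHd_con {y : ℕ} {M : Tm S} (hM : VarHd y M) {σ : ℕ → Tm S} (h : ConHd (σ y)) :
    ConHd (subst σ M) := by
  induction hM with
  | var => exact h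
  | app N _ ih => exact ConHd.app _ ih

theorem sn_up {σ : ℕ → Tm S} {B c : Tm S} (h : SN (subst (scons c σ) B)) :
    SN (subst (up σ) B) := by
  rw [← up_inst] at h
  exact SN.of_subst h

variable {Mid : S → Prop}

/-- The invariant of environments. -/
def Inv (m : Model.{u, v} Q Mid) (Γ : List (Tm S)) (e : m.Env) : Prop :=
  ∀ n A, Lk Γ n A →
    (HasS Q Mid Γ A ∧ m.sub e n ∈ (m.I Γ A e).1) ∨ (ConHd (m.sub e n) ∧ SN (m.sub e n))

theorem Inv.ext {m : Model.{u, v} Q Mid} {Γ : List (Tm S)} {e e' : m.Env} {A N : Tm S} {s : S}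
    (hi : Inv m Γ e) (ho : m.ok Γ e) (hA : Ty Q allC Γ A (sort s))
    (hN : Ty Q allC [] N (subst (m.sub e) A)) (he : m.ext A e N e')
    (h : (HasS Q Mid Γ A ∧ N ∈ (m.I Γ A e).1) ∨ (ConHd N ∧ SN N)) : Inv m (A :: Γ) e' := by
  intro n B hB
  rw [(m.ext_ok ho hA hN he).2]
  rcases lk_cons_inv hB with ⟨rfl, rfl⟩ | ⟨k, B', rfl, rfl, hB'⟩
  · exact h.imp_left fun h => ⟨hasS_weak h.1 (Wf.cons hA), m.weak ho hA hA hN he h.2⟩
  · obtain ⟨s', hs'⟩ := hA.wf.lk_sort hB'
    exact (hi k B' hB').imp_left fun h =>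
      ⟨hasS_weak h.1 (Wf.cons hA), m.weak ho hA hs' hN he h.2⟩

theorem main (hMid : ∀ a b c, Q.rule a b c → Mid c → Mid a ∧ Mid b) (m : Model.{u, v} Q Mid)
    {P : Tm S} (hP : Acc (Relation.TransGen Rr) P) :
    ∀ {Γ T e}, Ty Q allC Γ P T → m.ok Γ e → Inv m Γ e →
      SN (subst (m.sub e) P) ∧ (HasS Q Mid Γ T → subst (m.sub e) P ∈ (m.I Γ T e).1) := by
  induction hP with
  | intro P _ ih =>
    intro Γ T e hT ho hi
    have neu : SN (subst (m.sub e) P) → Neut (subst (m.sub e) P) →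
        SN (subst (m.sub e) P) ∧ (HasS Q Mid Γ T → subst (m.sub e) P ∈ (m.I Γ T e).1) :=
      fun h h' => ⟨h, fun _ => (m.I Γ T e).2.neut _ h h'⟩
    have viaconv : ∀ {T' s}, Ty Q allC Γ T' (sort s) → Conv T T' →
        subst (m.sub e) P ∈ (m.I Γ T' e).1 →
        SN (subst (m.sub e) P) ∧ (HasS Q Mid Γ T → subst (m.sub e) P ∈ (m.I Γ T e).1) := by
      intro T' s h1 h2 h3
      refine ⟨(m.I Γ T' e).2.sn _ h3, fun h => ?_⟩
      obtain ⟨s', hs'⟩ := h.ty_of_type hT
      exact m.conv ho h1 hs' (Conv.symm' h2) h3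
    have body : ∀ {A B T' s}, Sb B P → Ty Q allC Γ A (sort s) → Ty Q allC (A :: Γ) B T' →
        SN (subst (up (m.sub e)) B) := by
      intro A B T' s hB hA hBT
      have hc : Ty Q allC [] (con (subst (m.sub e) A) (var 0)) (subst (m.sub e) A) :=
        Ty.conT trivial (hA.subst (m.ok_sub ho))
      obtain ⟨e', he⟩ := m.ext_ex A e (con (subst (m.sub e) A) (var 0))
      have h1 := m.ext_ok ho hA hc he
      have h2 := (ih B (Relation.TransGen.single (Or.inr hB)) hBT h1.1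
        (hi.ext ho hA hc he (Or.inr ⟨ConHd.con _ _, (normal_con _ _).sn⟩))).1
      rw [h1.2] at h2
      exact sn_up h2
    rcases shape P with ⟨A, M, rfl⟩ | hn | ⟨P', A, N, hr⟩
    · obtain ⟨B, s, hM, hpi, hc⟩ := gen_lam hT
      obtain ⟨s₁, s₂, -, hA, -⟩ := gen_pi_sort hpi
      have sA := (ih A (Relation.TransGen.single (Or.inr (Sb.lamL _ _))) hA ho hi).1
      have sP : SN (subst (m.sub e) (lam A M)) := sn_lam sA (body (Sb.lamR _ _) hA hM)
      refine ⟨sP, fun h => (viaconv hpi hc ?_).2 h⟩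
      obtain ⟨r₁, r₂, r₃, hr, h3, h1, h2⟩ := (h.conv hc).pi_inv hA
      refine m.intro ho hpi sP fun N e' hN hNI he => ?_
      have g1 := m.ext_ok ho hA hN he
      have g2 := (ih M (Relation.TransGen.single (Or.inr (Sb.lamR _ _))) hM g1.1
        (hi.ext ho hA hN he (Or.inl ⟨h1.mono fun _ hs => hs ▸ (hMid _ _ _ hr h3).1, hNI⟩))).2
        (h2.mono fun _ hs => hs ▸ (hMid _ _ _ hr h3).2)
      rw [g1.2, ← up_inst] at g2
      exact (m.I (A :: Γ) B e').2.exp _ _ _ _ (HRed.beta _ _ _) sA ((m.I Γ A e).2.sn _ hNI) g2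
    · cases hn with
      | var n =>
        obtain ⟨A, hA, hc⟩ := gen_var hT
        rcases hi n A hA with h | h
        · obtain ⟨s, hs⟩ := hT.wf.lk_sort hA
          exact viaconv hs hc h.2
        · exact neu h.2 h.1.neut
      | sort s => exact neu (normal_sort s).sn (Neut.sort s)
      | con A t => exact neu (normal_con A t).sn (Neut.con A t)
      | pi A B =>
        obtain ⟨s₁, s₂, s₃, -, hA, hB, -⟩ := gen_pi hT
        exact neu (sn_pi (ih A (Relation.TransGen.single (Or.inr (Sb.piL _ _))) hA ho hi).1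
          (body (Sb.piR _ _) hA hB)) (Neut.pi _ _)
      | @app P₁ P₂ hn =>
        obtain ⟨A, B, h1, h2, hc⟩ := gen_app hT
        have i1 := ih P₁ (Relation.TransGen.single (Or.inr (Sb.appL _ _))) h1 ho hi
        have i2 := ih P₂ (Relation.TransGen.single (Or.inr (Sb.appR _ _))) h2 ho hi
        have cn : ConHd (subst (m.sub e) P₁) → SN (subst (m.sub e) (app P₁ P₂)) ∧
            (HasS Q Mid Γ T → subst (m.sub e) (app P₁ P₂) ∈ (m.I Γ T e).1) := fun h =>
          neu (sn_neut_app h.neut i1.1 i2.1) (Neut.app _ h.neut)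
        rcases hn.cases_pi h1 with ⟨y, hy⟩ | hk
        · obtain ⟨Y, hY⟩ := varHd_lk hy h1
          rcases hi y Y hY with h | h
          · have hm := hy.hasS (fun a b c hr hc => (hMid a b c hr hc).2) h1 hY h.1
            obtain ⟨s, hs⟩ := h1.pi_type
            obtain ⟨s₁, s₂, -, hA, hB⟩ := gen_pi_sort hs
            obtain ⟨r₁, r₂, r₃, hr, h3, g1, -⟩ := hm.pi_inv hA
            exact viaconv (hB.inst h2) hc (m.elim ho hs hm (h1.subst (m.ok_sub ho)) (i1.2 hm) h2
              (i2.2 (g1.mono fun _ hs => hs ▸ (hMid _ _ _ hr h3).1)))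
          · exact cn (varHd_con hy h.1)
        · exact cn (hk.subst _)
    · obtain ⟨⟨s, hA⟩, B, hN⟩ := hr.ty_parts hT
      have i1 := ih P' (Relation.TransGen.single (Or.inl hr.step)) (hT.step hr.step) ho hi
      have i2 := (ih A (hred_rr hr).1 hA ho hi).1
      have i3 := (ih N (hred_rr hr).2 hN ho hi).1
      exact ⟨(hr.subst _).sn i2 i3 i1.1,
        fun h => (m.I Γ T e).2.exp _ _ _ _ (hr.subst _) i2 i3 (i1.2 h)⟩

theorem sn_subst (h : AppSN Q (fun _ => True)) {Γ : List (Tm S)} {M T : Tm S}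
    (hM : Ty Q allC Γ M T) : ∀ σ, SubT Q allC [] σ Γ → (∀ n, n < Γ.length → SN (σ n)) →
      SN (subst σ M) := by
  have ext : ∀ {Γ : List (Tm S)} {σ : ℕ → Tm S} {A : Tm S} {s : S}, Ty Q allC Γ A (sort s) →
      SubT Q allC [] σ Γ → (∀ n, n < Γ.length → SN (σ n)) →
      SubT Q allC [] (scons (con (subst σ A) (var 0)) σ) (A :: Γ) ∧
        ∀ n, n < (A :: Γ).length → SN (scons (con (subst σ A) (var 0)) σ n) := by
    intro Γ σ A s hA hσ hs
    refine ⟨hσ.cons (Ty.conT trivial (hA.subst hσ)), fun n hn => ?_⟩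
    cases n with
    | zero => exact (normal_con _ _).sn
    | succ n => exact hs n (Nat.lt_of_succ_lt_succ hn)
  induction hM with
  | ax _ => exact fun _ _ _ => (normal_sort _).sn
  | var _ _ => exact fun σ _ hs => hs 0 (Nat.succ_pos _)
  | weak _ _ ih _ =>
    intro σ hσ hs
    rw [Typ.subst_lift]
    exact ih _ hσ.tail fun n hn => hs _ (Nat.succ_lt_succ hn)
  | pi hA _ _ ih ih' =>
    intro σ hσ hs
    exact sn_pi (ih σ hσ hs) (sn_up (ih' _ (ext hA hσ hs).1 (ext hA hσ hs).2))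
  | lam hM _ ih ih' =>
    intro σ hσ hs
    obtain ⟨s, hA⟩ := hM.wf.head
    exact sn_lam (CandAux.sn_of_map (f := fun X => pi X _) (fun h => Step.piL _ h) (ih' σ hσ hs))
      (sn_up (ih _ (ext hA hσ hs).1 (ext hA hσ hs).2))
  | app hM hN ih ih' =>
    intro σ hσ hs
    obtain ⟨s, h1⟩ := (hM.subst hσ).pi_type
    exact h _ _ _ _ (hM.subst hσ) (HasS.of_ty h1 trivial) (hN.subst hσ) (ih σ hσ hs) (ih' σ hσ hs)
  | conv _ _ _ ih _ => exact ih
  | conT _ _ _ => exact fun _ _ _ => (normal_con _ _).sn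
  | conS _ _ => exact fun _ _ _ => (normal_con _ _).sn

theorem exists_sub {Γ : List (Tm S)} (h : Wf Q allC Γ) :
    ∃ σ, SubT Q allC [] σ Γ ∧ ∀ n, n < Γ.length → SN (σ n) := by
  induction Γ with
  | nil => exact ⟨var, SubT.id h, fun n hn => absurd hn (Nat.not_lt_zero n)⟩
  | cons A Γ ih =>
    obtain ⟨σ, hσ, hs⟩ := ih h.tail
    obtain ⟨s, hA⟩ := h.head
    refine ⟨_, hσ.cons (Ty.conT (t := var 0) trivial (hA.subst hσ)), fun n hn => ?_⟩
    cases n with
    | zero => exact (normal_con _ _).sn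
    | succ n => exact hs n (Nat.lt_of_succ_lt_succ hn)

end David

theorem david {Q : Sys S} {Mid : S → Prop}
    (hMid : ∀ a b c, Q.rule a b c → Mid c → Mid a ∧ Mid b) (m : Model.{u, v} Q Mid) :
    AppSN Q Mid := by
  intro M A B N hM hm hN sM sN
  obtain ⟨e, he⟩ := m.ok_nil
  have hi : David.Inv m [] e := fun n A h => by cases h
  obtain ⟨s, hs⟩ := hM.pi_type
  obtain ⟨s₁, s₂, -, hA, -⟩ := gen_pi_sort hs
  obtain ⟨r₁, r₂, r₃, hr, h3, g1, -⟩ := hm.pi_inv hA
  have i1 := (David.main hMid m (David.acc_rr sM).transGen hM he hi).2 hm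
  have i2 := (David.main hMid m (David.acc_rr sN).transGen hN he hi).2
    (g1.mono fun _ hs => hs ▸ (hMid _ _ _ hr h3).1)
  have := (m.I _ _ _).2.sn _ (m.elim he hs hm (hM.subst (m.ok_sub he)) i1 hN i2)
  rwa [subst_closed hM.closed, subst_closed hN.closed] at this

theorem sn_of_appSN {Q : Sys S} (h : AppSN Q (fun _ => True)) {Γ : List (Tm S)} {M T : Tm S}
    (hM : Ty Q allC Γ M T) : SN M := by
  obtain ⟨σ, hσ, hs⟩ := David.exists_sub hM.wf
  exact SN.of_subst (David.sn_subst h hM σ hσ hs)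

/-- The elimination step at a product whose closed instance has a low sort. -/
theorem elim_low {Q : Sys S} {Lo : S → Prop}
    (hLo : ∀ a b c, Q.rule a b c → Lo c → Lo a ∧ Lo b) (hA : AppSN Q Lo) {M N A B : Tm S}
    (hM : Ty Q allC [] M (pi A B)) (hL : HasS Q Lo [] (pi A B)) (hN : Ty Q allC [] N A)
    (sM : SN M) (sN : SN N) : SN (app M N) ∧ HasS Q Lo [] (inst B N) := by
  refine ⟨hA _ _ _ _ hM hL hN sM sN, ?_⟩
  obtain ⟨s₁, s₂, s₃, hr, h3, -, h⟩ := hL.pi_inst Conv.rfl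
  exact (h N (TyC.of_ty hN)).mono fun _ hs => hs ▸ (hLo _ _ _ hr h3).2

end Vale.Agent.P340
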