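import Mathlib

/-! P340: internal syntax (de Bruijn terms with opaque constants), substitution calculus,
reduction, typing. -/

namespace Vale.Agent.P340

universe u v

/-- Internal terms. `con A t` is an opaque constant of type `A` with tag `t`; renaming,
substitution and reduction never enter `A` or `t`. -/
inductive Tm (S : Type u) : Type u
  | var : ℕ → Tm S
  | sort : S → Tm S
  | app : Tm S → Tm S → Tm S
  | lam : Tm S → Tm S → Tm S
  | pi : Tm S → Tm S → Tm S
  | con : Tm S → Tm S → Tm S

def scons {α : Sort v} (a : α) (σ : ℕ → α) : ℕ → α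
  | 0 => a
  | n + 1 => σ n

@[simp] theorem scons_zero {α : Sort v} (a : α) (σ : ℕ → α) : scons a σ 0 = a := rfl
@[simp] theorem scons_succ {α : Sort v} (a : α) (σ : ℕ → α) (n : ℕ) :
    scons a σ (n + 1) = σ n := rfl

namespace Tm

variable {S : Type u}

instance : Inhabited (Tm S) := ⟨var 0⟩

def upr (f : ℕ → ℕ) : ℕ → ℕ
  | 0 => 0
  | n + 1 => f n + 1

def ren (f : ℕ → ℕ) : Tm S → Tm S
  | var n => var (f n)
  | sort s => sort s
  | app M N => app (ren f M) (ren f N)
  | lam A M => lam (ren f A) (ren (upr f) M)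
  | pi A B => pi (ren f A) (ren (upr f) B)
  | con A t => con A t

def lift (M : Tm S) : Tm S := ren Nat.succ M

def up (σ : ℕ → Tm S) : ℕ → Tm S
  | 0 => var 0
  | n + 1 => lift (σ n)

def subst (σ : ℕ → Tm S) : Tm S → Tm S
  | var n => σ n
  | sort s => sort s
  | app M N => app (subst σ M) (subst σ N)
  | lam A M => lam (subst σ A) (subst (up σ) M)
  | pi A B => pi (subst σ A) (subst (up σ) B)
  | con A t => con A t

def inst (M N : Tm S) : Tm S := subst (scons N var) M

@[simp] theorem upr_zero (f : ℕ → ℕ) : upr f 0 = 0 := rfl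
@[simp] theorem upr_succ (f : ℕ → ℕ) (n : ℕ) : upr f (n + 1) = f n + 1 := rfl
@[simp] theorem up_zero (σ : ℕ → Tm S) : up σ 0 = var 0 := rfl
@[simp] theorem up_succ (σ : ℕ → Tm S) (n : ℕ) : up σ (n + 1) = lift (σ n) := rfl
@[simp] theorem ren_var (f : ℕ → ℕ) (n : ℕ) : ren f (var n : Tm S) = var (f n) := rfl
@[simp] theorem ren_sort (f : ℕ → ℕ) (s : S) : ren f (sort s) = sort s := rfl
@[simp] theorem ren_app (f : ℕ → ℕ) (M N : Tm S) :
    ren f (app M N) = app (ren f M) (ren f N) := rfl
@[simp] theorem ren_lam (f : ℕ → ℕ) (M N : Tm S) :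
    ren f (lam M N) = lam (ren f M) (ren (upr f) N) := rfl
@[simp] theorem ren_pi (f : ℕ → ℕ) (M N : Tm S) :
    ren f (pi M N) = pi (ren f M) (ren (upr f) N) := rfl
@[simp] theorem ren_con (f : ℕ → ℕ) (M N : Tm S) : ren f (con M N) = con M N := rfl
@[simp] theorem subst_var (σ : ℕ → Tm S) (n : ℕ) : subst σ (var n) = σ n := rfl
@[simp] theorem subst_sort (σ : ℕ → Tm S) (s : S) : subst σ (sort s) = sort s := rfl
@[simp] theorem subst_app (σ : ℕ → Tm S) (M N : Tm S) :
    subst σ (app M N) = app (subst σ M) (subst σ N) := rfl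
@[simp] theorem subst_lam (σ : ℕ → Tm S) (M N : Tm S) :
    subst σ (lam M N) = lam (subst σ M) (subst (up σ) N) := rfl
@[simp] theorem subst_pi (σ : ℕ → Tm S) (M N : Tm S) :
    subst σ (pi M N) = pi (subst σ M) (subst (up σ) N) := rfl
@[simp] theorem subst_con (σ : ℕ → Tm S) (M N : Tm S) : subst σ (con M N) = con M N := rfl
@[simp] theorem lift_var (n : ℕ) : lift (var n : Tm S) = var (n + 1) := rfl
@[simp] theorem lift_sort (s : S) : lift (sort s) = sort s := rfl
@[simp] theorem lift_con (M N : Tm S) : lift (con M N) = con M N := rfl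
@[simp] theorem lift_app (M N : Tm S) : lift (app M N) = app (lift M) (lift N) := rfl
theorem lift_lam (M N : Tm S) : lift (lam M N) = lam (lift M) (ren (upr Nat.succ) N) := rfl
theorem lift_pi (M N : Tm S) : lift (pi M N) = pi (lift M) (ren (upr Nat.succ) N) := rfl
@[simp] theorem inst_sort (s : S) (N : Tm S) : inst (sort s) N = sort s := rfl
@[simp] theorem inst_con (A t N : Tm S) : inst (con A t) N = con A t := rfl
@[simp] theorem inst_var_zero (N : Tm S) : inst (var 0) N = N := rfl
@[simp] theorem inst_var_succ (n : ℕ) (N : Tm S) : inst (var (n + 1)) N = var n := rfl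
@[simp] theorem inst_app (M M' N : Tm S) : inst (app M M') N = app (inst M N) (inst M' N) := rfl

theorem upr_comp (f g : ℕ → ℕ) : (fun n => upr f (upr g n)) = upr (fun n => f (g n)) := by
  funext n; cases n <;> rfl

theorem ren_ren (f g : ℕ → ℕ) (M : Tm S) : ren f (ren g M) = ren (fun n => f (g n)) M := by
  induction M generalizing f g <;> simp_all [upr_comp]

theorem up_upr (σ : ℕ → Tm S) (g : ℕ → ℕ) :
    (fun n => up σ (upr g n)) = up (fun n => σ (g n)) := by
  funext n; cases n <;> rfl

theorem subst_ren (σ : ℕ → Tm S) (g : ℕ → ℕ) (M : Tm S) :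
    subst σ (ren g M) = subst (fun n => σ (g n)) M := by
  induction M generalizing σ g <;> simp_all [up_upr]

theorem upr_up (f : ℕ → ℕ) (σ : ℕ → Tm S) :
    (fun n => ren (upr f) (up σ n)) = up (fun n => ren f (σ n)) := by
  funext n
  cases n with
  | zero => rfl
  | succ n => simp [lift, ren_ren]

theorem ren_subst (f : ℕ → ℕ) (σ : ℕ → Tm S) (M : Tm S) :
    ren f (subst σ M) = subst (fun n => ren f (σ n)) M := by
  induction M generalizing σ f <;> simp_all [upr_up]

theorem up_up (τ σ : ℕ → Tm S) :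
    (fun n => subst (up τ) (up σ n)) = up (fun n => subst τ (σ n)) := by
  funext n
  cases n with
  | zero => rfl
  | succ n => simp [lift, subst_ren, ren_subst]

theorem subst_subst (τ σ : ℕ → Tm S) (M : Tm S) :
    subst τ (subst σ M) = subst (fun n => subst τ (σ n)) M := by
  induction M generalizing σ τ <;> simp_all [up_up]

@[simp] theorem up_var : up (var : ℕ → Tm S) = var := by
  funext n; cases n <;> rfl

@[simp] theorem subst_id (M : Tm S) : subst var M = M := by
  induction M <;> simp_all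

theorem up_ren (f : ℕ → ℕ) : up (fun n => (var (f n) : Tm S)) = fun n => var (upr f n) := by
  funext n; cases n <;> rfl

theorem ren_eq_subst (f : ℕ → ℕ) (M : Tm S) : ren f M = subst (fun n => var (f n)) M := by
  induction M generalizing f <;> simp_all [up_ren]

@[simp] theorem lift_subst_scons (M N : Tm S) (σ : ℕ → Tm S) :
    subst (scons N σ) (lift M) = subst σ M := by
  simp [lift, subst_ren]

@[simp] theorem lift_inst (M N : Tm S) : inst (lift M) N = M := by
  simp [inst]

theorem lift_subst_up (M : Tm S) (σ : ℕ → Tm S) :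
    subst (up σ) (lift M) = lift (subst σ M) := by
  simp [lift, subst_ren, ren_subst]

theorem lift_ren_upr (M : Tm S) (f : ℕ → ℕ) : ren (upr f) (lift M) = lift (ren f M) := by
  simp [lift, ren_ren]

/-- `(M[↑σ])[N] = M[N :: σ]`. -/
theorem up_inst (M N : Tm S) (σ : ℕ → Tm S) :
    inst (subst (up σ) M) N = subst (scons N σ) M := by
  unfold inst
  rw [subst_subst]
  congr 1
  funext n
  cases n with
  | zero => rfl
  | succ n => simp

/-- `(M[N])[σ] = M[N[σ] :: σ]`. -/
theorem inst_subst (M N : Tm S) (σ : ℕ → Tm S) :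
    subst σ (inst M N) = subst (scons (subst σ N) σ) M := by
  unfold inst
  rw [subst_subst]
  congr 1
  funext n
  cases n <;> rfl

theorem inst_subst' (M N : Tm S) (σ : ℕ → Tm S) :
    subst σ (inst M N) = inst (subst (up σ) M) (subst σ N) := by
  rw [inst_subst, up_inst]

theorem inst_ren (M N : Tm S) (f : ℕ → ℕ) :
    ren f (inst M N) = inst (ren (upr f) M) (ren f N) := by
  rw [ren_eq_subst, inst_subst', ren_eq_subst (upr f), ren_eq_subst f, up_ren]

/-- All free indices are below `k`. -/
def Bd : ℕ → Tm S → Prop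
  | k, var n => n < k
  | _, sort _ => True
  | k, app M N => Bd k M ∧ Bd k N
  | k, lam A M => Bd k A ∧ Bd (k + 1) M
  | k, pi A B => Bd k A ∧ Bd (k + 1) B
  | _, con _ _ => True

theorem subst_congr_bd {k : ℕ} {M : Tm S} (h : Bd k M) {σ τ : ℕ → Tm S}
    (hst : ∀ n, n < k → σ n = τ n) : subst σ M = subst τ M := by
  have hup : ∀ {k : ℕ} {σ τ : ℕ → Tm S}, (∀ n, n < k → σ n = τ n) →
      ∀ n, n < k + 1 → up σ n = up τ n := by
    intro k σ τ h n hn
    cases n with
    | zero => rfl
    | succ n => simp [h n (by omega)]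
  induction M generalizing k σ τ with
  | var n => exact hst n h
  | sort s => rfl
  | app M N ihM ihN => simp [ihM h.1 hst, ihN h.2 hst]
  | lam A M ihA ihM => simp [ihA h.1 hst, ihM h.2 (hup hst)]
  | pi A M ihA ihM => simp [ihA h.1 hst, ihM h.2 (hup hst)]
  | con A t => rfl

theorem subst_closed {M : Tm S} (h : Bd 0 M) (σ : ℕ → Tm S) : subst σ M = M := by
  rw [subst_congr_bd h (τ := var) (fun n hn => absurd hn (Nat.not_lt_zero n)), subst_id]

theorem ren_closed {M : Tm S} (h : Bd 0 M) (f : ℕ → ℕ) : ren f M = M := by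
  rw [ren_eq_subst, subst_closed h]

theorem lift_closed {M : Tm S} (h : Bd 0 M) : lift M = M := ren_closed h _

theorem inst_closed {M : Tm S} (h : Bd 0 M) (N : Tm S) : inst M N = M := subst_closed h _

end Tm

open Tm

variable {S : Type u}

inductive Step : Tm S → Tm S → Prop
  | beta (A M N : Tm S) : Step (app (lam A M) N) (inst M N)
  | appL {M M' : Tm S} (N : Tm S) : Step M M' → Step (app M N) (app M' N)
  | appR (M : Tm S) {N N' : Tm S} : Step N N' → Step (app M N) (app M N')
  | lamL {A A' : Tm S} (M : Tm S) : Step A A' → Step (lam A M) (lam A' M)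
  | lamR (A : Tm S) {M M' : Tm S} : Step M M' → Step (lam A M) (lam A M')
  | piL {A A' : Tm S} (B : Tm S) : Step A A' → Step (pi A B) (pi A' B)
  | piR (A : Tm S) {B B' : Tm S} : Step B B' → Step (pi A B) (pi A B')

abbrev Red : Tm S → Tm S → Prop := Relation.ReflTransGen Step
abbrev Conv : Tm S → Tm S → Prop := Relation.EqvGen Step

def Normal (M : Tm S) : Prop := ∀ N, ¬ Step M N
def WN (M : Tm S) : Prop := ∃ N, Red M N ∧ Normal N
def SN (M : Tm S) : Prop := Acc (fun N M : Tm S => Step M N) M

open Classical in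
/-- The normal form of the conversion class of `M`, junk if there is none. -/
noncomputable def nf (M : Tm S) : Tm S :=
  if h : ∃ N, Conv M N ∧ Normal N then h.choose else var 0

/-- Terms whose head is not an abstraction or a redex. -/
inductive Neut : Tm S → Prop
  | var (n : ℕ) : Neut (var n)
  | sort (s : S) : Neut (sort s)
  | pi (A B : Tm S) : Neut (pi A B)
  | con (A t : Tm S) : Neut (con A t)
  | app {M : Tm S} (N : Tm S) : Neut M → Neut (app M N)

/-- Application spines with head variable `y`. -/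
inductive VarHd (y : ℕ) : Tm S → Prop
  | var : VarHd y (var y)
  | app {M : Tm S} (N : Tm S) : VarHd y M → VarHd y (app M N)

/-- Application spines with a constant head. -/
inductive ConHd : Tm S → Prop
  | con (A t : Tm S) : ConHd (con A t)
  | app {M : Tm S} (N : Tm S) : ConHd M → ConHd (app M N)

/-- `HRed M M' A N`: the head redex of `M` is `(λx:A.P) N` and contracting it gives `M'`. -/
inductive HRed : Tm S → Tm S → Tm S → Tm S → Prop
  | beta (A P N : Tm S) : HRed (app (lam A P) N) (inst P N) A N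
  | app {M M' A N : Tm S} (R : Tm S) : HRed M M' A N → HRed (app M R) (app M' R) A N

/-- A specification with a set of realizable sorts (sorts that get atoms). -/
structure Sys (S : Type u) where
  ax : S → S → Prop
  rule : S → S → S → Prop
  rz : S → Prop

/-- Typing with the allowed constants `C`. -/
inductive Ty (Q : Sys S) (C : Tm S → Tm S → Prop) : List (Tm S) → Tm S → Tm S → Prop
  | ax {s₁ s₂ : S} : Q.ax s₁ s₂ → Ty Q C [] (sort s₁) (sort s₂)
  | var {Γ : List (Tm S)} {A : Tm S} {s : S} :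
      Ty Q C Γ A (sort s) → Ty Q C (A :: Γ) (var 0) (lift A)
  | weak {Γ : List (Tm S)} {M B A : Tm S} {s : S} :
      Ty Q C Γ M B → Ty Q C Γ A (sort s) → Ty Q C (A :: Γ) (lift M) (lift B)
  | pi {Γ : List (Tm S)} {A B : Tm S} {s₁ s₂ s₃ : S} :
      Ty Q C Γ A (sort s₁) → Ty Q C (A :: Γ) B (sort s₂) → Q.rule s₁ s₂ s₃ →
      Ty Q C Γ (pi A B) (sort s₃)
  | lam {Γ : List (Tm S)} {A M B : Tm S} {s : S} :
      Ty Q C (A :: Γ) M B → Ty Q C Γ (pi A B) (sort s) → Ty Q C Γ (lam A M) (pi A B)
  | app {Γ : List (Tm S)} {M N A B : Tm S} :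
      Ty Q C Γ M (pi A B) → Ty Q C Γ N A → Ty Q C Γ (app M N) (inst B N)
  | conv {Γ : List (Tm S)} {M A B : Tm S} {s : S} :
      Ty Q C Γ M A → Ty Q C Γ B (sort s) → Conv A B → Ty Q C Γ M B
  | conT {A t : Tm S} {s : S} : C A t → Ty Q C [] A (sort s) → Ty Q C [] (con A t) A
  | conS {t : Tm S} {s : S} : C (sort s) t → Q.rz s → Ty Q C [] (con (sort s) t) (sort s)

/-- All constants allowed. -/
def allC : Tm S → Tm S → Prop := fun _ _ => True

/-- Well-formed contexts. -/
inductive Wf (Q : Sys S) (C : Tm S → Tm S → Prop) : List (Tm S) → Prop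
  | nil : Wf Q C []
  | cons {Γ : List (Tm S)} {A : Tm S} {s : S} : Ty Q C Γ A (sort s) → Wf Q C (A :: Γ)

/-- `Lk Γ n A`: the variable `n` has the (lifted) type `A` in `Γ`. -/
inductive Lk : List (Tm S) → ℕ → Tm S → Prop
  | zero (A : Tm S) (Γ : List (Tm S)) : Lk (A :: Γ) 0 (lift A)
  | succ {Γ : List (Tm S)} {n : ℕ} {A : Tm S} (B : Tm S) : Lk Γ n A → Lk (B :: Γ) (n + 1) (lift A)

/-- `σ` is a typed substitution from `Γ` into `Δ`. -/
def SubT (Q : Sys S) (C : Tm S → Tm S → Prop) (Δ : List (Tm S)) (σ : ℕ → Tm S)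
    (Γ : List (Tm S)) : Prop :=
  Wf Q C Δ ∧ ∀ n A, Lk Γ n A → Ty Q C Δ (σ n) (subst σ A)

/-- `T` has, up to conversion, a sort in `X` (all constants allowed). -/
def HasS (Q : Sys S) (X : S → Prop) (Γ : List (Tm S)) (T : Tm S) : Prop :=
  ∃ T' s, X s ∧ Conv T T' ∧ Ty Q allC Γ T' (sort s)

/-- Closed typing up to conversion of the type (all constants allowed). -/
def TyC (Q : Sys S) (M T : Tm S) : Prop := ∃ T', Conv T T' ∧ Ty Q allC [] M T'

/-- Standing hypotheses on the internal system. -/
structure Nice (Q : Sys S) : Prop where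
  wn : ∀ Γ M T, Ty Q allC Γ M T → WN M
  rz : ∀ a b c, Q.rule a b c → Q.rz a ∧ Q.rz b
  fin : Set.Finite {x : S × S × S | Q.rule x.1 x.2.1 x.2.2}

/-- Application of strongly normalizing terms is strongly normalizing at products that have a
sort in `X`. -/
def AppSN (Q : Sys S) (X : S → Prop) : Prop :=
  ∀ M A B N, Ty Q allC [] M (pi A B) → HasS Q X [] (pi A B) → Ty Q allC [] N A →
    SN M → SN N → SN (app M N)

/-- `K` is a layer of sorts over the ancestor-closed set `Lo`. -/
structure Layer (Q : Sys S) (Lo K : S → Prop) : Prop where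
  lo : ∀ a b c, Q.rule a b c → Lo c → Lo a ∧ Lo b
  k : ∀ a b c, Q.rule a b c → K c → (Lo a ∨ K a) ∧ (Lo b ∨ K b)

end Vale.Agent.P340
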