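import Vale.Agent.P340.Defs

/-! P340: the graph of sorts, paths with parity, and the two dichotomies. -/

namespace Vale.Agent.P340

universe u
variable {S : Type u}

/-- Valid paths. A step `(false, a)` goes from `v` to `w` along a rule `(a, v, w)`, a step
`(true, b)` from `v` to `w` along a rule `(v, b, w)` with `ok b`. The head of the list is the
last step. -/
inductive PV (Q : Sys S) (ok : S → Prop) (u : S) : List (Bool × S) → S → Prop
  | nil : PV Q ok u [] u
  | cod {π : List (Bool × S)} {v a w : S} : PV Q ok u π v → Q.rule a v w →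
      PV Q ok u ((false, a) :: π) w
  | dom {π : List (Bool × S)} {v b w : S} : PV Q ok u π v → Q.rule v b w → ok b →
      PV Q ok u ((true, b) :: π) w

/-- Parity of the number of domain steps. -/
def par : List (Bool × S) → Bool
  | [] => false
  | x :: π => xor x.1 (par π)

theorem par_append (π π' : List (Bool × S)) : par (π' ++ π) = xor (par π') (par π) := by
  induction π' with
  | nil => simp [par]
  | cons x π' ih => simp [par, ih]

theorem PV.append {Q : Sys S} {ok : S → Prop} {u v w : S} {π π' : List (Bool × S)}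
    (h : PV Q ok u π v) (h' : PV Q ok v π' w) : PV Q ok u (π' ++ π) w := by
  induction h' with
  | nil => exact h
  | cod _ hr ih => exact PV.cod ih hr
  | dom _ hr hb ih => exact PV.dom ih hr hb

namespace GraphAux

/-- Existence of a path with a given parity. -/
def Pth (Q : Sys S) (ok : S → Prop) (u v : S) (p : Bool) : Prop := ∃ π, PV Q ok u π v ∧ par π = p

variable {Q : Sys S} {ok : S → Prop}

theorem Pth.trans {u v w : S} {p p' : Bool} (h : Pth Q ok u v p) (h' : Pth Q ok v w p') :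
    Pth Q ok u w (xor p' p) := by
  obtain ⟨π, h1, rfl⟩ := h
  obtain ⟨π', h2, rfl⟩ := h'
  exact ⟨_, h1.append h2, par_append _ _⟩

theorem pth_refl (u : S) : Pth Q ok u u false := ⟨[], PV.nil, rfl⟩

theorem pth_cod {a v w : S} (h : Q.rule a v w) : Pth Q ok v w false := ⟨_, PV.nil.cod h, rfl⟩

theorem pth_dom {b v w : S} (h : Q.rule v b w) (hb : ok b) : Pth Q ok v w true :=
  ⟨_, PV.nil.dom h hb, rfl⟩

/-- In a strongly connected set with an odd closed path all parities occur. -/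
theorem pth_all {L : S → Prop} (hL : ∀ u v, L u → L v → ∃ p, Pth Q ok u v p) {x : S} (hx : L x)
    (h : Pth Q ok x x true) {u v : S} (hu : L u) (hv : L v) (p : Bool) : Pth Q ok u v p := by
  obtain ⟨p₁, h1⟩ := hL u x hu hx
  obtain ⟨p₂, h2⟩ := hL x v hx hv
  have g1 := h1.trans h2
  have g2 := (h1.trans h).trans h2
  revert g1 g2
  cases p <;> cases p₁ <;> cases p₂ <;> simp_all

theorem pth_even {u : S} (h : ¬ Pth Q ok u u true) {p : Bool} (h' : Pth Q ok u u p) :
    p = false := by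
  cases p
  · rfl
  · exact absurd h' h

theorem fin_edge (hfin : Set.Finite {x : S × S × S | Q.rule x.1 x.2.1 x.2.2}) {E : S → S → Prop}
    (h : ∀ u v, E u v → ∃ w, Q.rule u w v ∨ Q.rule w u v) : Set.Finite {x : S × S | E x.1 x.2} := by
  refine ((hfin.image fun x => (x.1, x.2.2)).union (hfin.image fun x => (x.2.1, x.2.2))).subset ?_
  rintro ⟨u, v⟩ huv
  obtain ⟨w, h1 | h1⟩ := h u v huv
  · exact Or.inl ⟨(u, w, v), h1, rfl⟩
  · exact Or.inr ⟨(w, u, v), h1, rfl⟩

end GraphAux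

open GraphAux

def Edge (Q : Sys S) (u v : S) : Prop := ∃ w, Q.rule u w v ∨ Q.rule w u v
def Anc (Q : Sys S) : S → S → Prop := Relation.ReflTransGen (Edge Q)
def KK (Q : Sys S) (s₀ s : S) : Prop := Anc Q s s₀ ∧ Anc Q s₀ s
def LL (Q : Sys S) (s₀ s : S) : Prop := Anc Q s s₀ ∧ ¬ Anc Q s₀ s

/-- Strict ancestry in a graph with finitely many edges is well founded. -/
theorem wf_strict {E : S → S → Prop} (hE : Set.Finite {x : S × S | E x.1 x.2}) :
    WellFounded (fun s t => Relation.ReflTransGen E s t ∧ ¬ Relation.ReflTransGen E t s) := by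
  have hf : ∀ t, Set.Finite {s | Relation.ReflTransGen E s t} := by
    intro t
    refine ((hE.image Prod.fst).insert t).subset fun s hs => ?_
    rcases Relation.ReflTransGen.cases_head hs with rfl | ⟨c, hc, -⟩
    · exact Or.inl rfl
    · exact Or.inr ⟨(s, c), hc, rfl⟩
  refine Subrelation.wf (fun {s t} h => ?_)
    (InvImage.wf (fun t => Set.ncard {s | Relation.ReflTransGen E s t}) Nat.lt_wfRel.wf)
  refine Set.ncard_lt_ncard ⟨fun x hx => Relation.ReflTransGen.trans hx h.1, fun hc => ?_⟩ (hf t)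
  exact h.2 (hc (Relation.ReflTransGen.refl (r := E) (a := t)))

theorem wf_LL {Q : Sys S} (hfin : Set.Finite {x : S × S × S | Q.rule x.1 x.2.1 x.2.2}) :
    WellFounded (fun s t => LL Q t s) := wf_strict (fin_edge hfin fun _ _ h => h)

theorem layer_LL_KK (Q : Sys S) (s₀ : S) : Layer Q (LL Q s₀) (KK Q s₀) := by
  have h1 : ∀ a c, Edge Q a c → LL Q s₀ c → LL Q s₀ a := fun a c h hc =>
    ⟨Relation.ReflTransGen.head h hc.1, fun h' => hc.2 (Relation.ReflTransGen.tail h' h)⟩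
  have h2 : ∀ a c, Edge Q a c → KK Q s₀ c → LL Q s₀ a ∨ KK Q s₀ a := fun a c h hc => by
    by_cases h' : Anc Q s₀ a
    · exact Or.inr ⟨Relation.ReflTransGen.head h hc.1, h'⟩
    · exact Or.inl ⟨Relation.ReflTransGen.head h hc.1, h'⟩
  exact ⟨fun a b c h hc => ⟨h1 a c ⟨b, Or.inl h⟩ hc, h1 b c ⟨a, Or.inr h⟩ hc⟩,
    fun a b c h hc => ⟨h2 a c ⟨b, Or.inl h⟩ hc, h2 b c ⟨a, Or.inr h⟩ hc⟩⟩

/-- Answer sorts of the layer `K`. -/
def AnsS (Q : Sys S) (K : S → Prop) (b : S) : Prop := ∃ v w, K v ∧ K w ∧ Q.rule v b w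

def NonRich (Q : Sys S) (K : S → Prop) : Prop :=
  (∀ a b c, Q.rule a b c → K a → K b → K c → False) ∨
    ∃ col : S → Bool, ∀ a b c, Q.rule a b c → K c →
      (K a → col a = !col c) ∧ (K b → col b = col c)

def Rich (Q : Sys S) (K : S → Prop) : Prop :=
  (∃ a b c, Q.rule a b c ∧ K a ∧ K b ∧ K c) ∧
    ∀ u v p, K u → K v → ∃ π, PV Q (AnsS Q K) u π v ∧ par π = p

theorem nonRich_or_rich (Q : Sys S) (s₀ : S) : NonRich Q (KK Q s₀) ∨ Rich Q (KK Q s₀) := by
  classical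
  have hp : ∀ u v, KK Q s₀ u → KK Q s₀ v → ∃ p, Pth Q (AnsS Q (KK Q s₀)) u v p := by
    intro u v hu hv
    have h : Anc Q u v := Relation.ReflTransGen.trans hu.1 hv.2
    induction h with
    | refl => exact ⟨_, pth_refl u⟩
    | @tail w v h he ih =>
      have hw : KK Q s₀ w :=
        ⟨Relation.ReflTransGen.head he hv.1, Relation.ReflTransGen.trans hu.2 h⟩
      obtain ⟨p, h1⟩ := ih hw
      obtain ⟨x, h2 | h2⟩ := he
      · exact ⟨_, h1.trans (pth_dom h2 ⟨w, v, hw, hv, h2⟩)⟩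
      · exact ⟨_, h1.trans (pth_cod h2)⟩
  have h0 : KK Q s₀ s₀ := ⟨Relation.ReflTransGen.refl, Relation.ReflTransGen.refl⟩
  by_cases h1 : ∃ a b c, Q.rule a b c ∧ KK Q s₀ a ∧ KK Q s₀ b ∧ KK Q s₀ c
  swap
  · exact Or.inl (Or.inl fun a b c h ha hb hc => h1 ⟨a, b, c, h, ha, hb, hc⟩)
  by_cases h2 : Pth Q (AnsS Q (KK Q s₀)) s₀ s₀ true
  · exact Or.inr ⟨h1, fun u v p hu hv => pth_all hp h0 h2 hu hv p⟩
  · refine Or.inl (Or.inr ⟨fun s => decide (Pth Q (AnsS Q (KK Q s₀)) s s₀ true), ?_⟩)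
    have key : ∀ s p, KK Q s₀ s → Pth Q (AnsS Q (KK Q s₀)) s s₀ p →
        decide (Pth Q (AnsS Q (KK Q s₀)) s s₀ true) = p := by
      intro s p hs h
      cases p
      · refine decide_eq_false fun h' => ?_
        obtain ⟨q, hq⟩ := hp s₀ s h0 hs
        have g1 := pth_even h2 (hq.trans h)
        have g2 := pth_even h2 (hq.trans h')
        cases q <;> simp_all
      · exact decide_eq_true h
    intro a b c h hc
    obtain ⟨p, hq⟩ := hp c s₀ hc h0
    refine ⟨fun ha => ?_, fun hb => ?_⟩ <;> beta_reduce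
    · rw [key c p hc hq, key a _ ha ((pth_dom h ⟨a, c, ha, hc, h⟩).trans hq)]; simp
    · rw [key c p hc hq, key b _ hb ((pth_cod h).trans hq)]; simp

/-- Codomain descendants of the sorts of the sorts in `X`. -/
inductive Rel (Q : Sys S) (X : S → Prop) : S → Prop
  | ax {s r : S} : X s → Q.ax s r → Rel Q X r
  | cod {a r w : S} : Rel Q X r → Q.rule a r w → Rel Q X w

theorem Rel.path {Q : Sys S} {X : S → Prop} {r : S} (h : Rel Q X r) :
    ∃ s r₀ π, X s ∧ Q.ax s r₀ ∧ PV Q (fun _ => False) r₀ π r := by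
  induction h with
  | ax h h' => exact ⟨_, _, [], h, h', PV.nil⟩
  | cod _ hr ih =>
    obtain ⟨s, r₀, π, h1, h2, h3⟩ := ih
    exact ⟨s, r₀, _, h1, h2, h3.cod hr⟩

/-- Sorts of kinds that are reached, with parity, from a quantification in `K`. -/
inductive Acs (Q : Sys S) (K : S → Prop) : S → Bool → Prop
  | base {r s₂ s₃ : S} : Rel Q K r → Q.rule r s₂ s₃ → K s₂ → K s₃ → Acs Q K r false
  | cod {r₁ r₂ r₃ : S} {p : Bool} : Q.rule r₁ r₂ r₃ → Rel Q K r₂ → Acs Q K r₃ p → Acs Q K r₂ p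
  | dom {r₁ r₂ r₃ : S} {p : Bool} : Q.rule r₁ r₂ r₃ → Rel Q K r₁ → Rel Q K r₂ → Acs Q K r₃ p →
      Acs Q K r₁ (!p)

theorem Acs.rel {Q : Sys S} {K : S → Prop} {r : S} {p : Bool} (h : Acs Q K r p) : Rel Q K r := by
  cases h <;> assumption

def EdgeR (Q : Sys S) (K : S → Prop) (u v : S) : Prop :=
  Rel Q K u ∧ ((∃ a, Q.rule a u v) ∨ ∃ b, Q.rule u b v ∧ Rel Q K b)
def AncR (Q : Sys S) (K : S → Prop) : S → S → Prop := Relation.ReflTransGen (EdgeR Q K)
def SccR (Q : Sys S) (K : S → Prop) (r u : S) : Prop := AncR Q K r u ∧ AncR Q K u r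

theorem wf_AncR {Q : Sys S} (hfin : Set.Finite {x : S × S × S | Q.rule x.1 x.2.1 x.2.2})
    (K : S → Prop) : WellFounded (fun s t => AncR Q K s t ∧ ¬ AncR Q K t s) :=
  wf_strict (fin_edge hfin fun _ _ h => h.2.elim (fun ⟨a, h⟩ => ⟨a, Or.inr h⟩)
    fun ⟨b, h, _⟩ => ⟨b, Or.inl h⟩)

/-- Sorts accessible with both parities are closed under ancestors. -/
theorem acs_anc {Q : Sys S} {K : S → Prop} {u r : S} (h : AncR Q K u r)
    (hr : ∀ p, Acs Q K r p) (p : Bool) : Acs Q K u p := by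
  induction h using Relation.ReflTransGen.head_induction_on generalizing p with
  | refl => exact hr p
  | head he _ ih =>
    obtain ⟨h1, ⟨a, h2⟩ | ⟨b, h2, h3⟩⟩ := he
    · exact Acs.cod h2 h1 (ih p)
    · have := Acs.dom h2 h1 h3 (ih (!p))
      rwa [Bool.not_not] at this

/-- Every component of sorts accessible with both parities has no inner domain edge or is
predicative. -/
def WfCond (Q : Sys S) (K : S → Prop) : Prop :=
  ∀ r, Acs Q K r false → Acs Q K r true →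
    (∀ r₁ r₂ r₃, Q.rule r₁ r₂ r₃ → Rel Q K r₂ → SccR Q K r r₁ → SccR Q K r r₃ → False) ∨
    (∀ q r₂ r₃, Q.rule q r₂ r₃ → SccR Q K r r₂ → SccR Q K r r₃ → ¬ Rel Q (SccR Q K r) q)

/-- The data of an impredicative negatable component. -/
structure Bad (Q : Sys S) (K : S → Prop) where
  l : S
  q₀ : S
  q : S
  r₂ : S
  r₃ : S
  πq : List (Bool × S)
  m : ℕ → S
  P : ℕ → List (Bool × S)
  πB : List (Bool × S)
  G : List (Bool × S)
  H : List (Bool × S)
  base : ℕ → S
  E : ℕ → List (Bool × S)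
  hax : Q.ax l q₀
  hπq : PV Q (fun _ => False) q₀ πq q
  hrule : Q.rule q r₂ r₃
  hP : ∀ i, PV Q (Rel Q K) (m i) (P i) (m (i + 1))
  hPp : ∀ i, par (P i) = true
  hπB : PV Q (Rel Q K) l πB (m 0)
  hG : PV Q (Rel Q K) r₃ G l
  hGB : par (πB ++ G) = true
  hH : PV Q (Rel Q K) (m 4) H r₂
  hHp : par H = true
  hE : ∀ i, PV Q (Rel Q K) (m i) (E i) (base i)
  hEp : ∀ i, par (E i) = false
  hbase : ∀ i, ∃ s₂ s₃, Q.rule (base i) s₂ s₃ ∧ K s₂ ∧ K s₃

theorem GraphAux.ancR_pth {Q : Sys S} {K : S → Prop} {u v : S} (h : AncR Q K u v) :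
    ∃ p, Pth Q (Rel Q K) u v p := by
  induction h with
  | refl => exact ⟨_, pth_refl u⟩
  | tail _ he ih =>
    obtain ⟨p, h1⟩ := ih
    obtain ⟨-, ⟨a, h2⟩ | ⟨b, h2, h3⟩⟩ := he
    · exact ⟨_, h1.trans (pth_cod h2)⟩
    · exact ⟨_, h1.trans (pth_dom h2 h3)⟩

theorem GraphAux.acs_pth {Q : Sys S} {K : S → Prop} {r : S} {p : Bool} (h : Acs Q K r p) :
    ∃ b, Pth Q (Rel Q K) r b p ∧ ∃ s₂ s₃, Q.rule b s₂ s₃ ∧ K s₂ ∧ K s₃ := by
  induction h with
  | base _ h h2 h3 => exact ⟨_, pth_refl _, _, _, h, h2, h3⟩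
  | cod h _ _ ih =>
    obtain ⟨b, h1, h2⟩ := ih
    exact ⟨b, by simpa using (pth_cod h).trans h1, h2⟩
  | dom h _ h' _ ih =>
    obtain ⟨b, h1, h2⟩ := ih
    exact ⟨b, by simpa using (pth_dom h h').trans h1, h2⟩

theorem bad_of_not_wfCond {Q : Sys S} {K : S → Prop} (h : ¬ WfCond Q K) : Nonempty (Bad Q K) := by
  simp only [WfCond, not_forall, not_or, not_not] at h
  obtain ⟨r, hr0, hr1, ⟨a, c, b, hab, hc, ha, hb, -⟩, q, r₂, r₃, hq, h2, h3, hrel⟩ := h
  obtain ⟨l, q₀, πq, hl, hax, hπq⟩ := hrel.path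
  have hp : ∀ u v, SccR Q K r u → SccR Q K r v → ∃ p, Pth Q (Rel Q K) u v p := fun u v hu hv =>
    ancR_pth (Relation.ReflTransGen.trans hu.2 hv.1)
  have key : ∃ x y, SccR Q K r x ∧ SccR Q K r y ∧ Pth Q (Rel Q K) x y true ∧
      Pth Q (Rel Q K) y x true ∧ Pth Q (Rel Q K) x r₂ true ∧
      ∃ pB pG, Pth Q (Rel Q K) l x pB ∧ Pth Q (Rel Q K) r₃ l pG ∧ xor pB pG = true := by
    by_cases ho : ∃ x, SccR Q K r x ∧ Pth Q (Rel Q K) x x true
    · obtain ⟨x, hx, ho⟩ := ho
      exact ⟨x, x, hx, hx, ho, ho, pth_all hp hx ho hx h2 _, true, false,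
        pth_all hp hx ho hl hx _, pth_all hp hx ho h3 hl _, rfl⟩
    · have fin : ∀ x, SccR Q K r x → Pth Q (Rel Q K) x r₂ true →
          ∃ pB pG, Pth Q (Rel Q K) l x pB ∧ Pth Q (Rel Q K) r₃ l pG ∧ xor pB pG = true := by
        intro x hx h
        obtain ⟨pB, hB⟩ := hp l x hl hx
        obtain ⟨pG, hG⟩ := hp r₃ l h3 hl
        refine ⟨pB, pG, hB, hG, ?_⟩
        have := pth_even (fun h => ho ⟨_, h3, h⟩) (((hG.trans hB).trans h).trans (pth_cod hq))
        revert this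
        cases pB <;> cases pG <;> simp
      have g1 : Pth Q (Rel Q K) a b true := pth_dom hab hc
      have g2 : Pth Q (Rel Q K) b a true := by
        obtain ⟨p, g2⟩ := hp b a hb ha
        have := pth_even (fun h => ho ⟨_, ha, h⟩) (g1.trans g2)
        cases p
        · simp at this
        · exact g2
      obtain ⟨_ | _, g3⟩ := hp a r₂ ha h2
      · have g4 : Pth Q (Rel Q K) b r₂ true := g2.trans g3
        exact ⟨b, a, hb, ha, g2, g1, g4, fin b hb g4⟩
      · exact ⟨a, b, ha, hb, g1, g2, g3, fin a ha g3⟩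
  obtain ⟨x, y, hx, hy, hxy, hyx, ⟨H, hH, hHp⟩, _, _, ⟨πB, hB, rfl⟩, ⟨G, hG, rfl⟩, hBG⟩ := key
  let m : ℕ → S := fun i => if i % 2 = 0 then x else y
  have hm : ∀ i, SccR Q K r (m i) := fun i => by
    simp only [m]; split_ifs; exacts [hx, hy]
  have hP : ∀ i, Pth Q (Rel Q K) (m i) (m (i + 1)) true := fun i => by
    simp only [m]
    by_cases hi : i % 2 = 0
    · rw [if_pos hi, if_neg (by omega)]; exact hxy
    · rw [if_neg hi, if_pos (by omega)]; exact hyx
  choose P hP hPp using hP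
  have hE := fun i => acs_pth (acs_anc (hm i).2 (fun p => by cases p; exacts [hr0, hr1]) false)
  choose base hE hbase using hE
  choose E hE hEp using hE
  exact ⟨⟨l, q₀, q, r₂, r₃, πq, m, P, πB, G, H, base, E, hax, hπq, hq, hP, hPp, hB, hG,
    by rw [par_append, hBG], hH, hHp, hE, hEp, hbase⟩⟩

end Vale.Agent.P340
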