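import Vale.Agent.P340.Vals

/-! P340: the interpretation of terms as behaviours, good terms, independence of junk. -/

namespace Vale.Agent.P340

universe u
open Tm
variable {S : Type u}

/-- The domain of a closed function. -/
noncomputable def domOf (Q : Sys S) (M : Tm S) : Tm S :=
  Classical.epsilon (fun C => ∃ D, Ty Q allC [] (nf M) (pi C D))

noncomputable def sem (Q : Sys S) (Lo K : S → Prop) : Tm S → (ℕ → Tm S) → (ℕ → Beh S) → Beh S
  | var y, _, ρ => ρ y
  | sort _, _, _ => fun _ => Cand.top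
  | con _ _, _, _ => fun _ => Cand.top
  | app M N, σ, ρ => fun st =>
      sem Q Lo K M σ ρ
        ((nf (subst σ N), pack Q K (domOf Q (subst σ M)) (sem Q Lo K N σ ρ)) :: st)
  | lam _ M, σ, ρ => fun st =>
      match st with
      | [] => Cand.top
      | x :: st => sem Q Lo K M (scons x.1 σ) (scons (unpack x.2) ρ) st
  | pi A B, σ, ρ => fun _ =>
      Cand.arr (Cand.cut (HasS Q Lo [] (subst σ A)) (sem Q Lo K A σ ρ []))
        (fun a (v : Val S) => TyC Q a (subst σ A) ∧ v ∈ VV Q K (subst σ A))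
        (fun a v => Cand.cut (HasS Q Lo [] (subst (scons a σ) B))
          (sem Q Lo K B (scons a σ) (scons (unpack v) ρ) []))

/-- Spines whose head is a sort, a constant or a variable in `Z`. -/
inductive DeadHd (Z : ℕ → Prop) : Tm S → Prop
  | var {y : ℕ} : Z y → DeadHd Z (var y)
  | sort (s : S) : DeadHd Z (sort s)
  | con (A t : Tm S) : DeadHd Z (con A t)
  | app {M : Tm S} (N : Tm S) : DeadHd Z M → DeadHd Z (app M N)

/-- `Good σ θ Z T Y`: under the closing substitution `σ`, with closed types `θ` of the variables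
and dead variables `Z`, the term `T` has the closed type `Y` and all its relevant applications
are at products of accessible class. -/
inductive Good (Q : Sys S) (Lo K : S → Prop) :
    (ℕ → Tm S) → (ℕ → Tm S) → (ℕ → Prop) → Tm S → Tm S → Prop
  | irr {σ θ : ℕ → Tm S} {Z : ℕ → Prop} {T Y : Tm S} :
      TyC Q (subst σ T) Y → ¬ Reach Q K Y → Good Q Lo K σ θ Z T Y
  | dead {σ θ : ℕ → Tm S} {Z : ℕ → Prop} {T Y : Tm S} :
      TyC Q (subst σ T) Y → DeadHd Z T → Good Q Lo K σ θ Z T Y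
  | var {σ θ : ℕ → Tm S} {Z : ℕ → Prop} {y : ℕ} {Y : Tm S} :
      TyC Q (σ y) Y → ¬ Z y → Conv Y (θ y) → Good Q Lo K σ θ Z (var y) Y
  | app {σ θ : ℕ → Tm S} {Z : ℕ → Prop} {M N C D Y : Tm S} :
      Good Q Lo K σ θ Z M (pi C D) → Good Q Lo K σ θ Z N C → DT Q K (pi C D) →
      Conv Y (inst D (subst σ N)) → Good Q Lo K σ θ Z (app M N) Y
  | lam {σ θ : ℕ → Tm S} {Z : ℕ → Prop} {A M C D Y : Tm S} :
      TyC Q (subst σ (lam A M)) Y → Conv Y (pi C D) →
      (∀ a, TyC Q a C → Good Q Lo K (scons a σ) (scons C θ) (scons False Z) M (inst D a)) →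
      Good Q Lo K σ θ Z (lam A M) Y
  | pi {σ θ : ℕ → Tm S} {Z : ℕ → Prop} {A B C Y : Tm S} {s₁ s₂ : S} :
      TyC Q (subst σ (pi A B)) Y → Conv (subst σ A) C →
      (¬ HasS Q Lo [] (subst σ A) → K s₁) →
      (¬ HasS Q Lo [] (subst σ A) → Good Q Lo K σ θ Z A (sort s₁)) →
      (∀ a, TyC Q a C → ¬ HasS Q Lo [] (subst (scons a σ) B) →
        K s₂ ∧ (Reach Q K C → Cls Q K false C)) →
      (∀ a, TyC Q a C → ¬ HasS Q Lo [] (subst (scons a σ) B) →
        Good Q Lo K (scons a σ) (scons C θ) (scons False Z) B (sort s₂)) →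
      Good Q Lo K σ θ Z (pi A B) Y

/-- Environments of values, read as behaviours. -/
noncomputable def upk (υ : ℕ → Val S) : ℕ → Beh S := fun n => unpack (υ n)

theorem upk_scons (v : Val S) (υ : ℕ → Val S) : upk (scons v υ) = scons (unpack v) (upk υ) := by
  funext n; cases n <;> rfl

variable {Q : Sys S} {Lo K : S → Prop}

namespace InterpAux

theorem scons_upr {α : Type*} (a : α) (σ : ℕ → α) (f : ℕ → ℕ) :
    (fun n => scons a σ (upr f n)) = scons a fun n => σ (f n) := by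
  funext n; cases n <;> rfl

theorem scons_up (a : Tm S) (σ τ : ℕ → Tm S) :
    (fun n => subst (scons a σ) (up τ n)) = scons a fun n => subst σ (τ n) := by
  funext n
  cases n with
  | zero => rfl
  | succ n => exact lift_subst_scons _ _ _

theorem scons_var (N : Tm S) (σ : ℕ → Tm S) :
    (fun n => subst σ (scons N var n)) = scons (subst σ N) σ := by
  funext n; cases n <;> rfl

theorem conv_scons (a : Tm S) {σ σ' : ℕ → Tm S} (h : ∀ n, Conv (σ n) (σ' n)) :
    ∀ n, Conv (scons a σ n) (scons a σ' n)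
  | 0 => Conv.rfl
  | n + 1 => h n

theorem hasS_eq {X : S → Prop} {T T' : Tm S} (h : Conv T T') : HasS Q X [] T = HasS Q X [] T' :=
  propext ⟨fun h1 => h1.conv h, fun h1 => h1.conv h.symm'⟩

theorem cut_congr {p : Prop} {c c' : Cand S} (h : ¬ p → c = c') : Cand.cut p c = Cand.cut p c' := by
  unfold Cand.cut
  split_ifs with hp
  · rfl
  · exact h hp

theorem arr_congr {ι : Type*} {A : Cand S} {P : Tm S → ι → Prop} {B B' : Tm S → ι → Cand S}
    (h : ∀ a i, P a i → B a i = B' a i) : Cand.arr A P B = Cand.arr A P B' := by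
  refine Subtype.ext (Set.ext fun M => ?_)
  rw [Cand.mem_arr, Cand.mem_arr]
  refine and_congr Iff.rfl (forall_congr' fun a => forall_congr' fun i => forall_congr' fun hP => ?_)
  rw [h a i hP]

theorem dead_subst {Z Z' : ℕ → Prop} {T : Tm S} {τ : ℕ → Tm S} (h : DeadHd Z' T)
    (hd : ∀ y, Z' y → DeadHd Z (τ y)) : DeadHd Z (subst τ T) := by
  induction h with
  | var hy => exact hd _ hy
  | sort s => exact DeadHd.sort s
  | con A t => exact DeadHd.con A t
  | app N _ ih => exact DeadHd.app _ ih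

theorem dead_ren {Z : ℕ → Prop} {T : Tm S} {f : ℕ → ℕ} (h : DeadHd (fun n => Z (f n)) T) :
    DeadHd Z (ren f T) := by
  rw [ren_eq_subst]
  exact dead_subst h fun y hy => DeadHd.var hy

theorem dead_up {Z Z' : ℕ → Prop} {τ : ℕ → Tm S} (hd : ∀ y, Z' y → DeadHd Z (τ y)) :
    ∀ y, scons False Z' y → DeadHd (scons False Z) (up τ y)
  | 0, hy => hy.elim
  | y + 1, hy => dead_ren (hd y hy)

theorem good_ren {σ θ : ℕ → Tm S} {Z : ℕ → Prop} {f : ℕ → ℕ} {T Y : Tm S}
    (h : Good Q Lo K (fun n => σ (f n)) (fun n => θ (f n)) (fun n => Z (f n)) T Y) :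
    Good Q Lo K σ θ Z (ren f T) Y := by
  generalize e1 : (fun n => σ (f n)) = σ₀ at h
  generalize e2 : (fun n => θ (f n)) = θ₀ at h
  generalize e3 : (fun n => Z (f n)) = Z₀ at h
  induction h generalizing σ θ Z f with
  | irr h h1 => subst e1; exact Good.irr (by rwa [subst_ren]) h1
  | dead h h1 => subst e1 e3; exact Good.dead (by rwa [subst_ren]) (dead_ren h1)
  | var h h1 h2 => subst e1 e2 e3; exact Good.var h h1 h2
  | app _ _ h3 h4 ihM ihN =>
    subst e1
    exact Good.app (ihM rfl e2 e3) (ihN rfl e2 e3) h3 (by rwa [subst_ren])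
  | lam h h1 _ ih =>
    subst e1 e2 e3
    refine Good.lam (by rwa [← ren_lam, subst_ren]) h1 fun a ha => ?_
    exact ih a ha (scons_upr _ _ _) (scons_upr _ _ _) (scons_upr _ _ _)
  | pi h h1 h2 _ h4 _ ihA ihB =>
    subst e1 e2 e3
    refine Good.pi (by rwa [← ren_pi, subst_ren]) (by rwa [subst_ren])
      (by rwa [subst_ren]) (fun h5 => ihA (by rwa [subst_ren] at h5) rfl rfl rfl)
      (fun a ha h5 => h4 a ha (by rwa [subst_ren, scons_upr] at h5)) fun a ha h5 => ?_
    exact ihB a ha (by rwa [subst_ren, scons_upr] at h5) (scons_upr _ _ _) (scons_upr _ _ _)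
      (scons_upr _ _ _)

theorem good_up {σ θ θ' τ : ℕ → Tm S} {Z Z' : ℕ → Prop} {a C : Tm S}
    (hg : ∀ y, ¬ Z' y → TyC Q (subst σ (τ y)) (θ' y) → Good Q Lo K σ θ Z (τ y) (θ' y)) :
    ∀ y, ¬ scons False Z' y → TyC Q (subst (scons a σ) (up τ y)) (scons C θ' y) →
      Good Q Lo K (scons a σ) (scons C θ) (scons False Z) (up τ y) (scons C θ' y)
  | 0, _, ht => Good.var ht id Conv.rfl
  | y + 1, hy, ht => good_ren (hg y hy (by rwa [up_succ, lift_subst_scons] at ht))

theorem dead_of_varHd {Z : ℕ → Prop} {y : ℕ} {T : Tm S} (h : VarHd y T) (hy : Z y) :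
    DeadHd Z T := by
  induction h with
  | var => exact DeadHd.var hy
  | app N _ ih => exact DeadHd.app N ih

theorem dead_of_conHd {Z : ℕ → Prop} {T : Tm S} (h : ConHd T) : DeadHd Z T := by
  induction h with
  | con A t => exact DeadHd.con A t
  | app N _ ih => exact DeadHd.app N ih

theorem dead_varHd {Z : ℕ → Prop} {y : ℕ} {T : Tm S} (h : DeadHd Z T) (hy : VarHd y T) : Z y := by
  induction hy with
  | var => cases h with
    | var h => exact h
  | app N _ ih => cases h with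
    | app _ h => exact ih h

theorem theta_cons {Γ : List (Tm S)} {σ θ : ℕ → Tm S} {Z : ℕ → Prop} {A a : Tm S}
    (hθ : ∀ n A, Lk Γ n A →
      Z n ∨ (Conv (θ n) (subst σ A) ∧ (Reach Q K (θ n) → DT Q K (θ n))))
    (hA : Reach Q K (subst σ A) → DT Q K (subst σ A)) :
    ∀ n B, Lk (A :: Γ) n B → scons False Z n ∨
      (Conv (scons (subst σ A) θ n) (subst (scons a σ) B) ∧
        (Reach Q K (scons (subst σ A) θ n) → DT Q K (scons (subst σ A) θ n))) := by
  intro n B h
  cases h with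
  | zero => exact Or.inr ⟨by rw [lift_subst_scons]; exact Conv.rfl, hA⟩
  | succ _ h =>
    rw [lift_subst_scons]
    exact hθ _ _ h

theorem good_normal_aux (hL : Layer Q Lo K) {Γ : List (Tm S)} {T Y : Tm S} (hT : Normal T)
    (h : Ty Q allC Γ T Y) {σ θ : ℕ → Tm S} {Z : ℕ → Prop} (hσ : SubT Q allC [] σ Γ)
    (hθ : ∀ n A, Lk Γ n A →
      Z n ∨ (Conv (θ n) (subst σ A) ∧ (Reach Q K (θ n) → DT Q K (θ n))))
    (hlam : ∀ A M, T = lam A M → Reach Q K (subst σ Y) → DT Q K (subst σ Y)) :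
    Good Q Lo K σ θ Z T (subst σ Y) ∧
      ∀ y, VarHd y T → ¬ Z y → Reach Q K (subst σ Y) → DT Q K (subst σ Y) := by
  induction T generalizing Γ Y σ θ Z with
  | var n =>
    have ht := TyC.of_ty (h.subst hσ)
    obtain ⟨A, hA, hc⟩ := gen_var h
    by_cases hz : Z n
    · exact ⟨Good.dead ht (DeadHd.var hz), fun y hy hy' => by cases hy; exact absurd hz hy'⟩
    · obtain ⟨h1, h2⟩ := (hθ n A hA).resolve_left hz
      have h3 := (hc.subst σ).trans' h1.symm'
      exact ⟨Good.var ht hz h3, fun _ _ _ hr => (h2 (hr.conv h3)).conv h3.symm'⟩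
  | sort s => exact ⟨Good.dead (TyC.of_ty (h.subst hσ)) (DeadHd.sort s), fun y hy => by cases hy⟩
  | con A t => exact ⟨Good.dead (TyC.of_ty (h.subst hσ)) (DeadHd.con A t), fun y hy => by cases hy⟩
  | app M N ihM ihN =>
    have ht := TyC.of_ty (h.subst hσ)
    by_cases hr : Reach Q K (subst σ Y)
    swap
    · exact ⟨Good.irr ht hr, fun _ _ _ h1 => absurd h1 hr⟩
    by_cases hd : DeadHd Z (app M N)
    · exact ⟨Good.dead ht hd, fun y hy hy' => absurd (dead_varHd hd hy) hy'⟩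
    obtain ⟨hM, hN, hne⟩ := normal_app.1 hT
    obtain ⟨A, B, h1, h2, hc⟩ := gen_app h
    obtain ⟨y, hy⟩ := (hne.cases_pi h1).resolve_right fun h3 => hd (dead_of_conHd (h3.app N))
    have hz : ¬ Z y := fun h3 => hd (dead_of_varHd (hy.app N) h3)
    have hc' := hc.subst σ
    rw [inst_subst'] at hc'
    have ha := TyC.of_ty (h2.subst hσ)
    obtain ⟨g1, g2⟩ := ihM hM h1 hσ hθ fun _ _ e => by subst e; cases hne
    have hdt := g2 y hy hz (Reach.pi Conv.rfl ha (hr.conv hc'))
    obtain ⟨d1, d2⟩ := hdt.pi Conv.rfl ha (hr.conv hc')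
    exact ⟨Good.app g1 (ihN hN h2 hσ hθ fun _ _ _ => d2).1 hdt hc',
      fun _ _ _ _ => d1.conv hc'.symm'⟩
  | lam A M _ ihM =>
    have ht := TyC.of_ty (h.subst hσ)
    refine ⟨?_, fun y hy => by cases hy⟩
    by_cases hr : Reach Q K (subst σ Y)
    swap
    · exact Good.irr ht hr
    obtain ⟨B, s, h1, h2, hc⟩ := gen_lam h
    obtain ⟨s₁, s₂, -, h3, -⟩ := gen_pi_sort h2
    refine Good.lam ht (hc.subst σ) fun a ha => ?_
    have hσ' := hσ.cons (ha.ty (h3.subst hσ))
    by_cases hr' : Reach Q K (inst (subst (up σ) B) a)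
    · obtain ⟨d1, d2⟩ := (hlam A M rfl hr).pi (hc.subst σ) ha hr'
      rw [up_inst] at d1 ⊢
      exact (ihM (normal_lam.1 hT).2 h1 hσ' (theta_cons hθ d2) fun _ _ _ _ => d1).1
    · refine Good.irr ?_ hr'
      rw [up_inst]
      exact TyC.of_ty (h1.subst hσ')
  | pi A B ihA ihB =>
    have ht := TyC.of_ty (h.subst hσ)
    refine ⟨?_, fun y hy => by cases hy⟩
    by_cases hr : Reach Q K (subst σ Y)
    swap
    · exact Good.irr ht hr
    obtain ⟨s₁, s₂, s₃, hrule, h1, h2, hc⟩ := gen_pi h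
    have k3 : K s₃ := reach_sort.1 (hr.conv (hc.subst σ))
    obtain ⟨l1, l2⟩ := hL.k _ _ _ hrule k3
    obtain ⟨hA, hB⟩ := normal_pi.1 hT
    have key : ∀ a, TyC Q a (subst σ A) → ¬ HasS Q Lo [] (subst (scons a σ) B) →
        K s₂ ∧ (Reach Q K (subst σ A) → Cls Q K false (subst σ A)) := by
      intro a ha h3
      have k2 := l2.resolve_left fun h4 =>
        h3 (HasS.of_ty (h2.subst (hσ.cons (ha.ty (h1.subst hσ)))) h4)
      exact ⟨k2, cls_base hrule k2 k3 (HasS.of_ty (h1.subst hσ) rfl)⟩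
    refine Good.pi (s₁ := s₁) (s₂ := s₂) ht Conv.rfl
      (fun h3 => l1.resolve_left fun h4 => h3 (HasS.of_ty (h1.subst hσ) h4))
      (fun _ => (ihA hA h1 hσ hθ fun _ _ e => ?_).1) key fun a ha h3 => ?_
    · subst e
      exact absurd h1 not_ty_lam_sort
    · refine (ihB hB h2 (hσ.cons (ha.ty (h1.subst hσ)))
        (theta_cons hθ fun h4 => Or.inl ((key a ha h3).2 h4)) fun _ _ e => ?_).1
      subst e
      exact absurd h2 not_ty_lam_sort

end InterpAux

open InterpAux

theorem domOf_conv {M M' : Tm S} (h : Conv M M') : domOf Q M = domOf Q M' := by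
  unfold domOf
  rw [nf_conv h]
theorem domOf_spec (hN : Nice Q) {M C D : Tm S} (h : TyC Q M (pi C D)) : Conv (domOf Q M) C := by
  obtain ⟨A', B', hA, -, hT⟩ := h.pi_ty
  have hw := hN.wn _ _ _ hT
  have h1 := hT.red hw.red_nf
  obtain ⟨D', h2⟩ := Classical.epsilon_spec (p := fun C => ∃ D, Ty Q allC [] (nf M) (pi C D))
    ⟨A', B', h1⟩
  exact (hw.normal_nf.dom_unique h2 h1).trans' hA.symm'

theorem sem_ren (M : Tm S) (f : ℕ → ℕ) (σ : ℕ → Tm S) (ρ : ℕ → Beh S) :
    sem Q Lo K (ren f M) σ ρ = sem Q Lo K M (fun n => σ (f n)) (fun n => ρ (f n)) := by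
  induction M generalizing f σ ρ with
  | var n => rfl
  | sort s => rfl
  | con A t => rfl
  | app M N ihM ihN => simp only [ren_app, sem, ihM, ihN, subst_ren]
  | lam A M _ ihM => simp only [ren_lam, sem, ihM, scons_upr]
  | pi A B ihA ihB => simp only [ren_pi, sem, ihA, ihB, subst_ren, scons_upr]
theorem sem_lift (M a : Tm S) (b : Beh S) (σ : ℕ → Tm S) (ρ : ℕ → Beh S) :
    sem Q Lo K (lift M) (scons a σ) (scons b ρ) = sem Q Lo K M σ ρ := sem_ren M Nat.succ _ _
/-- The exact substitution lemma. -/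
theorem sem_subst (M : Tm S) (τ σ : ℕ → Tm S) (ρ : ℕ → Beh S) :
    sem Q Lo K (subst τ M) σ ρ =
      sem Q Lo K M (fun n => subst σ (τ n)) (fun n => sem Q Lo K (τ n) σ ρ) := by
  have hup : ∀ (τ σ : ℕ → Tm S) (ρ : ℕ → Beh S) (a : Tm S) (b : Beh S),
      (fun n => sem Q Lo K (up τ n) (scons a σ) (scons b ρ))
        = scons b fun n => sem Q Lo K (τ n) σ ρ := by
    intro τ σ ρ a b
    funext n
    cases n with
    | zero => rfl
    | succ n => exact sem_lift _ _ _ _ _
  induction M generalizing τ σ ρ with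
  | var n => rfl
  | sort s => rfl
  | con A t => rfl
  | app M N ihM ihN => simp only [subst_app, sem, ihM, ihN, subst_subst]
  | lam A M _ ihM => simp only [subst_lam, sem, ihM, scons_up, hup]
  | pi A B ihA ihB => simp only [subst_pi, sem, ihA, ihB, subst_subst, scons_up, hup]
theorem sem_inst (M N : Tm S) (σ : ℕ → Tm S) (ρ : ℕ → Beh S) :
    sem Q Lo K (inst M N) σ ρ =
      sem Q Lo K M (scons (subst σ N) σ) (scons (sem Q Lo K N σ ρ) ρ) := by
  rw [inst, sem_subst, scons_var]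
  congr 1
  funext n
  cases n <;> rfl
/-- Invariance under conversion of the closing substitution. -/
theorem sem_conv_env (hw : WellFounded (Prec Q K)) (M : Tm S) {σ σ' : ℕ → Tm S}
    (h : ∀ n, Conv (σ n) (σ' n)) (ρ : ℕ → Beh S) : sem Q Lo K M σ ρ = sem Q Lo K M σ' ρ := by
  induction M generalizing σ σ' ρ with
  | var n => rfl
  | sort s => rfl
  | con A t => rfl
  | app M N ihM ihN =>
    simp only [sem, ihM h, ihN h, nf_conv (conv_subst_env N h), domOf_conv (conv_subst_env M h)]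
  | lam A M _ ihM => simp only [sem, ihM (conv_scons _ h)]
  | pi A B ihA ihB =>
    have e : ∀ a, TyC Q a (subst σ A) = TyC Q a (subst σ' A) := fun a =>
      propext ⟨fun h1 => h1.conv (conv_subst_env A h), fun h1 => h1.conv (conv_subst_env A h).symm'⟩
    simp only [sem, ihA h, ihB (conv_scons _ h), hasS_eq (conv_subst_env A h), e,
      VV_conv hw (conv_subst_env A h), hasS_eq (conv_subst_env B (conv_scons _ h))]
theorem DeadHd.sem {Z : ℕ → Prop} {T : Tm S} (h : DeadHd Z T) (σ : ℕ → Tm S) {ρ : ℕ → Beh S}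
    (hρ : ∀ y, Z y → ρ y = fun _ => Cand.top) : sem Q Lo K T σ ρ = fun _ => Cand.top := by
  induction h with
  | var hy => exact hρ _ hy
  | sort s => rfl
  | con A t => rfl
  | app N _ ih => simp only [P340.sem, ih]
theorem DeadHd.step {Z : ℕ → Prop} {T T' : Tm S} (h : DeadHd Z T) (hs : Step T T') :
    DeadHd Z T' := by
  induction h generalizing T' with
  | var hy => cases hs
  | sort s => cases hs
  | con A t => cases hs
  | app N h ih =>
    cases hs with
    | beta => cases h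
    | appL _ h1 => exact DeadHd.app _ (ih h1)
    | appR _ _ => exact DeadHd.app _ h

theorem Good.tyC {σ θ : ℕ → Tm S} {Z : ℕ → Prop} {T Y : Tm S} (h : Good Q Lo K σ θ Z T Y) :
    TyC Q (subst σ T) Y := by
  induction h with
  | irr h _ => exact h
  | dead h _ => exact h
  | var h _ _ => exact h
  | app _ _ _ hc ihM ihN => exact (ihM.app ihN).conv hc.symm'
  | lam h _ _ _ => exact h
  | pi h _ _ _ _ _ _ _ => exact h
theorem Good.conv {σ θ : ℕ → Tm S} {Z : ℕ → Prop} {T Y Y' : Tm S} (h : Good Q Lo K σ θ Z T Y)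
    (hc : Conv Y Y') : Good Q Lo K σ θ Z T Y' := by
  cases h with
  | irr h h1 => exact Good.irr (h.conv hc) fun h2 => h1 (h2.conv hc.symm')
  | dead h h1 => exact Good.dead (h.conv hc) h1
  | var h h1 h2 => exact Good.var (h.conv hc) h1 (hc.symm'.trans' h2)
  | app h1 h2 h3 h4 => exact Good.app h1 h2 h3 (hc.symm'.trans' h4)
  | lam h h1 h2 => exact Good.lam (h.conv hc) (hc.symm'.trans' h1) h2
  | pi h h1 h2 h3 h4 h5 => exact Good.pi (h.conv hc) h1 h2 h3 h4 h5
/-- Substitution of good terms into a good term. -/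
theorem Good.subst {σ θ θ' τ : ℕ → Tm S} {Z Z' : ℕ → Prop} {M Y : Tm S}
    (h : Good Q Lo K (fun n => subst σ (τ n)) θ' Z' M Y)
    (hd : ∀ y, Z' y → DeadHd Z (τ y)) (hg : ∀ y, ¬ Z' y → TyC Q (subst σ (τ y)) (θ' y) →
      Good Q Lo K σ θ Z (τ y) (θ' y)) :
    Good Q Lo K σ θ Z (subst τ M) Y := by
  generalize e : (fun n => Tm.subst σ (τ n)) = σ₀ at h
  induction h generalizing σ θ τ Z with
  | irr h h1 => subst e; exact Good.irr (by rwa [subst_subst]) h1
  | dead h h1 => subst e; exact Good.dead (by rwa [subst_subst]) (dead_subst h1 hd)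
  | var h h1 h2 => subst e; exact (hg _ h1 (h.conv h2)).conv h2.symm'
  | app _ _ h3 h4 ihM ihN =>
    subst e
    exact Good.app (ihM hd hg rfl) (ihN hd hg rfl) h3 (by rwa [subst_subst])
  | lam h h1 _ ih =>
    subst e
    refine Good.lam (by rwa [← subst_lam, subst_subst]) h1 fun a ha => ?_
    exact ih a ha (dead_up hd) (good_up hg) (scons_up _ _ _)
  | pi h h1 h2 _ h4 _ ihA ihB =>
    subst e
    refine Good.pi (by rwa [← subst_pi, subst_subst]) (by rwa [subst_subst])
      (by rwa [subst_subst]) (fun h5 => ihA (by rwa [subst_subst] at h5) hd hg rfl)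
      (fun a ha h5 => h4 a ha (by rwa [subst_subst, scons_up] at h5)) fun a ha h5 => ?_
    exact ihB a ha (by rwa [subst_subst, scons_up] at h5) (dead_up hd) (good_up hg)
      (scons_up _ _ _)
theorem Good.inst {σ θ : ℕ → Tm S} {Z : ℕ → Prop} {M N C Y : Tm S}
    (h : Good Q Lo K (scons (Tm.subst σ N) σ) (scons C θ) (scons False Z) M Y)
    (hN : Good Q Lo K σ θ Z N C) : Good Q Lo K σ θ Z (Tm.inst M N) Y := by
  rw [← scons_var] at h
  refine h.subst (fun y hy => ?_) fun y hy ht => ?_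
  · cases y with
    | zero => exact hy.elim
    | succ y => exact DeadHd.var hy
  · cases y with
    | zero => exact hN
    | succ y => exact Good.var ht hy Conv.rfl

/-- Independence of junk: only the values on valid stacks matter. -/
theorem Good.junk (hN : Nice Q) (hw : WellFounded (Prec Q K)) {σ θ : ℕ → Tm S} {Z : ℕ → Prop}
    {T Y : Tm S} (h : Good Q Lo K σ θ Z T Y) {ρ ρ' : ℕ → Beh S}
    (hZ : ∀ y, Z y → ρ y = fun _ => Cand.top) (hZ' : ∀ y, Z y → ρ' y = fun _ => Cand.top)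
    (hρ : ∀ y, ¬ Z y → ∀ st, Valid Q K (θ y) st → ρ y st = ρ' y st)
    {st : Stk S} (hst : Valid Q K Y st) : sem Q Lo K T σ ρ st = sem Q Lo K T σ ρ' st := by
  have hs : ∀ {Z : ℕ → Prop} {ρ : ℕ → Beh S} (b : Beh S), (∀ y, Z y → ρ y = fun _ => Cand.top) →
      ∀ y, scons False Z y → scons b ρ y = fun _ => Cand.top := by
    intro Z ρ b h y hy
    cases y with
    | zero => exact hy.elim
    | succ y => exact h y hy
  have hv : ∀ {θ : ℕ → Tm S} {Z : ℕ → Prop} {ρ ρ' : ℕ → Beh S} (C : Tm S) (b : Beh S),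
      (∀ y, ¬ Z y → ∀ st, Valid Q K (θ y) st → ρ y st = ρ' y st) →
      ∀ y, ¬ scons False Z y → ∀ st, Valid Q K (scons C θ y) st →
        scons b ρ y st = scons b ρ' y st := by
    intro θ Z ρ ρ' C b h y hy st hst
    cases y with
    | zero => rfl
    | succ y => exact h y hy st hst
  induction h generalizing ρ ρ' st with
  | irr _ h1 => exact absurd hst.reach h1
  | dead _ h1 => rw [h1.sem _ hZ, h1.sem _ hZ']
  | var _ h1 h2 => exact hρ _ h1 st (hst.conv h2)
  | app hM hA _ h4 ihM ihN =>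
    simp only [sem]
    rw [pack_conv (domOf_spec hN hM.tyC), pack_ext fun st hst => ihN hZ hZ' hρ hst]
    refine ihM hZ hZ' hρ ?_
    obtain ⟨T', -, hT'⟩ := hA.tyC
    have hwn := hN.wn _ _ _ hT'
    exact (valid_cons hw Conv.rfl).2 ⟨hwn.normal_nf, hA.tyC.red hwn.red_nf, pack_mem hw _ _,
      hst.conv (h4.trans' (Conv.inst Conv.rfl hwn.red_nf.conv))⟩
  | lam _ h1 _ ih =>
    cases st with
    | nil => rfl
    | cons x st =>
      obtain ⟨a, v⟩ := x
      obtain ⟨-, h2, -, h3⟩ := (valid_cons hw h1).1 hst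
      exact ih a h2 (hs _ hZ) (hs _ hZ') (hv _ _ hρ) h3
  | pi _ h1 h2 _ h4 _ ihA ihB =>
    simp only [sem]
    rw [cut_congr fun h5 => ihA h5 hZ hZ' hρ (valid_nil.2 ⟨_, h2 h5, Conv.rfl⟩)]
    refine arr_congr fun a v hP => cut_congr fun h5 => ?_
    exact ihB a (hP.1.conv h1) h5 (hs _ hZ) (hs _ hZ') (hv _ _ hρ)
      (valid_nil.2 ⟨_, (h4 a (hP.1.conv h1) h5).1, Conv.rfl⟩)

/-- Normal forms are good. -/
theorem good_normal (hL : Layer Q Lo K) {Γ : List (Tm S)} {T Y : Tm S} (hT : Normal T)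
    (h : Ty Q allC Γ T Y) {σ θ : ℕ → Tm S} {Z : ℕ → Prop} (hσ : SubT Q allC [] σ Γ)
    (hθ : ∀ n A, Lk Γ n A →
      Z n ∨ (Conv (θ n) (subst σ A) ∧ (Reach Q K (θ n) → DT Q K (θ n))))
    (hlam : ∀ A M, T = lam A M → Reach Q K (subst σ Y) → DT Q K (subst σ Y)) :
    Good Q Lo K σ θ Z T (subst σ Y) := (good_normal_aux hL hT h hσ hθ hlam).1

end Vale.Agent.P340
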