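import Vale.Agent.P340.TypB
import Vale.Agent.P340.Graph

/-! P340: closed kinds that reach a sort of `K`, their classes, and well-foundedness of the
domain relation on small kinds. -/

namespace Vale.Agent.P340

universe u
open Tm
variable {S : Type u}

/-- Some instance of the closed type ends in a sort of `K`. -/
inductive Reach (Q : Sys S) (K : S → Prop) : Tm S → Prop
  | sort {κ : Tm S} {s : S} : K s → Conv κ (sort s) → Reach Q K κ
  | pi {κ C D a : Tm S} : Conv κ (pi C D) → TyC Q a C → Reach Q K (inst D a) → Reach Q K κ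

/-- Domains met along an instance path that reaches `K`. -/
inductive Pos (Q : Sys S) (K : S → Prop) : Tm S → Tm S → Prop
  | here {κ C D a : Tm S} : Conv κ (pi C D) → TyC Q a C → Reach Q K (inst D a) → Pos Q K κ C
  | there {κ C D a C' : Tm S} : Conv κ (pi C D) → TyC Q a C → Pos Q K (inst D a) C' →
      Pos Q K κ C'

/-- The closed type has a sort accessible with parity `p`. -/
def Cls (Q : Sys S) (K : S → Prop) (p : Bool) (κ : Tm S) : Prop :=
  HasS Q (fun r => Acs Q K r p) [] κ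

def DT (Q : Sys S) (K : S → Prop) (κ : Tm S) : Prop := Cls Q K false κ ∨ Cls Q K true κ

def Prec (Q : Sys S) (K : S → Prop) (C κ : Tm S) : Prop :=
  Cls Q K false κ ∧ Cls Q K true κ ∧ Reach Q K C ∧ Pos Q K κ C

variable {Q : Sys S} {K : S → Prop}

theorem Reach.conv {κ κ' : Tm S} (h : Reach Q K κ) (hc : Conv κ κ') : Reach Q K κ' := by
  cases h with
  | sort h h' => exact Reach.sort h (Conv.trans' (Conv.symm' hc) h')
  | pi h h1 h2 => exact Reach.pi (Conv.trans' (Conv.symm' hc) h) h1 h2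
theorem Pos.conv {κ κ' C : Tm S} (h : Pos Q K κ C) (hc : Conv κ κ') : Pos Q K κ' C := by
  cases h with
  | here h h1 h2 => exact Pos.here (Conv.trans' (Conv.symm' hc) h) h1 h2
  | there h h1 h2 => exact Pos.there (Conv.trans' (Conv.symm' hc) h) h1 h2
theorem Pos.reach {κ C : Tm S} (h : Pos Q K κ C) : Reach Q K κ := by
  induction h with
  | here h h1 h2 => exact Reach.pi h h1 h2
  | there h h1 _ ih => exact Reach.pi h h1 ih
theorem Cls.conv {p : Bool} {κ κ' : Tm S} (h : Cls Q K p κ) (hc : Conv κ κ') : Cls Q K p κ' :=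
  HasS.conv h hc
theorem DT.conv {κ κ' : Tm S} (h : DT Q K κ) (hc : Conv κ κ') : DT Q K κ' :=
  h.imp (fun h => h.conv hc) (fun h => h.conv hc)
theorem reach_sort {s : S} : Reach Q K (sort s) ↔ K s := by
  refine ⟨fun h => ?_, fun h => Reach.sort h Conv.rfl⟩
  cases h with
  | sort h h' => exact conv_sort_inj h' ▸ h
  | pi h _ _ => exact absurd h not_conv_sort_pi
theorem reach_pi {C D : Tm S} : Reach Q K (pi C D) ↔ ∃ a, TyC Q a C ∧ Reach Q K (inst D a) := by
  refine ⟨fun h => ?_, fun ⟨a, h, h'⟩ => Reach.pi Conv.rfl h h'⟩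
  cases h with
  | sort _ h' => exact absurd (Conv.symm' h') not_conv_sort_pi
  | pi h h1 h2 =>
    obtain ⟨g1, g2⟩ := conv_pi_inj h
    exact ⟨_, h1.conv (Conv.symm' g1), h2.conv (Conv.inst (Conv.symm' g2) Conv.rfl)⟩
theorem pos_pi {C D C' : Tm S} (h : Pos Q K (pi C D) C') :
    ∃ a, TyC Q a C ∧ Reach Q K (inst D a) ∧ (Conv C C' ∨ Pos Q K (inst D a) C') := by
  cases h with
  | here h h1 h2 =>
    obtain ⟨g1, g2⟩ := conv_pi_inj h
    exact ⟨_, h1.conv (Conv.symm' g1), h2.conv (Conv.inst (Conv.symm' g2) Conv.rfl), Or.inl g1⟩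
  | there h h1 h2 =>
    obtain ⟨g1, g2⟩ := conv_pi_inj h
    have h3 := h2.conv (Conv.inst (Conv.symm' g2) Conv.rfl)
    exact ⟨_, h1.conv (Conv.symm' g1), h3.reach, Or.inr h3⟩
theorem not_pos_sort {s : S} {C : Tm S} : ¬ Pos Q K (sort s) C := by
  intro h
  cases h with
  | here h _ _ => exact not_conv_sort_pi h
  | there h _ _ => exact not_conv_sort_pi h
theorem ConHd.not_reach {κ : Tm S} (h : ConHd κ) : ¬ Reach Q K κ := by
  intro h'
  cases h' with
  | sort _ h' => exact h.not_conv_sort h'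
  | pi h' _ _ => exact h.not_conv_pi h'
/-- Every sort of a kind that reaches `K` is a codomain descendant of a sort of a sort of `K`. -/
theorem Reach.rel {κ : Tm S} {r : S} (h : Reach Q K κ) (hr : HasS Q (· = r) [] κ) : Rel Q K r := by
  induction h generalizing r with
  | sort h h' =>
    obtain ⟨_, rfl, h1⟩ := (hr.conv h').sort_inv
    exact Rel.ax h h1
  | pi h h1 _ ih =>
    obtain ⟨s₁, s₂, _, g1, rfl, -, g2⟩ := hr.pi_inst h
    exact Rel.cod (ih (g2 _ h1)) g1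
/-- Propagation of the classes along a product. -/
theorem Cls.pi {p : Bool} {κ C D a : Tm S} (h : Cls Q K p κ) (hc : Conv κ (pi C D))
    (ha : TyC Q a C) (hr : Reach Q K (inst D a)) :
    Cls Q K p (inst D a) ∧ (Reach Q K C → Cls Q K (!p) C) := by
  obtain ⟨s₁, s₂, s₃, g1, g2, g3, g4⟩ := HasS.pi_inst h hc
  have g5 := hr.rel (g4 a ha)
  exact ⟨(g4 a ha).mono fun _ hs => hs ▸ Acs.cod g1 g5 g2,
    fun hC => g3.mono fun _ hs => hs ▸ Acs.dom g1 (hC.rel g3) g5 g2⟩
theorem DT.pi {κ C D a : Tm S} (h : DT Q K κ) (hc : Conv κ (pi C D))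
    (ha : TyC Q a C) (hr : Reach Q K (inst D a)) :
    DT Q K (inst D a) ∧ (Reach Q K C → DT Q K C) := by
  rcases h with h | h
  · exact ⟨Or.inl (h.pi hc ha hr).1, fun hC => Or.inr ((h.pi hc ha hr).2 hC)⟩
  · exact ⟨Or.inr (h.pi hc ha hr).1, fun hC => Or.inl ((h.pi hc ha hr).2 hC)⟩
theorem Cls.pos {p : Bool} {κ C : Tm S} (h : Cls Q K p κ) (hp : Pos Q K κ C) (hr : Reach Q K C) :
    Cls Q K (!p) C := by
  induction hp with
  | here g1 g2 g3 => exact (h.pi g1 g2 g3).2 hr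
  | there g1 g2 g3 ih => exact ih (h.pi g1 g2 g3.reach).1 hr
/-- The domain of a quantification in `K`. -/
theorem cls_base {C : Tm S} {s₁ s₂ s₃ : S} (hr : Q.rule s₁ s₂ s₃) (h₂ : K s₂) (h₃ : K s₃)
    (hC : HasS Q (· = s₁) [] C) (h : Reach Q K C) : Cls Q K false C :=
  hC.mono fun _ hs => hs ▸ Acs.base (h.rel hC) hr h₂ h₃

namespace Kinds

/-- Accessibility for the domain relation. -/
def Ac (Q : Sys S) (K : S → Prop) (κ : Tm S) : Prop :=
  Acc (fun C κ => Reach Q K C ∧ Pos Q K κ C) κ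

theorem Ac.conv {κ κ' : Tm S} (h : Ac Q K κ) (hc : Conv κ κ') : Ac Q K κ' :=
  Acc.intro _ fun _ hC => h.inv ⟨hC.1, hC.2.conv (Conv.symm' hc)⟩

theorem ac_sort (s : S) : Ac Q K (sort s) := Acc.intro _ fun _ h => absurd h.2 not_pos_sort

theorem ac_con {κ : Tm S} (h : ConHd κ) : Ac Q K κ :=
  Acc.intro _ fun _ h' => absurd h'.2.reach h.not_reach

theorem ac_pi {Γ : List (Tm S)} {C D : Tm S} {σ : ℕ → Tm S} {s : S} (hC : Ty Q allC Γ C (sort s))
    (hσ : SubT Q allC [] σ Γ)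
    (h : ∀ a, SubT Q allC [] (scons a σ) (C :: Γ) → Reach Q K (subst (scons a σ) D) →
      Ac Q K (subst (scons a σ) D) ∧ (Reach Q K (subst σ C) → Ac Q K (subst σ C))) :
    Ac Q K (subst σ (pi C D)) := by
  refine Acc.intro _ fun C' hC' => ?_
  obtain ⟨a, h1, h2, h3⟩ := pos_pi hC'.2
  rw [up_inst] at h2 h3
  obtain ⟨g1, g2⟩ := h a (hσ.cons (h1.ty (hC.subst hσ))) h2
  rcases h3 with h3 | h3
  · exact (g2 (hC'.1.conv (Conv.symm' h3))).conv h3
  · exact g1.inv ⟨hC'.1, h3⟩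

theorem varHd_lk {y : ℕ} {Γ : List (Tm S)} {M T : Tm S} (hM : VarHd y M)
    (h : Ty Q allC Γ M T) : ∃ Y, Lk Γ y Y := by
  induction hM generalizing T with
  | var => obtain ⟨A, h1, -⟩ := gen_var h; exact ⟨A, h1⟩
  | app N _ ih => obtain ⟨A, B, h1, -⟩ := gen_app h; exact ih h1

theorem hasS_weak {X : S → Prop} {Γ : List (Tm S)} {T A : Tm S} (h : HasS Q X Γ T)
    (hA : Wf Q allC (A :: Γ)) : HasS Q X (A :: Γ) (lift T) := by
  obtain ⟨U, s, h1, h2, h3⟩ := h
  exact ⟨_, s, h1, Conv.lift h2, h3.weak' hA⟩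

theorem edge_cod {a b c r : S} (h : Q.rule a b c) (hb : Rel Q K b) (hc : AncR Q K c r) :
    AncR Q K b r := Relation.ReflTransGen.head ⟨hb, Or.inl ⟨a, h⟩⟩ hc

theorem edge_dom {a b c r : S} (h : Q.rule a b c) (ha : Rel Q K a) (hb : Rel Q K b)
    (hc : AncR Q K c r) : AncR Q K a r :=
  Relation.ReflTransGen.head ⟨ha, Or.inr ⟨b, h, hb⟩⟩ hc

theorem step_one (hN : Nice Q) (hW : WfCond Q K) (r : S) :
    (∀ p, Acs Q K r p) → ∀ κ, HasS Q (· = r) [] κ → Ac Q K κ := by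
  induction r using (wf_AncR hN.fin K).induction with
  | _ r ih0 =>
  intro hr κ hκ
  have ih : ∀ r₁, AncR Q K r₁ r → ¬ AncR Q K r r₁ → ∀ κ, HasS Q (· = r₁) [] κ → Ac Q K κ :=
    fun r₁ h1 h2 => ih0 r₁ ⟨h1, h2⟩ (acs_anc h1 hr)
  rcases hW r (hr false) (hr true) with hE | hP
  · have key : ∀ κ C, Pos Q K κ C → Reach Q K C → ∀ r', AncR Q K r' r → HasS Q (· = r') [] κ →
        Ac Q K C := by
      intro κ C h
      induction h with
      | here h1 h2 h3 =>
        intro hC r' g1 g2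
        obtain ⟨s₁, s₂, _, f1, rfl, f2, f3⟩ := g2.pi_inst h1
        have f4 := h3.rel (f3 _ h2)
        have f5 := edge_dom f1 (hC.rel f2) f4 g1
        refine ih s₁ f5 (fun hc => ?_) _ f2
        exact hE _ _ _ f1 f4 ⟨hc, f5⟩ ⟨Relation.ReflTransGen.trans hc
          (edge_dom f1 (hC.rel f2) f4 Relation.ReflTransGen.refl), g1⟩
      | there h1 h2 h3 ih' =>
        intro hC r' g1 g2
        obtain ⟨s₁, s₂, _, f1, rfl, -, f3⟩ := g2.pi_inst h1
        exact ih' hC s₂ (edge_cod f1 (h3.reach.rel (f3 _ h2)) g1) (f3 _ h2)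
    exact Acc.intro _ fun C hC => key κ C hC.2 hC.1 r Relation.ReflTransGen.refl hκ
  · have key : ∀ (U : Tm S) Γ r', Normal U → Ty Q allC Γ U (sort r') → SccR Q K r r' →
        (∀ n Y, Lk Γ n Y → HasS Q (fun q => ¬ Rel Q (SccR Q K r) q) Γ Y) →
        ∀ σ, SubT Q allC [] σ Γ → Ac Q K (subst σ U) := by
      intro U
      induction U with
      | pi C D ihC ihD =>
        intro Γ r' hU hT hs hv σ hσ
        obtain ⟨r₁, r₂, f1, hC, hD⟩ := gen_pi_sort hT
        refine ac_pi hC hσ fun a ha hRe => ?_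
        have f2 : HasS Q (· = r₂) [] (subst (scons a σ) D) := HasS.of_ty (hD.subst ha) rfl
        have f3 : HasS Q (· = r₁) [] (subst σ C) := HasS.of_ty (hC.subst hσ) rfl
        have f4 := hRe.rel f2
        refine ⟨?_, fun hRC => ?_⟩
        · have f5 := edge_cod f1 f4 hs.2
          by_cases hc : AncR Q K r r₂
          · refine ihD _ r₂ (normal_pi.1 hU).2 hD ⟨hc, f5⟩ (fun n Y hY => ?_) _ ha
            rcases lk_cons_inv hY with ⟨rfl, rfl⟩ | ⟨k, Y', rfl, rfl, hY'⟩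
            · exact hasS_weak (HasS.of_ty hC (hP _ _ _ f1 ⟨hc, f5⟩ hs)) hD.wf
            · exact hasS_weak (hv k Y' hY') hD.wf
          · exact ih r₂ f5 hc _ f2
        · have f5 := edge_dom f1 (hRC.rel f3) f4 hs.2
          by_cases hc : AncR Q K r r₁
          · exact ihC _ r₁ (normal_pi.1 hU).1 hC ⟨hc, f5⟩ hv _ hσ
          · exact ih r₁ f5 hc _ f3
      | _ =>
        intro Γ r' hU hT hs hv σ hσ
        rcases hU.cases_sort hT with ⟨t, h1⟩ | ⟨A, B, h1⟩ | ⟨y, h1⟩ | h1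
        · rw [h1]; exact ac_sort t
        · cases h1
        · obtain ⟨Y, hY⟩ := varHd_lk h1 hT
          obtain ⟨t, g1, g2⟩ := (h1.hasS (fun a b c h hc hb => hc (Rel.cod hb h)) hT hY
            (hv y Y hY)).sort_inv
          exact absurd (Rel.ax hs g2) g1
        · exact ac_con (h1.subst σ)
    obtain ⟨T, _, rfl, h1, h2⟩ := hκ
    have hw := hN.wn _ _ _ h2
    have := key _ [] _ hw.normal_nf (h2.red hw.red_nf)
      ⟨Relation.ReflTransGen.refl, Relation.ReflTransGen.refl⟩ (fun n Y h => by cases h) var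
      (SubT.id Wf.nil)
    rw [subst_id] at this
    exact this.conv (Conv.symm' (Conv.trans' h1 (Red.conv hw.red_nf)))

theorem step_two (hN : Nice Q) (hW : WfCond Q K) (U : Tm S) : ∀ Γ r r', Normal U →
    Ty Q allC Γ U (sort r) → Ty Q allC Γ U (sort r') → Acs Q K r false → Acs Q K r' true →
    ∀ σ, SubT Q allC [] σ Γ → Ac Q K (subst σ U) := by
  induction U with
  | pi C D ihC ihD =>
    intro Γ r r' hU hT hT' h0 h1 σ hσ
    obtain ⟨r₁, r₂, f1, hC, hD⟩ := gen_pi_sort hT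
    obtain ⟨r₁', r₂', f1', hC', hD'⟩ := gen_pi_sort hT'
    refine ac_pi hC hσ fun a ha hRe => ?_
    have f2 := hRe.rel (HasS.of_ty (hD.subst ha) rfl)
    have f2' := hRe.rel (HasS.of_ty (hD'.subst ha) rfl)
    refine ⟨ihD _ _ _ (normal_pi.1 hU).2 hD hD' (Acs.cod f1 f2 h0) (Acs.cod f1' f2' h1) _ ha,
      fun hRC => ihC _ _ _ (normal_pi.1 hU).1 hC' hC
        (Acs.dom f1' (hRC.rel (HasS.of_ty (hC'.subst hσ) rfl)) f2' h1)
        (Acs.dom f1 (hRC.rel (HasS.of_ty (hC.subst hσ) rfl)) f2 h0) _ hσ⟩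
  | _ =>
    intro Γ r r' hU hT hT' h0 h1 σ hσ
    rcases hU.cases_sort hT with ⟨t, g⟩ | ⟨A, B, g⟩ | ⟨y, g⟩ | g
    · rw [g]; exact ac_sort t
    · cases g
    · obtain rfl := conv_sort_inj (g.ty_unique hT hT')
      exact step_one hN hW r (fun p => by cases p; exacts [h0, h1]) _
        (HasS.of_ty (hT.subst hσ) rfl)
    · exact ac_con (g.subst σ)

theorem ac_of_cls (hN : Nice Q) (hW : WfCond Q K) {κ : Tm S} (h0 : Cls Q K false κ)
    (h1 : Cls Q K true κ) : Ac Q K κ := by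
  obtain ⟨T, r, g1, g2, g3⟩ := h0
  have hw := hN.wn _ _ _ g3
  have hc := Conv.trans' g2 (Red.conv hw.red_nf)
  obtain ⟨r', f1, f2⟩ := HasS.normal (h1.conv hc) hw.normal_nf
  have := step_two hN hW _ [] r r' hw.normal_nf (g3.red hw.red_nf) f2 g1 f1 var (SubT.id Wf.nil)
  rw [subst_id] at this
  exact this.conv (Conv.symm' hc)

end Kinds

theorem prec_wf (hN : Nice Q) (hW : WfCond Q K) : WellFounded (Prec Q K) :=
  ⟨fun _ => Acc.intro _ fun _ h => Subrelation.accessible (fun h => h.2.2)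
    ((Kinds.ac_of_cls hN hW h.1 h.2.1).inv h.2.2)⟩

end Vale.Agent.P340
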