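import Vale.Agent.P340.Truth

/-! P340: power-set and retraction structure of the wrappers along paths of kinds. -/

namespace Vale.Agent.P340

universe u
open Tm
variable {S : Type u}

/-- A choice of a kind of propositions at every sort of `Rel Q K`. -/
structure Kit (Q : Sys S) (K : S → Prop) where
  s : S → S
  r : S → S
  π : S → List (Bool × S)
  spec : ∀ b, Rel Q K b → K (s b) ∧ Q.ax (s b) (r b) ∧ PV Q (fun _ => False) (r b) (π b) b

theorem exists_kit (Q : Sys S) (K : S → Prop) : Nonempty (Kit Q K) := by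
  have h : ∀ b, ∃ s r π, Rel Q K b → K s ∧ Q.ax s r ∧ PV Q (fun _ => False) r π b := fun b => by
    by_cases hb : Rel Q K b
    · obtain ⟨s, r, π, h⟩ := hb.path
      exact ⟨s, r, π, fun _ => h⟩
    · exact ⟨b, b, [], fun h => absurd h hb⟩
  choose s r π h using h
  exact ⟨⟨s, r, π, h⟩⟩


variable {Q : Sys S} {K : S → Prop}

/-- The kind of propositions at the sort `b`. -/
def Kit.ans (k : Kit Q K) (b : S) : Tm S := Wr atF (k.π b) (sort (k.s b))

theorem Kit.ans_bd (k : Kit Q K) (b : S) : Bd 0 (k.ans b) := by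
  exact Wr_bd bd_atF _ trivial

theorem Kit.ans_ty (k : Kit Q K) (hN : Nice Q) {C : Tm S → Tm S → Prop}
    (hC : ∀ A t, Cb Q A t → C A t) {b : S} (hb : Rel Q K b) : Ty Q C [] (k.ans b) (sort b) := by
  exact Wr_ty hN hC (fun _ h => False.elim h) (k.spec b hb).2.2 (Ty.ax (k.spec b hb).2.1)

theorem Kit.ans_sortTail (k : Kit Q K) {b : S} (hb : Rel Q K b) : SortTail (k.ans b) := by
  exact Wr_sortTail (fun _ h => False.elim h) (k.spec b hb).2.2 (Or.inl (SortTail.sort _))


variable {κ : ℕ → Tm S} {q : ℕ → S}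

def inP (k : Kit Q K) (L : Logic Q K κ q) (b : S) (φ : Tm S) : Tm S :=
  lams (k.π b) (L.toS (k.s b) φ)
def outP (k : Kit Q K) (L : Logic Q K κ q) (b : S) (e : Tm S) : Tm S :=
  L.ofS (k.s b) (apps (k.π b) e)

/-- The duality recursion. For a point `a : X` and a formula `φ` in a variable of type `X`, the
first component is an element of the wrapper of `X` (built from `a` on even paths, from `φ` on
odd paths), the second evaluates an element of the wrapper (against `φ` on even paths, against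
`a` on odd paths). -/
def duo (k : Kit Q K) (L : Logic Q K κ q) :
    List (Bool × S) → Tm S → Tm S → Tm S → Tm S × (Tm S → Tm S)
  | [], _, a, φ => (a, fun e => inst φ e)
  | (false, c) :: π, X, a, φ =>
      (lam (atT c) (lift (duo k L π X a φ).1), fun e => (duo k L π X a φ).2 (app e (dum c)))
  | (true, b) :: π, X, a, φ =>
      (lam (Wr k.ans π X)
          (inP k L b ((duo k L π (lift X) (lift a) (ren (upr Nat.succ) φ)).2 (var 0))),
        fun e => outP k L b (app e (duo k L π X a φ).1))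

/-- A closed junk term. -/
def junk : Tm S := con (var 0) (var 0)

/-- Comprehension along an odd path. -/
def absP (k : Kit Q K) (L : Logic Q K κ q) (π : List (Bool × S)) (X φ : Tm S) : Tm S :=
  (duo k L π X junk φ).1
/-- Membership along an odd path. -/
def memP (k : Kit Q K) (L : Logic Q K κ q) (π : List (Bool × S)) (X p a : Tm S) : Tm S :=
  (duo k L π X a junk).2 p
/-- Injection along an even path. -/
def injP (k : Kit Q K) (L : Logic Q K κ q) (π : List (Bool × S)) (X a : Tm S) : Tm S :=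
  (duo k L π X a junk).1
/-- Evaluation of a formula along an even path. -/
def extP (k : Kit Q K) (L : Logic Q K κ q) (π : List (Bool × S)) (X e φ : Tm S) : Tm S :=
  (duo k L π X junk φ).2 e

variable (k : Kit Q K) (L : Logic Q K κ q)

namespace Levels

theorem inP_subst (b : S) (φ : Tm S) (σ : ℕ → Tm S) :
    subst σ (inP k L b φ) = inP k L b (subst σ φ) := by
  rw [inP, inP, lams_subst, L.toS_subst]

theorem outP_subst (b : S) (e : Tm S) (σ : ℕ → Tm S) :
    subst σ (outP k L b e) = outP k L b (subst σ e) := by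
  rw [outP, outP, L.ofS_subst, apps_subst]

theorem up_up_ren (φ : Tm S) (σ : ℕ → Tm S) :
    subst (up (up σ)) (ren (upr Nat.succ) φ) = ren (upr Nat.succ) (subst (up σ) φ) := by
  rw [subst_ren, ren_subst]
  congr 1
  funext n
  cases n with
  | zero => rfl
  | succ n => exact (lift_ren_upr (σ n) Nat.succ).symm

theorem up_scons_ren (φ N : Tm S) : subst (up (scons N var)) (ren (upr Nat.succ) φ) = φ := by
  rw [subst_ren]
  refine Eq.trans ?_ (subst_id φ)
  congr 1
  funext n
  cases n <;> rfl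

theorem duo_subst (π : List (Bool × S)) : ∀ (X a φ : Tm S) (σ : ℕ → Tm S),
    subst σ (duo k L π X a φ).1 = (duo k L π (subst σ X) (subst σ a) (subst (up σ) φ)).1 ∧
      ∀ e, subst σ ((duo k L π X a φ).2 e) =
        (duo k L π (subst σ X) (subst σ a) (subst (up σ) φ)).2 (subst σ e) := by
  induction π with
  | nil => exact fun X a φ σ => ⟨rfl, fun e => inst_subst' φ e σ⟩
  | cons x π ih =>
    intro X a φ σ
    obtain ⟨_ | _, c⟩ := x
    · refine ⟨?_, fun e => (ih X a φ σ).2 _⟩
      simp only [duo, subst_lam, lift_subst_up, (ih X a φ σ).1]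
      rfl
    · refine ⟨?_, fun e => ?_⟩
      · simp only [duo, subst_lam, Wr_subst k.ans_bd, inP_subst, (ih _ _ _ _).2, lift_subst_up,
          up_up_ren, subst_var, up_zero]
      · simp only [duo, outP_subst, subst_app, (ih X a φ σ).1]

theorem duo_conv (π : List (Bool × S)) : ∀ {X X' a a' φ φ' : Tm S}, Conv X X' → Conv a a' →
    Conv φ φ' → Conv (duo k L π X a φ).1 (duo k L π X' a' φ').1 ∧
      ∀ e e', Conv e e' → Conv ((duo k L π X a φ).2 e) ((duo k L π X' a' φ').2 e') := by
  induction π with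
  | nil => exact fun _ ha hφ => ⟨ha, fun e e' he => hφ.inst he⟩
  | cons x π ih =>
    intro X X' a a' φ φ' hX ha hφ
    obtain ⟨_ | _, c⟩ := x
    · exact ⟨Conv.lam Conv.rfl (ih hX ha hφ).1.lift,
        fun e e' he => (ih hX ha hφ).2 _ _ (he.app Conv.rfl)⟩
    · exact ⟨Conv.lam (Wr_conv _ _ hX) (lams_conv _ (L.toS_conv _
          ((ih hX.lift ha.lift (hφ.ren _)).2 _ _ Conv.rfl))),
        fun e e' he => L.ofS_conv _ (apps_conv _ (he.app (ih hX ha hφ).1))⟩

theorem duo_indep (π : List (Bool × S)) : ∀ X a a' φ φ' : Tm S,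
    (par π = false → (duo k L π X a φ).1 = (duo k L π X a φ').1 ∧
      (duo k L π X a φ).2 = (duo k L π X a' φ).2) ∧
    (par π = true → (duo k L π X a φ).1 = (duo k L π X a' φ).1 ∧
      (duo k L π X a φ).2 = (duo k L π X a φ').2) := by
  induction π with
  | nil => exact fun X a a' φ φ' => ⟨fun _ => ⟨rfl, rfl⟩, fun h => by cases h⟩
  | cons x π ih =>
    intro X a a' φ φ'
    obtain ⟨_ | _, c⟩ := x
    · refine ⟨fun h => ?_, fun h => ?_⟩
      · have h' := (ih X a a' φ φ').1 (by simpa [par] using h)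
        exact ⟨by simp only [duo, h'.1], by simp only [duo, h'.2]⟩
      · have h' := (ih X a a' φ φ').2 (by simpa [par] using h)
        exact ⟨by simp only [duo, h'.1], by simp only [duo, h'.2]⟩
    · refine ⟨fun h => ?_, fun h => ?_⟩
      · have hp : par π = true := by simpa [par] using h
        have h1 := ((ih (lift X) (lift a) (lift a') (ren (upr Nat.succ) φ)
          (ren (upr Nat.succ) φ')).2 hp).2
        have h2 := ((ih X a a' φ φ').2 hp).1
        exact ⟨by simp only [duo, h1], by simp only [duo, h2]⟩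
      · have hp : par π = false := by simpa [par] using h
        have h1 := ((ih (lift X) (lift a) (lift a') (ren (upr Nat.succ) φ)
          (ren (upr Nat.succ) φ')).1 hp).2
        have h2 := ((ih X a a' φ φ').1 hp).1
        exact ⟨by simp only [duo, h1], by simp only [duo, h2]⟩

variable {k L}

theorem inP_ty (hN : Nice Q) {b : S} (hb : Rel Q K b) {Γ : List (Tm S)} {φ : Tm S}
    (h : Ty Q L.C Γ φ (sort L.o)) : Ty Q L.C Γ (inP k L b φ) (k.ans b) :=
  lams_ty hN L.base atF (k.spec b hb).2.2 (Ty.axWf h.wf (k.spec b hb).2.1)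
    (L.toS_ty (k.spec b hb).1 h)

theorem outP_ty (hN : Nice Q) {b : S} (hb : Rel Q K b) {Γ : List (Tm S)} {e : Tm S}
    (h : Ty Q L.C Γ e (k.ans b)) : Ty Q L.C Γ (outP k L b e) (sort L.o) :=
  L.ofS_ty (k.spec b hb).1 (apps_ty hN L.base atF (k.spec b hb).2.2 h)

theorem wr_ty (hN : Nice Q) {u v : S} {π : List (Bool × S)} (hπ : PV Q (Rel Q K) u π v)
    {Γ : List (Tm S)} {X : Tm S} (hX : Ty Q L.C Γ X (sort u)) :
    Ty Q L.C Γ (Wr k.ans π X) (sort v) :=
  Wr_ty hN L.base (fun _ hb => k.ans_ty hN L.base hb) hπ hX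

theorem duo_ty (hN : Nice Q) {u v : S} {π : List (Bool × S)} (hπ : PV Q (Rel Q K) u π v) :
    ∀ {Γ : List (Tm S)} {X : Tm S} (a φ : Tm S), Ty Q L.C Γ X (sort u) →
    (cond (par π) (Ty Q L.C (X :: Γ) φ (sort L.o)) (Ty Q L.C Γ a X) →
      Ty Q L.C Γ (duo k L π X a φ).1 (Wr k.ans π X)) ∧
    (cond (par π) (Ty Q L.C Γ a X) (Ty Q L.C (X :: Γ) φ (sort L.o)) →
      ∀ e, Ty Q L.C Γ e (Wr k.ans π X) → Ty Q L.C Γ ((duo k L π X a φ).2 e) (sort L.o)) := by
  induction hπ with
  | nil => exact fun a φ _ => ⟨fun h => h, fun h e he => Ty.inst h he⟩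
  | @cod π v c w hπ hr ih =>
    intro Γ X a φ hX
    have e0 : par ((false, c) :: π) = par π := by simp [par]
    have hc := (hN.rz _ _ _ hr).1
    rw [e0]
    refine ⟨fun h => ?_, fun h e he => (ih a φ hX).2 h _ ?_⟩
    · exact Ty.lam (((ih a φ hX).1 h).weak' (Wf.cons (ty_atT L.base hc hX.wf)))
        (wr_ty hN (hπ.cod hr) hX)
    · have := Ty.app he (ty_dum L.base hc hX.wf)
      rwa [lift_inst] at this
  | @dom π v b w hπ hr hb ih =>
    intro Γ X a φ hX
    have e0 : par ((true, b) :: π) = !par π := by simp [par]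
    have hW := wr_ty (k := k) hN hπ hX
    rw [e0]
    refine ⟨fun h => ?_, fun h e he => outP_ty hN hb ?_⟩
    · refine Ty.lam (inP_ty hN hb ((ih (lift a) (ren (upr Nat.succ) φ)
        (hX.weak hW)).2 ?_ _ ?_)) (wr_ty hN (hπ.dom hr hb) hX)
      · revert h
        cases par π
        · exact fun h => Ty.weak_under h (Wf.cons hW)
        · exact fun h => Ty.weak h hW
      · rw [← Wr_lift k.ans_bd]
        exact Ty.var hW
    · have := Ty.app he ((ih a φ hX).1 (by
        revert h
        cases par π <;> exact id))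
      rwa [inst_closed (k.ans_bd b)] at this

theorem tr_iff {X Y : Tm S} (hX : Ty Q L.C [] X (sort L.o)) (hY : Ty Q L.C [] Y (sort L.o))
    (h : Conv X Y) : L.Tr X ↔ L.Tr Y :=
  ⟨L.tr_conv hX hY h, L.tr_conv hY hX h.symm'⟩

theorem duo_tr (hN : Nice Q) {u v : S} {π : List (Bool × S)} (hπ : PV Q (Rel Q K) u π v)
    {X a φ : Tm S} (hX : Ty Q L.C [] X (sort u)) (hφ : Ty Q L.C [X] φ (sort L.o))
    (ha : Ty Q L.C [] a X) :
    L.Tr ((duo k L π X a φ).2 (duo k L π X a φ).1) ↔ L.Tr (inst φ a) := by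
  have ty : ∀ {π v}, PV Q (Rel Q K) u π v →
      Ty Q L.C [] ((duo k L π X a φ).2 (duo k L π X a φ).1) (sort L.o) := fun {π v} hπ =>
    (duo_ty hN hπ a φ hX).2 (by cases par π <;> assumption) _
      ((duo_ty hN hπ a φ hX).1 (by cases par π <;> assumption))
  induction hπ with
  | nil => exact Iff.rfl
  | @cod π v c w hπ hr ih =>
    refine (tr_iff (ty (hπ.cod hr)) (ty hπ) ?_).trans ih
    refine (duo_conv k L π Conv.rfl Conv.rfl Conv.rfl).2 _ _ ?_
    have := (Step.beta (atT c) (lift (duo k L π X a φ).1) (dum c)).conv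
    rwa [lift_inst] at this
  | @dom π v b w hπ hr hb ih =>
    have hs := (k.spec b hb).1
    refine ((tr_iff (ty (hπ.dom hr hb)) (L.ofS_ty hs (L.toS_ty hs (ty hπ))) ?_).trans
      (L.ofS_toS hs (ty hπ))).trans ih
    refine L.ofS_conv _ (Conv.trans' (apps_conv _ ?_) (apps_lams _ _))
    have := (Step.beta (Wr k.ans π X) (inP k L b ((duo k L π (lift X) (lift a)
      (ren (upr Nat.succ) φ)).2 (var 0))) (duo k L π X a φ).1).conv
    rwa [inst, inP_subst, (duo_subst k L π _ _ _ _).2, lift_subst_scons, lift_subst_scons,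
      up_scons_ren, subst_id, subst_id] at this

end Levels

theorem absP_subst (π : List (Bool × S)) (X φ : Tm S) (σ : ℕ → Tm S) :
    subst σ (absP k L π X φ) = absP k L π (subst σ X) (subst (up σ) φ) := by
  exact (Levels.duo_subst k L π X junk φ σ).1

theorem memP_subst (π : List (Bool × S)) (X p a : Tm S) (σ : ℕ → Tm S) :
    subst σ (memP k L π X p a) = memP k L π (subst σ X) (subst σ p) (subst σ a) := by
  exact (Levels.duo_subst k L π X a junk σ).2 p

theorem injP_subst (π : List (Bool × S)) (X a : Tm S) (σ : ℕ → Tm S) :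
    subst σ (injP k L π X a) = injP k L π (subst σ X) (subst σ a) := by
  exact (Levels.duo_subst k L π X a junk σ).1

theorem extP_subst (π : List (Bool × S)) (X e φ : Tm S) (σ : ℕ → Tm S) :
    subst σ (extP k L π X e φ) = extP k L π (subst σ X) (subst σ e) (subst (up σ) φ) := by
  exact (Levels.duo_subst k L π X junk φ σ).2 e

theorem memP_conv (π : List (Bool × S)) {X X' p p' a a' : Tm S} (hX : Conv X X') (hp : Conv p p')
    (ha : Conv a a') : Conv (memP k L π X p a) (memP k L π X' p' a') := by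
  exact (Levels.duo_conv k L π hX ha Conv.rfl).2 _ _ hp


variable {k L} {u v : S} {π : List (Bool × S)} {Γ : List (Tm S)} {X : Tm S}

theorem absP_ty (hN : Nice Q) (hπ : PV Q (Rel Q K) u π v) (hp : par π = true)
    (hX : Ty Q L.C Γ X (sort u)) {φ : Tm S} (hφ : Ty Q L.C (X :: Γ) φ (sort L.o)) :
    Ty Q L.C Γ (absP k L π X φ) (Wr k.ans π X) := by
  exact (Levels.duo_ty hN hπ junk φ hX).1 (by rw [hp]; exact hφ)

theorem memP_ty (hN : Nice Q) (hπ : PV Q (Rel Q K) u π v) (hp : par π = true)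
    (hX : Ty Q L.C Γ X (sort u)) {p a : Tm S} (hq : Ty Q L.C Γ p (Wr k.ans π X))
    (ha : Ty Q L.C Γ a X) : Ty Q L.C Γ (memP k L π X p a) (sort L.o) := by
  exact (Levels.duo_ty hN hπ a junk hX).2 (by rw [hp]; exact ha) p hq

theorem injP_ty (hN : Nice Q) (hπ : PV Q (Rel Q K) u π v) (hp : par π = false)
    (hX : Ty Q L.C Γ X (sort u)) {a : Tm S} (ha : Ty Q L.C Γ a X) :
    Ty Q L.C Γ (injP k L π X a) (Wr k.ans π X) := by
  exact (Levels.duo_ty hN hπ a junk hX).1 (by rw [hp]; exact ha)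

theorem extP_ty (hN : Nice Q) (hπ : PV Q (Rel Q K) u π v) (hp : par π = false)
    (hX : Ty Q L.C Γ X (sort u)) {e φ : Tm S} (he : Ty Q L.C Γ e (Wr k.ans π X))
    (hφ : Ty Q L.C (X :: Γ) φ (sort L.o)) : Ty Q L.C Γ (extP k L π X e φ) (sort L.o) := by
  exact (Levels.duo_ty hN hπ junk φ hX).2 (by rw [hp]; exact hφ) e he

theorem memP_absP (hN : Nice Q) (hπ : PV Q (Rel Q K) u π v) (hp : par π = true)
    (hX : Ty Q L.C [] X (sort u)) {φ a : Tm S} (hφ : Ty Q L.C [X] φ (sort L.o))
    (ha : Ty Q L.C [] a X) : L.Tr (memP k L π X (absP k L π X φ) a) ↔ L.Tr (inst φ a) := by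
  rw [memP, absP, ((Levels.duo_indep k L π X a a junk φ).2 hp).2,
    ((Levels.duo_indep k L π X junk a φ φ).2 hp).1]
  exact Levels.duo_tr hN hπ hX hφ ha

theorem extP_injP (hN : Nice Q) (hπ : PV Q (Rel Q K) u π v) (hp : par π = false)
    (hX : Ty Q L.C [] X (sort u)) {φ a : Tm S} (hφ : Ty Q L.C [X] φ (sort L.o))
    (ha : Ty Q L.C [] a X) : L.Tr (extP k L π X (injP k L π X a) φ) ↔ L.Tr (inst φ a) := by
  rw [extP, injP, ((Levels.duo_indep k L π X a a junk φ).1 hp).1,
    ((Levels.duo_indep k L π X junk a φ φ).1 hp).2]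
  exact Levels.duo_tr hN hπ hX hφ ha


end Vale.Agent.P340
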