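import Vale.Agent.P340.Support
import Vale.Agent.P340.David

/-! P340: invariance of the interpretation under reduction and the polarized model. -/

namespace Vale.Agent.P340

universe u
open Tm
variable {S : Type u} {Q : Sys S} {Lo K : S → Prop}

namespace RichModel

open InterpAux

theorem upk_dead {Z : ℕ → Prop} {υ : ℕ → Val S} (hZ : ∀ y, Z y → υ y = triv) :
    ∀ y, Z y → upk υ y = fun _ => Cand.top := fun y hy => by
  unfold upk
  rw [hZ y hy, unpack_triv]

theorem dead_scons {α : Type*} {Z : ℕ → Prop} {ρ : ℕ → α} {c : α} (b : α)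
    (h : ∀ y, Z y → ρ y = c) : ∀ y, scons False Z y → scons b ρ y = c
  | 0, hy => hy.elim
  | y + 1, hy => h y hy

theorem tyC_step {σ : ℕ → Tm S} {T T' Y : Tm S} (h : TyC Q (subst σ T) Y) (hs : Step T T') :
    TyC Q (subst σ T') Y := h.red (Relation.ReflTransGen.single (hs.subst σ))

theorem valid_arg (hN : Nice Q) (hw : WellFounded (Prec Q K)) {a C D Y : Tm S} (ha : TyC Q a C)
    (hc : Conv Y (inst D a)) (b : Beh S) {st : Stk S} (hst : Valid Q K Y st) :
    Valid Q K (pi C D) ((nf a, pack Q K C b) :: st) := by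
  obtain ⟨T', -, hT'⟩ := id ha
  have hwn := hN.wn _ _ _ hT'
  exact (valid_cons hw Conv.rfl).2 ⟨hwn.normal_nf, ha.red hwn.red_nf, pack_mem hw _ _,
    hst.conv (hc.trans' (Conv.inst Conv.rfl hwn.red_nf.conv))⟩

/-- Packing the argument does not change the behaviour of a good body. -/
theorem sem_pack (hN : Nice Q) (hw : WellFounded (Prec Q K)) {σ θ : ℕ → Tm S} {Z : ℕ → Prop}
    {P N C Y : Tm S} (hP : Good Q Lo K (scons (subst σ N) σ) (scons C θ) (scons False Z) P Y)
    (hA : Good Q Lo K σ θ Z N C) (hC : Reach Q K C → DT Q K C) {υ : ℕ → Val S}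
    (hZ : ∀ y, Z y → υ y = triv) {st : Stk S} (hst : Valid Q K Y st) :
    sem Q Lo K P (scons (subst σ N) σ)
        (scons (unpack (pack Q K C (sem Q Lo K N σ (upk υ)))) (upk υ)) st =
      sem Q Lo K (inst P N) σ (upk υ) st := by
  rw [sem_inst]
  refine hP.junk hN hw (dead_scons _ (upk_dead hZ)) (dead_scons _ (upk_dead hZ))
    (fun y _ st hst => ?_) hst
  cases y with
  | zero => exact hA.rt hN hw (hC hst.reach) hZ hst
  | succ y => rfl

theorem conv_head {a a' : Tm S} (h : Conv a a') (σ : ℕ → Tm S) :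
    ∀ n, Conv (scons a σ n) (scons a' σ n)
  | 0 => h
  | _ + 1 => Conv.rfl

end RichModel

open RichModel InterpAux

theorem Good.step (hN : Nice Q) (hw : WellFounded (Prec Q K)) {σ θ : ℕ → Tm S}
    {Z : ℕ → Prop} {T T' Y : Tm S} (h : Good Q Lo K σ θ Z T Y) (hs : Step T T') :
    Good Q Lo K σ θ Z T' Y ∧ ∀ υ : ℕ → Val S, (∀ y, Z y → υ y = triv) →
      ∀ st, Valid Q K Y st → sem Q Lo K T σ (upk υ) st = sem Q Lo K T' σ (upk υ) st := by
  induction h generalizing T' with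
  | irr h h1 => exact ⟨Good.irr (tyC_step h hs) h1, fun _ _ _ hst => absurd hst.reach h1⟩
  | dead h h1 =>
    refine ⟨Good.dead (tyC_step h hs) (h1.step hs), fun υ hZ st _ => ?_⟩
    rw [h1.sem _ (upk_dead hZ), (h1.step hs).sem _ (upk_dead hZ)]
  | var _ _ _ => cases hs
  | @app σ θ Z M N C D Y hM hA hdt hc ihM ihN =>
    have ht := (Good.app hM hA hdt hc).tyC
    cases hs with
    | beta A P N =>
      by_cases hr : Reach Q K Y
      swap
      · exact ⟨Good.irr (tyC_step ht (Step.beta _ _ _)) hr, fun _ _ _ hst => absurd hst.reach hr⟩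
      have hr1 := hr.conv hc
      have hM' := hM.tyC
      cases hM with
      | irr _ h1 => exact absurd (Reach.pi Conv.rfl hA.tyC hr1) h1
      | dead _ h1 => cases h1
      | lam _ h1 h2 =>
        obtain ⟨e1, e2⟩ := conv_pi_inj h1
        have g1 := h2 _ (hA.tyC.conv e1)
        have hc' := hc.trans' (e2.inst Conv.rfl)
        refine ⟨(g1.inst (hA.conv e1)).conv hc'.symm', fun υ hZ st hst => ?_⟩
        obtain ⟨T', -, hT'⟩ := hA.tyC
        rw [← sem_pack hN hw g1 (hA.conv e1)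
          (fun h3 => ((hdt.pi Conv.rfl hA.tyC hr1).2 (h3.conv e1.symm')).conv e1) hZ
          (hst.conv hc')]
        simp only [sem]
        rw [pack_conv ((domOf_spec hN hM').trans' e1),
          sem_conv_env hw P (conv_head (hN.wn _ _ _ hT').red_nf.conv.symm' σ)]
    | appL _ h1 =>
      obtain ⟨g1, g2⟩ := ihM h1
      refine ⟨Good.app g1 hA hdt hc, fun υ hZ st hst => ?_⟩
      simp only [sem]
      rw [← domOf_conv (h1.subst σ).conv, pack_conv (domOf_spec hN hM.tyC)]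
      exact g2 υ hZ _ (valid_arg hN hw hA.tyC hc _ hst)
    | appR _ h1 =>
      obtain ⟨g1, g2⟩ := ihN h1
      refine ⟨Good.app hM g1 hdt (hc.trans' (Conv.inst Conv.rfl (h1.subst σ).conv)),
        fun υ hZ st hst => ?_⟩
      simp only [sem]
      rw [nf_conv (h1.subst σ).conv, pack_conv (domOf_spec hN hM.tyC), pack_ext (g2 υ hZ)]
  | lam ht h1 h2 ih =>
    cases hs with
    | lamL _ h3 => exact ⟨Good.lam (tyC_step ht (Step.lamL _ h3)) h1 h2, fun _ _ _ _ => rfl⟩
    | lamR _ h3 =>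
      refine ⟨Good.lam (tyC_step ht (Step.lamR _ h3)) h1 fun a ha => (ih a ha h3).1,
        fun υ hZ st hst => ?_⟩
      cases st with
      | nil => rfl
      | cons x st =>
        obtain ⟨a, v⟩ := x
        obtain ⟨-, h4, -, h5⟩ := (valid_cons hw h1).1 hst
        have := (ih a h4 h3).2 (scons v υ) (dead_scons _ hZ) st h5
        rwa [upk_scons] at this
  | @pi σ θ Z A B C Y s₁ s₂ ht h1 h2 gA h4 gB ihA ihB =>
    cases hs with
    | @piL _ A' _ h3 =>
      have e := (h3.subst σ).conv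
      refine ⟨Good.pi (tyC_step ht (Step.piL _ h3)) (e.symm'.trans' h1)
        (fun h5 => h2 (by rwa [hasS_eq e])) (fun h5 => (ihA (by rwa [hasS_eq e]) h3).1) h4 gB,
        fun υ hZ st _ => ?_⟩
      have e' : ∀ a, TyC Q a (Tm.subst σ A) = TyC Q a (Tm.subst σ A') := fun a =>
        propext ⟨fun h1 => h1.conv e, fun h1 => h1.conv e.symm'⟩
      simp only [sem]
      rw [cut_congr fun h5 => (ihA h5 h3).2 υ hZ [] (valid_nil.2 ⟨_, h2 h5, Conv.rfl⟩)]
      simp only [hasS_eq e, e', VV_conv hw e]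
    | piR _ h3 =>
      have e := fun a => (h3.subst (scons a σ)).conv
      refine ⟨Good.pi (tyC_step ht (Step.piR _ h3)) h1 h2 gA
        (fun a ha h5 => h4 a ha (by rwa [hasS_eq (e a)]))
        (fun a ha h5 => (ihB a ha (by rwa [hasS_eq (e a)]) h3).1), fun υ hZ st _ => ?_⟩
      simp only [sem]
      refine arr_congr fun a v hP => ?_
      rw [← hasS_eq (e a)]
      refine cut_congr fun h5 => ?_
      have := (ihB a (hP.1.conv h1) h5 h3).2 (scons v υ) (dead_scons _ hZ) []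
        (valid_nil.2 ⟨_, (h4 a (hP.1.conv h1) h5).1, Conv.rfl⟩)
      rwa [upk_scons] at this

namespace RichModel

theorem good_red (hN : Nice Q) (hw : WellFounded (Prec Q K)) {σ θ : ℕ → Tm S}
    {Z : ℕ → Prop} {T T' Y : Tm S} (h : Good Q Lo K σ θ Z T Y) (hs : Red T T') :
    Good Q Lo K σ θ Z T' Y ∧ ∀ υ : ℕ → Val S, (∀ y, Z y → υ y = triv) →
      ∀ st, Valid Q K Y st → sem Q Lo K T σ (upk υ) st = sem Q Lo K T' σ (upk υ) st := by
  induction hs with
  | refl => exact ⟨h, fun _ _ _ _ => rfl⟩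
  | tail _ h1 ih =>
    obtain ⟨g1, g2⟩ := ih.1.step hN hw h1
    exact ⟨g1, fun υ hZ st hst => (ih.2 υ hZ st hst).trans (g2 υ hZ st hst)⟩

theorem cut_top {c : Prop} (h : c) (X : Cand S) : Cand.cut c X = Cand.top := if_pos h
theorem cut_self {c : Prop} (h : ¬ c) (X : Cand S) : Cand.cut c X = X := if_neg h

/-- The key computation of the elimination step. -/
theorem elim_key (hN : Nice Q) (hL : Layer Q Lo K) (hw : WellFounded (Prec Q K))
    {Γ : List (Tm S)} {A B N T : Tm S} {s₁ s₂ s₃ : S} (hr : Q.rule s₁ s₂ s₃) (k2 : K s₂)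
    (k3 : K s₃) (hA : Ty Q allC Γ A (sort s₁)) (hB : Ty Q allC (A :: Γ) B (sort s₂))
    (nB : Normal B) (hNt : Ty Q allC Γ N A) (nN : Normal N) (hT : Red (inst B N) T)
    {σ : ℕ → Tm S} {υ : ℕ → Val S} (hσ : SubT Q allC [] σ Γ)
    (hυ : ∀ n A, Lk Γ n A → ¬ DT Q K (subst σ A) → υ n = triv) :
    sem Q Lo K B (scons (subst σ N) σ)
        (scons (unpack (pack Q K (subst σ A) (sem Q Lo K N σ (upk υ)))) (upk υ)) [] =
      sem Q Lo K T σ (upk υ) [] := by
  let Z : ℕ → Prop := fun n => ∃ A, Lk Γ n A ∧ ¬ DT Q K (subst σ A)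
  let θ : ℕ → Tm S := fun n => subst σ (Classical.epsilon fun A => Lk Γ n A)
  have hθ : ∀ n A, Lk Γ n A →
      Z n ∨ (Conv (θ n) (subst σ A) ∧ (Reach Q K (θ n) → DT Q K (θ n))) := by
    intro n A h
    have e : θ n = subst σ A :=
      congrArg (subst σ) ((Classical.epsilon_spec (p := fun A => Lk Γ n A) ⟨A, h⟩).unique h)
    by_cases hd : DT Q K (subst σ A)
    · rw [e]
      exact Or.inr ⟨Conv.rfl, fun _ => hd⟩
    · exact Or.inl ⟨A, h, hd⟩
  have hZ : ∀ y, Z y → υ y = triv := fun y ⟨A, h1, h2⟩ => hυ y A h1 h2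
  have hC : Reach Q K (subst σ A) → DT Q K (subst σ A) := fun h =>
    Or.inl (cls_base hr k2 k3 (HasS.of_ty (hA.subst hσ) rfl) h)
  have gN : Good Q Lo K σ θ Z N (subst σ A) := good_normal hL nN hNt hσ hθ fun _ _ _ => hC
  have gB : Good Q Lo K (scons (subst σ N) σ) (scons (subst σ A) θ) (scons False Z) B
      (sort s₂) :=
    good_normal hL nB hB (hσ.cons (hNt.subst hσ)) (theta_cons hθ hC) fun _ _ e => by
      subst e
      exact absurd hB not_ty_lam_sort
  have hv : Valid Q K (sort s₂) [] := valid_nil.2 ⟨_, k2, Conv.rfl⟩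
  rw [sem_pack hN hw gB gN hC hZ hv]
  exact (good_red hN hw (gB.inst gN) hT).2 υ hZ [] hv

end RichModel

theorem model_wf (hN : Nice Q) (hL : Layer Q Lo K) (hA : AppSN Q Lo)
    (hw : WellFounded (Prec Q K)) :
    Nonempty (Model.{u, u + 1} Q (fun s => Lo s ∨ K s)) := by
  refine ⟨
    { Env := (ℕ → Tm S) × (ℕ → Val S)
      sub := Prod.fst
      ok := fun Γ e => SubT Q allC [] e.1 Γ ∧
        ∀ n A, Lk Γ n A → ¬ DT Q K (subst e.1 A) → e.2 n = triv
      ext := fun A e N e' => ∃ v ∈ VV Q K (subst e.1 A), e' = (scons N e.1, scons v e.2)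
      I := fun _ T e => Cand.cut (HasS Q Lo [] (subst e.1 (nf T)))
        (sem Q Lo K (nf T) e.1 (upk e.2) [])
      ok_sub := fun h => h.1
      ok_nil := ⟨(var, fun _ => triv), SubT.id Wf.nil, fun _ _ _ _ => rfl⟩
      ext_ok := ?_
      ext_ex := fun _ _ _ => ⟨_, _, pack_mem hw _ fun _ => Cand.top, rfl⟩
      conv := ?_
      weak := ?_
      elim := ?_
      intro := ?_ }⟩
  · rintro Γ A s ⟨σ, υ⟩ N _ ho - h ⟨v, hv, rfl⟩
    refine ⟨⟨ho.1.cons h, fun n B hB hd => ?_⟩, rfl⟩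
    rcases lk_cons_inv hB with ⟨rfl, rfl⟩ | ⟨m, B', rfl, rfl, hB'⟩
    · rw [lift_subst_scons] at hd
      rwa [VV_dead hw fun h => hd h.2] at hv
    · rw [lift_subst_scons] at hd
      exact ho.2 m B' hB' hd
  · intro Γ T T' s s' e _ _ _ hc
    rw [nf_conv hc]
  · rintro Γ A s T s' ⟨σ, υ⟩ N _ ho h1 h2 h3 ⟨v, -, rfl⟩
    have e : nf (lift T) = lift (nf T) := nf_ren (hN.wn _ _ _ h2) _
    dsimp only
    rw [e, lift_subst_scons, upk_scons, sem_lift]
  · rintro Γ A B s ⟨σ, υ⟩ M N ⟨ho, hυ⟩ hpi hm hM hMI hNt hNI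
    dsimp only at ho hυ hM hMI hNI ⊢
    obtain ⟨s₁, s₂, -, h1, h2⟩ := gen_pi_sort hpi
    have hwp := hN.wn _ _ _ hpi
    have hwA := (wn_pi.1 hwp).1
    have hwB := (wn_pi.1 hwp).2
    have hwN := hN.wn _ _ _ hNt
    have hwI := hN.wn _ _ _ (h2.inst hNt)
    by_cases hc : HasS Q Lo [] (subst σ (pi A B))
    · obtain ⟨g1, g2⟩ := elim_low hL.lo hA hM hc (hNt.subst ho) ((Cand.cut _ _).2.sn _ hMI)
        ((Cand.cut _ _).2.sn _ hNI)
      rw [← inst_subst'] at g2
      rw [cut_top (g2.conv (Conv.subst hwI.red_nf.conv σ))]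
      exact g1
    · rw [← hasS_eq (Conv.subst hwp.red_nf.conv σ), cut_self hc, nf_pi hwp] at hMI
      obtain ⟨r₃, g3, g4⟩ := (hm.conv hwp.red_nf.conv).normal hwp.normal_nf
      have k3 := g3.resolve_left fun h =>
        hc ((HasS.of_ty (g4.subst ho) h).conv (Conv.subst hwp.red_nf.conv σ).symm')
      rw [nf_pi hwp] at g4
      obtain ⟨r₁, r₂, hr, f1, f2⟩ := gen_pi_sort g4
      have hN' := hNt.red_type hwA.red_nf
      have g6 := hMI.2 (subst σ N) (pack Q K (subst σ (nf A)) (sem Q Lo K (nf N) σ (upk υ)))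
        ⟨TyC.of_ty (hN'.subst ho), pack_mem hw _ _⟩ hNI
      have e : Conv (subst (scons (subst σ N) σ) (nf B)) (subst σ (nf (inst B N))) := by
        rw [← inst_subst]
        exact ((hwB.red_nf.conv.symm'.inst Conv.rfl).trans' hwI.red_nf.conv).subst σ
      rw [← hasS_eq e]
      refine (congrArg (fun c : Cand S => app M (subst σ N) ∈ c.1) (cut_congr fun h5 => ?_)).mp g6
      have k2 := (hL.k _ _ _ hr k3).2.resolve_left fun h =>
        h5 (HasS.of_ty (f2.subst (ho.cons (hN'.subst ho))) h)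
      rw [sem_conv_env hw (nf B) (conv_head (Conv.subst hwN.red_nf.conv σ) σ)]
      exact elim_key hN hL hw hr k2 k3 f1 f2 hwB.normal_nf (hN'.red hwN.red_nf) hwN.normal_nf
        (hwI.normal_nf.red_of_conv
          ((hwB.red_nf.conv.symm'.inst hwN.red_nf.conv.symm').trans' hwI.red_nf.conv)) ho hυ
  · rintro Γ A B s ⟨σ, υ⟩ M ⟨ho, -⟩ hpi hM h
    dsimp only at ho h ⊢
    obtain ⟨s₁, s₂, -, h1, h2⟩ := gen_pi_sort hpi
    have hwp := hN.wn _ _ _ hpi
    have e := Conv.subst (wn_pi.1 hwp).1.red_nf.conv σ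
    by_cases hc : HasS Q Lo [] (subst σ (nf (pi A B)))
    · rw [cut_top hc]; exact hM
    · rw [cut_self hc, nf_pi hwp]
      refine ⟨hM, fun a v ha haI => ?_⟩
      have g1 := h a _ ((ha.1.conv e.symm').ty (h1.subst ho)) haI
        ⟨v, by rw [VV_conv hw e]; exact ha.2, rfl⟩
      dsimp only at g1
      rwa [upk_scons] at g1

end Vale.Agent.P340
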