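import Mathlib

/-! Pure type systems: the definitions used in the statement of P340. -/

namespace Vale.Agent.P340

universe u

/-- A pure type specification over a set `S` of sorts: axioms and rules. -/
structure PTS (S : Type u) where
  ax : S → S → Prop
  rule : S → S → S → Prop

/-- Expressions modulo renaming of bound variables, as de Bruijn terms.
`lam A M` is `λx:A.M` and `pi A B` is `Πx:A.B`, where `x` is index `0` in `M` and in `B`. -/
inductive PTerm (S : Type u) : Type u
  | var : ℕ → PTerm S
  | sort : S → PTerm S
  | app : PTerm S → PTerm S → PTerm S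
  | lam : PTerm S → PTerm S → PTerm S
  | pi : PTerm S → PTerm S → PTerm S

namespace PTerm

variable {S : Type u}

/-- A renaming of indices pushed under one binder. -/
def liftRen (f : ℕ → ℕ) : ℕ → ℕ
  | 0 => 0
  | n + 1 => f n + 1

/-- Renaming of free indices. -/
def rename (f : ℕ → ℕ) : PTerm S → PTerm S
  | var n => var (f n)
  | sort s => sort s
  | app M N => app (rename f M) (rename f N)
  | lam A M => lam (rename f A) (rename (liftRen f) M)
  | pi A B => pi (rename f A) (rename (liftRen f) B)

/-- Weakening by one fresh variable: every free index goes up by one. -/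
def shift (M : PTerm S) : PTerm S := rename (fun n => n + 1) M

/-- A substitution pushed under one binder. -/
def liftSub (σ : ℕ → PTerm S) : ℕ → PTerm S
  | 0 => var 0
  | n + 1 => shift (σ n)

/-- Capture-avoiding simultaneous substitution for the free indices. -/
def subst (σ : ℕ → PTerm S) : PTerm S → PTerm S
  | var n => σ n
  | sort s => sort s
  | app M N => app (subst σ M) (subst σ N)
  | lam A M => lam (subst σ A) (subst (liftSub σ) M)
  | pi A B => pi (subst σ A) (subst (liftSub σ) B)

/-- The substitution sending index `0` to `N` and index `n + 1` to index `n`. -/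
def single (N : PTerm S) : ℕ → PTerm S
  | 0 => N
  | n + 1 => var n

/-- `M[x := N]`, where `x` is the index `0` bound by the binder that is removed. -/
def inst (M N : PTerm S) : PTerm S := subst (single N) M

/-- One step of beta reduction, in any subexpression, domains included. -/
inductive Beta : PTerm S → PTerm S → Prop
  | beta (A M N : PTerm S) : Beta (app (lam A M) N) (inst M N)
  | appL {M M' : PTerm S} (N : PTerm S) : Beta M M' → Beta (app M N) (app M' N)
  | appR (M : PTerm S) {N N' : PTerm S} : Beta N N' → Beta (app M N) (app M N')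
  | lamL {A A' : PTerm S} (M : PTerm S) : Beta A A' → Beta (lam A M) (lam A' M)
  | lamR (A : PTerm S) {M M' : PTerm S} : Beta M M' → Beta (lam A M) (lam A M')
  | piL {A A' : PTerm S} (B : PTerm S) : Beta A A' → Beta (pi A B) (pi A' B)
  | piR (A : PTerm S) {B B' : PTerm S} : Beta B B' → Beta (pi A B) (pi A B')

end PTerm

open PTerm

variable {S : Type u}

/-- The typing relation. A context is a list whose head is the most recently added variable. -/
inductive Typing (P : PTS S) : List (PTerm S) → PTerm S → PTerm S → Prop
  | ax {s₁ s₂ : S} : P.ax s₁ s₂ → Typing P [] (sort s₁) (sort s₂)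
  | var {Γ : List (PTerm S)} {A : PTerm S} {s : S} :
      Typing P Γ A (sort s) → Typing P (A :: Γ) (var 0) (shift A)
  | weak {Γ : List (PTerm S)} {M B A : PTerm S} {s : S} :
      Typing P Γ M B → Typing P Γ A (sort s) → Typing P (A :: Γ) (shift M) (shift B)
  | pi {Γ : List (PTerm S)} {A B : PTerm S} {s₁ s₂ s₃ : S} :
      Typing P Γ A (sort s₁) → Typing P (A :: Γ) B (sort s₂) → P.rule s₁ s₂ s₃ →
      Typing P Γ (pi A B) (sort s₃)
  | lam {Γ : List (PTerm S)} {A M B : PTerm S} {s : S} :
      Typing P (A :: Γ) M B → Typing P Γ (pi A B) (sort s) → Typing P Γ (lam A M) (pi A B)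
  | app {Γ : List (PTerm S)} {M N A B : PTerm S} :
      Typing P Γ M (pi A B) → Typing P Γ N A → Typing P Γ (app M N) (inst B N)
  | conv {Γ : List (PTerm S)} {M A B : PTerm S} {s : S} :
      Typing P Γ M A → Typing P Γ B (sort s) → Relation.EqvGen Beta A B → Typing P Γ M B

/-- An expression is legal if it is the subject or the type of a derivable judgment. -/
def Legal (P : PTS S) (M : PTerm S) : Prop :=
  ∃ (Γ : List (PTerm S)) (B : PTerm S), Typing P Γ M B ∨ Typing P Γ B M

/-- Every legal expression reduces to a beta normal form. -/
def WeaklyNormalizing (P : PTS S) : Prop :=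
  ∀ M, Legal P M → ∃ N, Relation.ReflTransGen Beta M N ∧ ∀ N', ¬ Beta N N'

/-- No legal expression starts an infinite beta reduction sequence. -/
def StronglyNormalizing (P : PTS S) : Prop :=
  ∀ M, Legal P M → ¬ ∃ f : ℕ → PTerm S, f 0 = M ∧ ∀ n, Beta (f n) (f (n + 1))

end Vale.Agent.P340
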