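import Vale.Agent.P340.Csub
import Vale.Agent.P340.Cand
import Vale.Agent.P340.Stmt

/-! P340: from the stated system to a finite internal system with constants. -/

namespace Vale.Agent.P340

universe u
variable {S : Type u}

def emb : PTerm S → Tm S
  | .var n => .var n
  | .sort s => .sort s
  | .app M N => .app (emb M) (emb N)
  | .lam A M => .lam (emb A) (emb M)
  | .pi A B => .pi (emb A) (emb B)

namespace Transfer

open Tm

/-- A left inverse of `emb`. -/
def er : Tm S → PTerm S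
  | .var n => .var n
  | .sort s => .sort s
  | .app M N => .app (er M) (er N)
  | .lam A M => .lam (er A) (er M)
  | .pi A B => .pi (er A) (er B)
  | .con _ _ => .var 0

theorem er_emb (M : PTerm S) : er (emb M) = M := by
  induction M <;> simp_all [er, emb]

theorem emb_inj : Function.Injective (emb : PTerm S → Tm S) :=
  Function.LeftInverse.injective er_emb

theorem liftRen_eq (f : ℕ → ℕ) : PTerm.liftRen f = upr f := by
  funext n; cases n <;> rfl

theorem emb_rename (f : ℕ → ℕ) (M : PTerm S) : emb (PTerm.rename f M) = ren f (emb M) := by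
  induction M generalizing f <;> simp_all [PTerm.rename, emb, liftRen_eq]

theorem emb_shift (M : PTerm S) : emb (PTerm.shift M) = lift (emb M) := emb_rename _ M

theorem emb_liftSub (σ : ℕ → PTerm S) :
    (fun n => emb (PTerm.liftSub σ n)) = up fun n => emb (σ n) := by
  funext n
  cases n with
  | zero => rfl
  | succ n => exact emb_shift _

theorem emb_subst (σ : ℕ → PTerm S) (M : PTerm S) :
    emb (PTerm.subst σ M) = subst (fun n => emb (σ n)) (emb M) := by
  induction M generalizing σ <;> simp_all [PTerm.subst, emb, emb_liftSub]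

theorem emb_inst (M N : PTerm S) : emb (PTerm.inst M N) = inst (emb M) (emb N) := by
  rw [PTerm.inst, emb_subst, inst]
  congr 1
  funext n; cases n <;> rfl

theorem step_emb {M N : PTerm S} (h : PTerm.Beta M N) : Step (emb M) (emb N) := by
  induction h with
  | beta A M N => rw [emb_inst]; exact Step.beta _ _ _
  | appL N _ ih => exact Step.appL _ ih
  | appR M _ ih => exact Step.appR _ ih
  | lamL M _ ih => exact Step.lamL _ ih
  | lamR A _ ih => exact Step.lamR _ ih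
  | piL M _ ih => exact Step.piL _ ih
  | piR A _ ih => exact Step.piR _ ih

theorem step_inv {M : PTerm S} {N : Tm S} (h : Step (emb M) N) :
    ∃ M', PTerm.Beta M M' ∧ N = emb M' := by
  induction M generalizing N with
  | var n => cases h
  | sort s => cases h
  | app M₁ M₂ ih₁ ih₂ =>
    rw [emb] at h
    generalize hM : emb M₁ = R at h
    cases h with
    | beta A P _ =>
      cases M₁ with
      | lam A' P' =>
        rw [emb] at hM
        cases hM
        exact ⟨_, PTerm.Beta.beta _ _ _, (emb_inst _ _).symm⟩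
      | _ => cases hM
    | appL _ h =>
      subst hM
      obtain ⟨M', h1, rfl⟩ := ih₁ h
      exact ⟨_, PTerm.Beta.appL _ h1, rfl⟩
    | appR _ h =>
      subst hM
      obtain ⟨M', h1, rfl⟩ := ih₂ h
      exact ⟨_, PTerm.Beta.appR _ h1, rfl⟩
  | lam M₁ M₂ ih₁ ih₂ =>
    rw [emb] at h
    cases h with
    | lamL _ h =>
      obtain ⟨M', h1, rfl⟩ := ih₁ h
      exact ⟨_, PTerm.Beta.lamL _ h1, rfl⟩
    | lamR _ h =>
      obtain ⟨M', h1, rfl⟩ := ih₂ h
      exact ⟨_, PTerm.Beta.lamR _ h1, rfl⟩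
  | pi M₁ M₂ ih₁ ih₂ =>
    rw [emb] at h
    cases h with
    | piL _ h =>
      obtain ⟨M', h1, rfl⟩ := ih₁ h
      exact ⟨_, PTerm.Beta.piL _ h1, rfl⟩
    | piR _ h =>
      obtain ⟨M', h1, rfl⟩ := ih₂ h
      exact ⟨_, PTerm.Beta.piR _ h1, rfl⟩

theorem red_inv {M : PTerm S} {N : Tm S} (h : Red (emb M) N) :
    ∃ M', Relation.EqvGen PTerm.Beta M M' ∧ N = emb M' := by
  induction h with
  | refl => exact ⟨M, Relation.EqvGen.refl _, rfl⟩
  | tail _ g ih =>
    obtain ⟨M', a, rfl⟩ := ih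
    obtain ⟨M'', b, rfl⟩ := step_inv g
    exact ⟨M'', Relation.EqvGen.trans _ _ _ a (Relation.EqvGen.rel _ _ b), rfl⟩

theorem conv_inv {M N : PTerm S} (h : Conv (emb M) (emb N)) : Relation.EqvGen PTerm.Beta M N := by
  obtain ⟨R, a, b⟩ := Conv.join h
  obtain ⟨M', a', rfl⟩ := red_inv a
  obtain ⟨N', b', e⟩ := red_inv b
  obtain rfl := emb_inj e
  exact Relation.EqvGen.trans _ _ _ a' (Relation.EqvGen.symm _ _ b')

theorem conv_emb {M N : PTerm S} (h : Relation.EqvGen PTerm.Beta M N) : Conv (emb M) (emb N) := by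
  induction h with
  | rel _ _ h => exact (step_emb h).conv
  | refl => exact Conv.rfl
  | symm _ _ _ ih => exact Conv.symm' ih
  | trans _ _ _ _ _ ih ih' => exact Conv.trans' ih ih'

/-- The stated system without constants. -/
def sys0 (P : PTS S) : Sys S := ⟨P.ax, P.rule, fun _ => False⟩

/-- No constants. -/
def noC : Tm S → Tm S → Prop := fun _ _ => False

variable {P : PTS S}

theorem ty_emb {Γ : List (PTerm S)} {M T : PTerm S} (h : Typing P Γ M T) :
    Ty (sys0 P) noC (Γ.map emb) (emb M) (emb T) := by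
  induction h with
  | ax h => exact Ty.ax h
  | var _ ih => rw [emb_shift]; exact Ty.var ih
  | weak _ _ ih ih' => rw [emb_shift, emb_shift]; exact Ty.weak ih ih'
  | pi _ _ h ih ih' => exact Ty.pi ih ih' h
  | lam _ _ ih ih' => exact Ty.lam ih ih'
  | app _ _ ih ih' => rw [emb_inst]; exact Ty.app ih ih'
  | conv _ _ h ih ih' => exact Ty.conv ih ih' (conv_emb h)

theorem ty_inv {Γ : List (Tm S)} {M T : Tm S} (h : Ty (sys0 P) noC Γ M T) :
    (∃ M', M = emb M') ∧ (∃ T', T = emb T') ∧ Typing P (Γ.map er) (er M) (er T) := by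
  induction h with
  | ax h => exact ⟨⟨.sort _, rfl⟩, ⟨.sort _, rfl⟩, Typing.ax h⟩
  | var _ ih =>
    obtain ⟨⟨A, rfl⟩, -, h⟩ := ih
    rw [← emb_shift, List.map_cons, er_emb, er_emb]
    rw [er_emb] at h
    exact ⟨⟨.var 0, rfl⟩, ⟨_, rfl⟩, Typing.var h⟩
  | weak _ _ ih ih' =>
    obtain ⟨⟨M, rfl⟩, ⟨B, rfl⟩, h⟩ := ih
    rw [← emb_shift, ← emb_shift, er_emb, er_emb]
    rw [er_emb, er_emb] at h
    exact ⟨⟨_, rfl⟩, ⟨_, rfl⟩, Typing.weak h ih'.2.2⟩
  | pi _ _ h ih ih' =>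
    obtain ⟨⟨A, rfl⟩, -, h1⟩ := ih
    obtain ⟨⟨B, rfl⟩, -, h2⟩ := ih'
    exact ⟨⟨.pi A B, rfl⟩, ⟨.sort _, rfl⟩, Typing.pi h1 h2 h⟩
  | lam _ _ ih ih' =>
    obtain ⟨⟨M, rfl⟩, -, h1⟩ := ih
    obtain ⟨⟨U, hU⟩, -, h2⟩ := ih'
    refine ⟨?_, ⟨U, hU⟩, Typing.lam h1 h2⟩
    cases U <;> cases hU
    exact ⟨.lam _ M, rfl⟩
  | app _ _ ih ih' =>
    obtain ⟨⟨M, rfl⟩, ⟨U, hU⟩, h1⟩ := ih
    obtain ⟨⟨N, rfl⟩, -, h2⟩ := ih'
    cases U <;> cases hU
    have h3 := Typing.app h1 h2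
    rw [← emb_inst]
    simp only [er_emb] at h3
    refine ⟨⟨.app M N, rfl⟩, ⟨_, rfl⟩, ?_⟩
    simpa only [er, er_emb] using h3
  | conv _ _ h ih ih' =>
    obtain ⟨h0, ⟨A, rfl⟩, h1⟩ := ih
    obtain ⟨⟨B, rfl⟩, -, h2⟩ := ih'
    exact ⟨h0, ⟨_, rfl⟩, Typing.conv h1 h2 (by rw [er_emb, er_emb]; exact conv_inv h)⟩
  | conT h _ _ => exact h.elim
  | conS h _ => exact h.elim

theorem wn0 (hP : WeaklyNormalizing P) {Γ : List (Tm S)} {M T : Tm S}
    (h : Ty (sys0 P) noC Γ M T) : WN M := by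
  obtain ⟨⟨M, rfl⟩, -, h⟩ := ty_inv h
  rw [er_emb] at h
  obtain ⟨N, h1, h2⟩ := hP M ⟨_, _, Or.inl h⟩
  refine ⟨emb N, ?_, fun R g => ?_⟩
  · clear h2
    induction h1 with
    | refl => exact Relation.ReflTransGen.refl
    | tail _ g ih => exact ih.tail (step_emb g)
  · obtain ⟨N', g', -⟩ := step_inv g
    exact h2 N' g'

/-- Realizable sorts. -/
def rz (P : PTS S) (s : S) : Prop := ∃ Γ M, Ty (sys0 P) noC Γ M (sort s)

/-- The system with a set `R` of rules. -/
def sysR (P : PTS S) (R : Set (S × S × S)) : Sys S := ⟨P.ax, fun a b c => (a, b, c) ∈ R, rz P⟩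

/-- Good sets of rules. -/
def GoodR (P : PTS S) (R : Set (S × S × S)) : Prop :=
  R.Finite ∧ ∀ a b c, (a, b, c) ∈ R → P.rule a b c ∧ rz P a ∧ rz P b

theorem GoodR.union {R R' : Set (S × S × S)} (h : GoodR P R) (h' : GoodR P R') :
    GoodR P (R ∪ R') :=
  ⟨h.1.union h'.1, fun a b c hx => hx.elim (h.2 a b c) (h'.2 a b c)⟩

theorem ty_monoR {R R' : Set (S × S × S)} (hR : R ⊆ R') {Γ : List (Tm S)} {M T : Tm S}
    (h : Ty (sysR P R) allC Γ M T) : Ty (sysR P R') allC Γ M T :=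
  Ty.mono (Q := sysR P R) (Q' := sysR P R') (h := h) (fun _ _ h => h) (fun _ _ _ h => hR h)
    (fun _ h => h) fun _ _ h => h

theorem exists_R {Γ : List (Tm S)} {M T : Tm S} (h : Ty (sys0 P) noC Γ M T) :
    ∃ R, GoodR P R ∧ Ty (sysR P R) allC Γ M T := by
  induction h with
  | ax h => exact ⟨∅, ⟨Set.finite_empty, fun _ _ _ h => h.elim⟩, Ty.ax h⟩
  | var _ ih => obtain ⟨R, h1, h2⟩ := ih; exact ⟨R, h1, Ty.var h2⟩
  | weak _ _ ih ih' =>
    obtain ⟨R, h1, h2⟩ := ih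
    obtain ⟨R', g1, g2⟩ := ih'
    exact ⟨_, h1.union g1, Ty.weak (ty_monoR Set.subset_union_left h2)
      (ty_monoR Set.subset_union_right g2)⟩
  | @pi Γ A B s₁ s₂ s₃ hA hB h ih ih' =>
    obtain ⟨R, h1, h2⟩ := ih
    obtain ⟨R', g1, g2⟩ := ih'
    have f : GoodR P {(s₁, s₂, s₃)} := ⟨Set.finite_singleton _, fun a b c hx => by
      cases hx
      exact ⟨h, ⟨_, _, hA⟩, ⟨_, _, hB⟩⟩⟩
    exact ⟨_, (h1.union g1).union f,
      Ty.pi (ty_monoR (Set.subset_union_left.trans Set.subset_union_left) h2)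
        (ty_monoR (Set.subset_union_right.trans Set.subset_union_left) g2) (Or.inr rfl)⟩
  | lam _ _ ih ih' =>
    obtain ⟨R, h1, h2⟩ := ih
    obtain ⟨R', g1, g2⟩ := ih'
    exact ⟨_, h1.union g1, Ty.lam (ty_monoR Set.subset_union_left h2)
      (ty_monoR Set.subset_union_right g2)⟩
  | app _ _ ih ih' =>
    obtain ⟨R, h1, h2⟩ := ih
    obtain ⟨R', g1, g2⟩ := ih'
    exact ⟨_, h1.union g1, Ty.app (ty_monoR Set.subset_union_left h2)
      (ty_monoR Set.subset_union_right g2)⟩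
  | conv _ _ h ih ih' =>
    obtain ⟨R, h1, h2⟩ := ih
    obtain ⟨R', g1, g2⟩ := ih'
    exact ⟨_, h1.union g1, Ty.conv (ty_monoR Set.subset_union_left h2)
      (ty_monoR Set.subset_union_right g2) h⟩
  | conT h _ _ => exact h.elim
  | conS h _ => exact h.elim

/-- Grounded lists of constants. -/
inductive Gr (Q : Sys S) : List (Tm S × Tm S) → Prop
  | nil : Gr Q []
  | conT {L : List (Tm S × Tm S)} {A : Tm S} {s : S} (t : Tm S) : Gr Q L →
      Ty Q (fun B r => (B, r) ∈ L) [] A (sort s) → Gr Q ((A, t) :: L)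
  | conS {L : List (Tm S × Tm S)} {s : S} (t : Tm S) : Gr Q L → Q.rz s → Gr Q ((sort s, t) :: L)

variable {Q : Sys S}

theorem Gr.append {L L' : List (Tm S × Tm S)} (h : Gr Q L) (h' : Gr Q L') : Gr Q (L ++ L') := by
  induction h with
  | nil => exact h'
  | conT t _ h ih => exact Gr.conT t ih (h.monoC fun _ _ => List.mem_append_left _)
  | conS t _ h ih => exact Gr.conS t ih h

theorem exists_gr {Γ : List (Tm S)} {M T : Tm S} (h : Ty Q allC Γ M T) :
    ∃ L, Gr Q L ∧ Ty Q (fun B r => (B, r) ∈ L) Γ M T := by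
  induction h with
  | ax h => exact ⟨[], Gr.nil, Ty.ax h⟩
  | var _ ih => obtain ⟨R, h1, h2⟩ := ih; exact ⟨R, h1, Ty.var h2⟩
  | weak _ _ ih ih' =>
    obtain ⟨R, h1, h2⟩ := ih
    obtain ⟨R', g1, g2⟩ := ih'
    exact ⟨_, h1.append g1, Ty.weak (h2.monoC fun _ _ => List.mem_append_left _)
      (g2.monoC fun _ _ => List.mem_append_right _)⟩
  | pi _ _ h ih ih' =>
    obtain ⟨R, h1, h2⟩ := ih
    obtain ⟨R', g1, g2⟩ := ih'
    exact ⟨_, h1.append g1, Ty.pi (h2.monoC fun _ _ => List.mem_append_left _)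
      (g2.monoC fun _ _ => List.mem_append_right _) h⟩
  | lam _ _ ih ih' =>
    obtain ⟨R, h1, h2⟩ := ih
    obtain ⟨R', g1, g2⟩ := ih'
    exact ⟨_, h1.append g1, Ty.lam (h2.monoC fun _ _ => List.mem_append_left _)
      (g2.monoC fun _ _ => List.mem_append_right _)⟩
  | app _ _ ih ih' =>
    obtain ⟨R, h1, h2⟩ := ih
    obtain ⟨R', g1, g2⟩ := ih'
    exact ⟨_, h1.append g1, Ty.app (h2.monoC fun _ _ => List.mem_append_left _)
      (g2.monoC fun _ _ => List.mem_append_right _)⟩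
  | conv _ _ h ih ih' =>
    obtain ⟨R, h1, h2⟩ := ih
    obtain ⟨R', g1, g2⟩ := ih'
    exact ⟨_, h1.append g1, Ty.conv (h2.monoC fun _ _ => List.mem_append_left _)
      (g2.monoC fun _ _ => List.mem_append_right _) h⟩
  | @conT A t s _ _ ih =>
    obtain ⟨R, h1, h2⟩ := ih
    exact ⟨_, Gr.conT t h1 h2,
      Ty.conT List.mem_cons_self (h2.monoC fun _ _ => List.mem_cons_of_mem _)⟩
  | @conS t s _ h => exact ⟨_, Gr.conS t Gr.nil h, Ty.conS List.mem_cons_self h⟩

theorem Gr.vis {L : List (Tm S × Tm S)} (h : Gr Q L) {A t : Tm S} (hA : (A, t) ∈ L) :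
    Vis (fun B r => (B, r) ∈ L) A ∧ Bd 0 A := by
  induction h with
  | nil => cases hA
  | conT r _ h ih =>
    rcases List.mem_cons.1 hA with e | hA
    · cases e
      exact ⟨h.vis.mono fun _ _ => List.mem_cons_of_mem _, h.closed⟩
    · exact ⟨(ih hA).1.mono fun _ _ => List.mem_cons_of_mem _, (ih hA).2⟩
  | conS r _ h ih =>
    rcases List.mem_cons.1 hA with e | hA
    · cases e
      exact ⟨trivial, trivial⟩
    · exact ⟨(ih hA).1.mono fun _ _ => List.mem_cons_of_mem _, (ih hA).2⟩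

theorem csub_shift (f : Tm S → Tm S → Tm S) (j : ℕ) {B : Tm S} {k : ℕ} {g : ℕ → ℕ} (hB : Bd k B)
    (h : ∀ n, n < k → g n = n) (h' : ∀ n, g (n + k) = n + j + k) :
    csub (fun A t => ren (fun n => n + j) (f A t)) k B = ren g (csub f k B) := by
  have hup : ∀ {k : ℕ} {g : ℕ → ℕ}, (∀ n, n < k → g n = n) → ∀ n, n < k + 1 → upr g n = n := by
    intro k g h n hn
    cases n with
    | zero => rfl
    | succ n => rw [upr_succ, h n (by omega)]
  have hup' : ∀ {k : ℕ} {g : ℕ → ℕ}, (∀ n, g (n + k) = n + j + k) →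
      ∀ n, upr g (n + (k + 1)) = n + j + (k + 1) := fun h n => congrArg (· + 1) (h n)
  induction B generalizing k g with
  | var n => exact congrArg var (h n hB).symm
  | sort s => rfl
  | con A t => simp only [csub, ren_ren, h']
  | app M N ih ih' => simp only [ren_app, csub, ih hB.1 h h', ih' hB.2 h h']
  | lam M N ih ih' => simp only [ren_lam, csub, ih hB.1 h h', ih' hB.2 (hup h) (hup' h')]
  | pi M N ih ih' => simp only [ren_pi, csub, ih hB.1 h h', ih' hB.2 (hup h) (hup' h')]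

theorem weak_many {C : Tm S → Tm S → Prop} {Δ Θ : List (Tm S)} {M T : Tm S} (h : Ty Q C Δ M T)
    (hΘ : Wf Q C (Θ ++ Δ)) :
    Ty Q C (Θ ++ Δ) (ren (fun n => n + Θ.length) M) (ren (fun n => n + Θ.length) T) := by
  induction Θ with
  | nil => rwa [List.length_nil, Csub.ren_zero, Csub.ren_zero]
  | cons A Θ ih =>
    have := (ih hΘ.tail).weak' hΘ
    rwa [lift, lift, ren_ren, ren_ren] at this

/-- Realization of a list of constants. -/
def Real (P : PTS S) (L : List (Tm S × Tm S)) (Δ : List (Tm S)) (f : Tm S → Tm S → Tm S) : Prop :=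
  Wf (sys0 P) noC Δ ∧ (∀ A t, Normal (f A t) ∧ Neut (f A t)) ∧
    ∀ A t, (A, t) ∈ L → Ty (sys0 P) noC Δ (f A t) (csub f 0 A)

theorem Real.ext {L : List (Tm S × Tm S)} {Δ Θ : List (Tm S)} {f : Tm S → Tm S → Tm S}
    (h : Real P L Δ f) (hL : ∀ A t, (A, t) ∈ L → Vis (fun B r => (B, r) ∈ L) A ∧ Bd 0 A)
    {A t N : Tm S} (hA : Vis (fun B r => (B, r) ∈ L) A ∧ Bd 0 A) (hN : Normal N ∧ Neut N)
    (hT : Ty (sys0 P) noC (Θ ++ Δ) N (ren (fun n => n + Θ.length) (csub f 0 A))) :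
    ∃ Δ' f', Real P ((A, t) :: L) Δ' f' := by
  classical
  by_cases hm : (A, t) ∈ L
  · exact ⟨Δ, f, h.1, h.2.1, fun B r hB => h.2.2 B r ((List.mem_cons.1 hB).elim (· ▸ hm) id)⟩
  have key : ∀ B, Vis (fun B r => (B, r) ∈ L) B ∧ Bd 0 B →
      csub (fun B r => if (B, r) = (A, t) then N else ren (fun n => n + Θ.length) (f B r)) 0 B =
        ren (fun n => n + Θ.length) (csub f 0 B) := by
    intro B hB
    rw [← csub_shift f Θ.length hB.2 (fun n hn => absurd hn (Nat.not_lt_zero n)) fun _ => rfl]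
    exact csub_congr (hB.1.mono fun _ _ h => if_neg (ne_of_mem_of_not_mem h hm)) 0
  refine ⟨Θ ++ Δ, fun B r => if (B, r) = (A, t) then N else ren (fun n => n + Θ.length) (f B r),
    hT.wf, fun B r => ?_, fun B r hB => ?_⟩
  · beta_reduce
    split_ifs
    · exact hN
    · exact ⟨normal_ren.2 (h.2.1 B r).1, Csub.neut_ren (h.2.1 B r).2 _⟩
  · beta_reduce
    rcases List.mem_cons.1 hB with e | hB
    · cases e
      rwa [if_pos rfl, key _ hA]
    · rw [if_neg (ne_of_mem_of_not_mem hB hm), key _ (hL B r hB)]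
      exact weak_many (h.2.2 B r hB) hT.wf

theorem Real.ty {R : Set (S × S × S)} (hR : GoodR P R) {L : List (Tm S × Tm S)} {Δ : List (Tm S)}
    {f : Tm S → Tm S → Tm S} (h : Real P L Δ f) {Γ : List (Tm S)} {M T : Tm S}
    (hM : Ty (sysR P R) (fun B r => (B, r) ∈ L) Γ M T) :
    Ty (sys0 P) noC (csubCtx f Γ ++ Δ) (csub f Γ.length M) (csub f Γ.length T) :=
  Ty.csub (Q := sysR P R) (Q' := sys0 P) (fun _ _ h => h) (fun a b c h => (hR.2 a b c h).1) h.1
    (fun A t hA _ => h.2.2 A t hA) hM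

theorem exists_real (hP : WeaklyNormalizing P) {R : Set (S × S × S)} (hR : GoodR P R)
    {L : List (Tm S × Tm S)} (h : Gr (sysR P R) L) : ∃ Δ f, Real P L Δ f := by
  induction h with
  | nil => exact ⟨[], fun _ _ => var 0, Wf.nil, fun _ _ => ⟨normal_var 0, Neut.var 0⟩,
      fun _ _ h => by cases h⟩
  | @conT L A s t hL hA ih =>
    obtain ⟨Δ, f, h⟩ := ih
    exact h.ext (Θ := [csub f 0 A]) (fun _ _ => hL.vis) ⟨hA.vis, hA.closed⟩
      ⟨normal_var 0, Neut.var 0⟩ (Ty.var (h.ty hR hA))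
  | @conS L s t hL hs ih =>
    obtain ⟨Δ, f, h⟩ := ih
    obtain ⟨Γ, M, hM⟩ := hs
    obtain ⟨N, h1, h2⟩ := wn0 hP hM
    have h3 := hM.red h1
    refine h.ext (Θ := Γ) (fun _ _ => hL.vis) ⟨trivial, trivial⟩ ⟨h2, ?_⟩ (h3.append h.1)
    rcases h2.cases_sort h3 with ⟨t, rfl⟩ | ⟨A, B, rfl⟩ | ⟨y, g⟩ | g
    · exact Neut.sort _
    · exact Neut.pi _ _
    · exact g.neut
    · exact g.neut

end Transfer

open Transfer

theorem exists_nice {P : PTS S} (hP : WeaklyNormalizing P) {Γ : List (PTerm S)} {M T : PTerm S}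
    (h : Typing P Γ M T) : ∃ Q : Sys S, Nice Q ∧ Ty Q allC (Γ.map emb) (emb M) (emb T) := by
  obtain ⟨R, hR, hT⟩ := exists_R (ty_emb h)
  refine ⟨sysR P R, ⟨fun Γ M T hM => ?_, fun a b c h => (hR.2 a b c h).2, hR.1⟩, hT⟩
  obtain ⟨L, hL, hM⟩ := exists_gr hM
  obtain ⟨Δ, f, hf⟩ := exists_real hP hR hL
  exact wn_of_csub hf.2.1 (wn0 hP (hf.ty hR hM))

theorem no_seq_of_sn {M : PTerm S} (h : SN (emb M)) :
    ¬ ∃ f : ℕ → PTerm S, f 0 = M ∧ ∀ n, PTerm.Beta (f n) (f (n + 1)) := by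
  generalize hX : emb M = X at h
  induction h generalizing M with
  | intro X _ ih =>
    rintro ⟨f, rfl, hf⟩
    exact ih _ (hX ▸ step_emb (hf 0)) rfl ⟨fun n => f (n + 1), rfl, fun n => hf (n + 1)⟩

end Vale.Agent.P340
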