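import Vale.Agent.P340.David
import Vale.Agent.P340.Graph

/-! P340: the model for a layer that is not rich. -/

namespace Vale.Agent.P340

universe u
open Tm
variable {S : Type u}

namespace Unary

/-- Inclusion of candidates with a direction. -/
def Le : Bool → Cand S → Cand S → Prop
  | true, X, Y => X.1 ⊆ Y.1
  | false, X, Y => Y.1 ⊆ X.1

theorem Le.refl (p : Bool) (X : Cand S) : Le p X X := by
  cases p <;> exact fun _ h => h

theorem cut_pos {c : Prop} (h : c) (X : Cand S) : Cand.cut c X = Cand.top := if_pos h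
theorem cut_neg {c : Prop} (h : ¬ c) (X : Cand S) : Cand.cut c X = X := if_neg h

theorem le_cut {p : Bool} {c c' : Prop} {X Y : Cand S} (h : c ↔ c') (h' : ¬ c → Le p X Y) :
    Le p (Cand.cut c X) (Cand.cut c' Y) := by
  by_cases hc : c
  · rw [cut_pos hc, cut_pos (h.1 hc)]; exact Le.refl _ _
  · rw [cut_neg hc, cut_neg (mt h.2 hc)]; exact h' hc

theorem le_arr {ι : Type u} {p : Bool} {A A' : Cand S} {P P' : Tm S → ι → Prop}
    {B B' : Tm S → ι → Cand S} (hA : Le (!p) A A') (hP : ∀ a i, P a i ↔ P' a i)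
    (hB : ∀ a i, P a i → Le p (B a i) (B' a i)) : Le p (Cand.arr A P B) (Cand.arr A' P' B') := by
  cases p
  · exact fun M h => ⟨h.1, fun a i h1 h2 => hB a i h1 (h.2 a i ((hP a i).1 h1) (hA h2))⟩
  · exact fun M h => ⟨h.1, fun a i h1 h2 =>
      hB a i ((hP a i).2 h1) (h.2 a i ((hP a i).2 h1) (hA h2))⟩

variable (Q : Sys S) (Lo : S → Prop)

open Classical in
/-- Interpretation of normal types, before cutting at low types. -/
noncomputable def J : Tm S → List (Tm S) → (ℕ → Tm S) → (ℕ → S → Prop) → Cand S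
  | pi A B, Δ, σ, ε => Cand.arr (Cand.cut (HasS Q Lo [] (subst σ A)) (J A Δ σ ε))
      (fun a (_ : S → Prop) => TyC Q a (subst σ A))
      (fun a ε₀ => Cand.cut (HasS Q Lo [] (subst (scons a σ) B))
        (J B (A :: Δ) (scons a σ) (scons ε₀ ε)))
  | U, Δ, _, ε =>
      if ∃ y, VarHd y U ∧ ¬ ∃ s, Ty Q allC Δ U (sort s) ∧ ε y s then Cand.bot else Cand.top

/-- Interpretation of normal types. -/
noncomputable def Jo (U : Tm S) (Δ : List (Tm S)) (σ : ℕ → Tm S) (ε : ℕ → S → Prop) : Cand S :=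
  Cand.cut (HasS Q Lo [] (subst σ U)) (J Q Lo U Δ σ ε)

/-- Description of the leaves of a normal type. -/
inductive Leaf : List (Tm S) → Tm S → (ℕ → S → Bool → Prop) → Bool → Prop
  | low {Δ U P p} : HasS Q Lo Δ U → Leaf Δ U P p
  | pi {Δ A B P p} : Leaf Δ A P (!p) → Leaf (A :: Δ) B (scons (fun _ _ => True) P) p →
      Leaf Δ (pi A B) P p
  | hd {Δ U P p y} : VarHd y U → (∀ s, Ty Q allC Δ U (sort s) → P y s p) → Leaf Δ U P p
  | sort {Δ P p} (s : S) : Leaf Δ (sort s) P p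
  | con {Δ U P p} : ConHd U → Leaf Δ U P p

variable {Q Lo}

theorem J_pi (A B : Tm S) (Δ : List (Tm S)) (σ : ℕ → Tm S) (ε : ℕ → S → Prop) :
    J Q Lo (pi A B) Δ σ ε = Cand.arr (Jo Q Lo A Δ σ ε)
      (fun a (_ : S → Prop) => TyC Q a (subst σ A))
      (fun a ε₀ => Jo Q Lo B (A :: Δ) (scons a σ) (scons ε₀ ε)) := by
  rw [J]; rfl

open Classical in
theorem J_ne {U : Tm S} (h : ∀ A B, U ≠ pi A B) (Δ : List (Tm S)) (σ : ℕ → Tm S)
    (ε : ℕ → S → Prop) : J Q Lo U Δ σ ε =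
      if ∃ y, VarHd y U ∧ ¬ ∃ s, Ty Q allC Δ U (sort s) ∧ ε y s then Cand.bot else Cand.top := by
  cases U with
  | pi A B => exact absurd rfl (h A B)
  | _ => rw [J]; exact fun _ _ h => by cases h

theorem J_hd_top {U : Tm S} {y : ℕ} {s : S} {Δ : List (Tm S)} (σ : ℕ → Tm S)
    {ε : ℕ → S → Prop} (h : VarHd y U) (hs : Ty Q allC Δ U (sort s)) (he : ε y s) :
    J Q Lo U Δ σ ε = Cand.top := by
  rw [J_ne (by rintro A B rfl; cases h), if_neg]
  rintro ⟨z, hz, hn⟩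
  exact hn ⟨s, hs, h.unique hz ▸ he⟩

theorem J_hd_bot {U : Tm S} {y : ℕ} {s : S} {Δ : List (Tm S)} (σ : ℕ → Tm S)
    {ε : ℕ → S → Prop} (h : VarHd y U) (hs : Ty Q allC Δ U (sort s)) (he : ¬ ε y s) :
    J Q Lo U Δ σ ε = Cand.bot := by
  rw [J_ne (by rintro A B rfl; cases h), if_pos]
  refine ⟨y, h, ?_⟩
  rintro ⟨t, ht, he'⟩
  exact he (conv_sort_inj (h.ty_unique hs ht) ▸ he')

theorem J_sort (s : S) (Δ : List (Tm S)) (σ : ℕ → Tm S) (ε : ℕ → S → Prop) :
    J Q Lo (sort s) Δ σ ε = Cand.top := by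
  rw [J_ne (by rintro A B h; cases h), if_neg]
  rintro ⟨z, hz, -⟩
  cases hz

theorem conHd_not_varHd {U : Tm S} {y : ℕ} (h : ConHd U) : ¬ VarHd y U := by
  induction h with
  | con A t => intro h; cases h
  | app N _ ih =>
    intro h
    cases h with
    | app _ h => exact ih h

theorem J_con {U : Tm S} (h : ConHd U) (Δ : List (Tm S)) (σ : ℕ → Tm S) (ε : ℕ → S → Prop) :
    J Q Lo U Δ σ ε = Cand.top := by
  rw [J_ne (by rintro A B rfl; cases h), if_neg]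
  rintro ⟨z, hz, -⟩
  exact conHd_not_varHd h hz

theorem Leaf.mono {Δ : List (Tm S)} {U : Tm S} {P : ℕ → S → Bool → Prop} {p : Bool}
    (h : Leaf Q Lo Δ U P p) {P' : ℕ → S → Bool → Prop} (hP : ∀ y s q, P y s q → P' y s q) :
    Leaf Q Lo Δ U P' p := by
  induction h generalizing P' with
  | low h => exact Leaf.low h
  | pi _ _ ih ih' =>
    refine Leaf.pi (ih hP) (ih' fun y s q h => ?_)
    cases y with
    | zero => trivial
    | succ y => exact hP y s q h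
  | hd h h' => exact Leaf.hd h fun s hs => hP _ _ _ (h' s hs)
  | sort s => exact Leaf.sort s
  | con h => exact Leaf.con h

theorem Leaf.up {Δ : List (Tm S)} {U : Tm S} {P : S → Bool → Prop} {p : Bool}
    (h : Leaf Q Lo Δ U (fun _ => P) p) :
    Leaf Q Lo Δ U (scons (fun _ _ => True) fun _ => P) p :=
  h.mono fun y s q h => by
    cases y with
    | zero => trivial
    | succ y => exact h

theorem leaf_all {U : Tm S} : ∀ {Δ : List (Tm S)} {s : S} (p : Bool), Normal U →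
    Ty Q allC Δ U (sort s) → Leaf Q Lo Δ U (fun _ _ _ => True) p := by
  induction U with
  | pi A B ih ih' =>
    intro Δ s p hU h
    obtain ⟨s₁, s₂, -, hA, hB⟩ := gen_pi_sort h
    exact Leaf.pi (ih _ (normal_pi.1 hU).1 hA) (ih' _ (normal_pi.1 hU).2 hB).up
  | _ =>
    intro Δ s p hU h
    rcases hU.cases_sort h with ⟨t, h1⟩ | ⟨A, B, h1⟩ | ⟨y, h1⟩ | h1
    · exact h1 ▸ Leaf.sort t
    · cases h1
    · exact Leaf.hd h1 fun _ _ => trivial
    · exact Leaf.con h1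

theorem leaf_col {K : S → Prop} (hL : Layer Q Lo K) (col : S → Bool)
    (hc : ∀ a b c, Q.rule a b c → K c → (K a → col a = !col c) ∧ (K b → col b = col c))
    (b : Bool) {U : Tm S} : ∀ {Δ : List (Tm S)} {s : S} (p : Bool), Normal U →
    Ty Q allC Δ U (sort s) → Lo s ∨ (K s ∧ p = xor (col s) b) →
    Leaf Q Lo Δ U (fun _ s q => q = xor (col s) b) p := by
  induction U with
  | pi A B ih ih' =>
    rintro Δ s p hU h (hs | ⟨hs, rfl⟩)
    · exact Leaf.low (HasS.of_ty h hs)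
    obtain ⟨s₁, s₂, hr, hA, hB⟩ := gen_pi_sort h
    refine Leaf.pi (ih _ (normal_pi.1 hU).1 hA ((hL.k _ _ _ hr hs).1.imp_right fun h1 => ⟨h1, ?_⟩))
      (ih' _ (normal_pi.1 hU).2 hB ((hL.k _ _ _ hr hs).2.imp_right fun h1 => ⟨h1, ?_⟩)).up
    · rw [(hc _ _ _ hr hs).1 h1]; simp
    · rw [(hc _ _ _ hr hs).2 h1]
  | _ =>
    rintro Δ s p hU h (hs | ⟨hs, rfl⟩)
    · exact Leaf.low (HasS.of_ty h hs)
    rcases hU.cases_sort h with ⟨t, h1⟩ | ⟨A, B, h1⟩ | ⟨y, h1⟩ | h1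
    · exact h1 ▸ Leaf.sort t
    · cases h1
    · exact Leaf.hd h1 fun t ht => by rw [conv_sort_inj (h1.ty_unique h ht)]
    · exact Leaf.con h1

theorem leaf_norule {K : S → Prop} (hL : Layer Q Lo K)
    (hc : ∀ a b c, Q.rule a b c → K a → K b → K c → False) {U : Tm S} :
    ∀ {Δ : List (Tm S)} {s : S} (p : Bool), Normal U →
    Ty Q allC Δ U (sort s) → Lo s ∨ K s → ∃ q₀, Leaf Q Lo Δ U (fun _ _ q => q = q₀) p := by
  induction U with
  | pi A B ih ih' =>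
    rintro Δ s p hU h (hs | hs)
    · exact ⟨p, Leaf.low (HasS.of_ty h hs)⟩
    obtain ⟨s₁, s₂, hr, hA, hB⟩ := gen_pi_sort h
    rcases (hL.k _ _ _ hr hs).1 with h1 | h1
    · obtain ⟨q, hq⟩ := ih' p (normal_pi.1 hU).2 hB (hL.k _ _ _ hr hs).2
      exact ⟨q, Leaf.pi (Leaf.low (HasS.of_ty hA h1)) hq.up⟩
    · obtain ⟨q, hq⟩ := ih (!p) (normal_pi.1 hU).1 hA (Or.inr h1)
      exact ⟨q, Leaf.pi hq (Leaf.low (HasS.of_ty hB
        ((hL.k _ _ _ hr hs).2.resolve_right fun h2 => hc _ _ _ hr h1 h2 hs)))⟩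
  | _ =>
    rintro Δ s p hU h -
    refine ⟨p, ?_⟩
    rcases hU.cases_sort h with ⟨t, h1⟩ | ⟨A, B, h1⟩ | ⟨y, h1⟩ | h1
    · exact h1 ▸ Leaf.sort t
    · cases h1
    · exact Leaf.hd h1 fun _ _ => rfl
    · exact Leaf.con h1

theorem leaf_pol {K : S → Prop} (hL : Layer Q Lo K) (hK : NonRich Q K) {U : Tm S}
    {Δ : List (Tm S)} {s : S} (hU : Normal U) (h : Ty Q allC Δ U (sort s)) (hs : Lo s ∨ K s) :
    ∃ pol : S → Bool, Leaf Q Lo Δ U (fun _ s q => q = pol s) true := by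
  rcases hK with hK | ⟨col, hK⟩
  · obtain ⟨q, hq⟩ := leaf_norule hL hK true hU h hs
    exact ⟨fun _ => q, hq⟩
  · exact ⟨_, leaf_col hL col hK (!col s) true hU h (hs.imp_right fun h => ⟨h, by simp⟩)⟩

theorem mono (hN : Nice Q) {Δ : List (Tm S)} {U : Tm S} {P : ℕ → S → Bool → Prop} {p : Bool}
    (hl : Leaf Q Lo Δ U P p) : ∀ {Γ : List (Tm S)} {τ σ ρ : ℕ → Tm S} {ε ε' : ℕ → S → Prop}
      {s : S}, Normal U → Ty Q allC Δ U (sort s) → SubT Q allC Γ τ Δ → SubT Q allC [] σ Γ →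
      (fun n => subst σ (τ n)) = ρ →
      (∀ y s q, P y s q → (∃ y', τ y = var y' ∧ (ε' y s ↔ ε y' s)) ∨ (ε' y s ↔ q = false)) →
      Le p (Jo Q Lo U Δ ρ ε') (Jo Q Lo (nf (subst τ U)) Γ σ ε) := by
  have key : ∀ {Δ Γ : List (Tm S)} {U : Tm S} {τ : ℕ → Tm S} {s : S} (σ : ℕ → Tm S),
      Ty Q allC Δ U (sort s) → SubT Q allC Γ τ Δ →
      Conv (subst (fun n => subst σ (τ n)) U) (subst σ (nf (subst τ U))) := by
    intro Δ Γ U τ s σ h hτ
    rw [← subst_subst]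
    exact Conv.subst (Red.conv (hN.wn _ _ _ (h.subst hτ)).red_nf) σ
  have key2 : ∀ {Δ Γ : List (Tm S)} {U : Tm S} {τ : ℕ → Tm S} {s : S} (σ : ℕ → Tm S),
      Ty Q allC Δ U (sort s) → SubT Q allC Γ τ Δ →
      (HasS Q Lo [] (subst (fun n => subst σ (τ n)) U) ↔
        HasS Q Lo [] (subst σ (nf (subst τ U)))) := fun σ h hτ =>
    ⟨fun g => g.conv (key σ h hτ), fun g => g.conv (Conv.symm' (key σ h hτ))⟩
  induction hl with
  | low h =>
    rintro Γ τ σ _ ε ε' s hU hT hτ hσ rfl hP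
    exact le_cut (key2 σ hT hτ) fun hc => absurd (h.subst (hτ.comp hσ)) hc
  | @pi Δ A B P p _ _ ih ih' =>
    rintro Γ τ σ _ ε ε' s hU hT hτ hσ rfl hP
    refine le_cut (key2 σ hT hτ) fun _ => ?_
    obtain ⟨s₁, s₂, -, hA, hB⟩ := gen_pi_sort hT
    have hw := hN.wn _ _ _ (hT.subst hτ)
    rw [subst_pi] at hw ⊢
    rw [nf_pi hw, J_pi, J_pi]
    have hr := (wn_pi.1 hw).1.red_nf
    have hA' : Ty Q allC Γ (nf (subst τ A)) (sort s₁) := (hA.subst hτ).red hr
    refine le_arr (ih (normal_pi.1 hU).1 hA hτ hσ rfl hP)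
      (fun a _ => ⟨fun g => g.conv (key σ hA hτ), fun g => g.conv (Conv.symm' (key σ hA hτ))⟩)
      fun a ε₀ ha => ?_
    refine ih' (normal_pi.1 hU).2 hB (hτ.up hA hA' (Conv.symm' (Red.conv hr)))
      (hσ.cons ((ha.conv (key σ hA hτ)).ty (hA'.subst hσ))) ?_ fun y t q h => ?_
    · funext n
      cases n with
      | zero => rfl
      | succ n => simp
    · cases y with
      | zero => exact Or.inl ⟨0, rfl, Iff.rfl⟩
      | succ y =>
        refine (hP y t q h).imp_left ?_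
        rintro ⟨y', h1, h2⟩
        exact ⟨y' + 1, by simp [h1], h2⟩
  | @hd Δ U P p y h h' =>
    rintro Γ τ σ _ ε ε' s hU hT hτ hσ rfl hP
    refine le_cut (key2 σ hT hτ) fun _ => ?_
    have hw := hN.wn _ _ _ (hT.subst hτ)
    rcases hP y s p (h' s hT) with ⟨y', h1, h2⟩ | h1
    · have g1 := (h.subst_var h1).nf hw
      have g2 : Ty Q allC Γ (nf (subst τ U)) (sort s) := (hT.subst hτ).red hw.red_nf
      by_cases he : ε' y s
      · rw [J_hd_top _ h hT he, J_hd_top _ g1 g2 (h2.1 he)]; exact Le.refl _ _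
      · rw [J_hd_bot _ h hT he, J_hd_bot _ g1 g2 (mt h2.2 he)]; exact Le.refl _ _
    · cases p
      · rw [J_hd_top _ h hT (h1.2 rfl)]; exact Cand.le_top _
      · rw [J_hd_bot _ h hT fun he => by simpa using h1.1 he]; exact Cand.bot_le _
  | sort t =>
    rintro Γ τ σ _ ε ε' s hU hT hτ hσ rfl hP
    refine le_cut (key2 σ hT hτ) fun _ => ?_
    rw [subst_sort, (normal_sort t).nf_eq, J_sort, J_sort]
    exact Le.refl _ _
  | con h =>
    rintro Γ τ σ _ ε ε' s hU hT hτ hσ rfl hP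
    refine le_cut (key2 σ hT hτ) fun _ => ?_
    rw [J_con h, J_con ((h.subst τ).nf (hN.wn _ _ _ (hT.subst hτ)))]
    exact Le.refl _ _

theorem sub_nf (hN : Nice Q) {Γ : List (Tm S)} {A : Tm S} {s : S} (hA : Ty Q allC Γ A (sort s)) :
    SubT Q allC (nf A :: Γ) var (A :: Γ) := by
  have hr := (hN.wn _ _ _ hA).red_nf
  have := (SubT.id hA.wf).up hA (hA.red hr) (by rw [subst_id]; exact Conv.symm' (Red.conv hr))
  rwa [up_var] at this

end Unary

open Unary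

theorem model_nonRich {Q : Sys S} {Lo K : S → Prop} (hN : Nice Q) (hL : Layer Q Lo K)
    (hA : AppSN Q Lo) (hK : NonRich Q K) :
    Nonempty (Model.{u, u} Q (fun s => Lo s ∨ K s)) := by
  refine ⟨
    { Env := (ℕ → Tm S) × (ℕ → S → Prop)
      sub := Prod.fst
      ok := fun Γ e => SubT Q allC [] e.1 Γ
      ext := fun _ e N e' => ∃ ε₀, e' = (scons N e.1, scons ε₀ e.2)
      I := fun Γ T e => Jo Q Lo (nf T) Γ e.1 e.2
      ok_sub := fun h => h
      ok_nil := ⟨(var, fun _ _ => True), SubT.id Wf.nil⟩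
      ext_ok := ?_
      ext_ex := fun _ _ _ => ⟨_, fun _ => True, rfl⟩
      conv := ?_
      weak := ?_
      elim := ?_
      intro := ?_ }⟩
  · rintro Γ A s e N _ ho - h ⟨ε₀, rfl⟩
    exact ⟨ho.cons h, rfl⟩
  · intro Γ T T' s s' e _ _ _ hc
    rw [nf_conv hc]
  · rintro Γ A s T s' ⟨σ, ε⟩ N _ ho h1 h2 h3 ⟨ε₀, rfl⟩
    have hw := hN.wn _ _ _ h2
    have := mono (Lo := Lo) hN (leaf_all true hw.normal_nf (h2.red hw.red_nf))
      (ε := scons ε₀ ε) (ε' := ε) hw.normal_nf (h2.red hw.red_nf) (SubT.shift (Wf.cons h1))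
      (ho.cons h3) rfl fun y _ _ _ => Or.inl ⟨y + 1, rfl, Iff.rfl⟩
    rw [← ren_eq_subst Nat.succ, ← nf_conv (Conv.ren (Red.conv hw.red_nf) Nat.succ)] at this
    exact this
  · rintro Γ A B s ⟨σ, ε⟩ M N ho hpi hm hM hMI hNt hNI
    dsimp only at ho hM hMI hNI ⊢
    obtain ⟨s₁, s₂, -, h1, h2⟩ := gen_pi_sort hpi
    have hw := hN.wn _ _ _ hpi
    have hwA := (wn_pi.1 hw).1
    have hwB := (wn_pi.1 hw).2
    have hwI := hN.wn _ _ _ (h2.inst hNt)
    by_cases hc : HasS Q Lo [] (subst σ (pi A B))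
    · obtain ⟨g1, g2⟩ := elim_low hL.lo hA hM hc (hNt.subst ho) ((Jo Q Lo _ _ _ _).2.sn _ hMI)
        ((Jo Q Lo _ _ _ _).2.sn _ hNI)
      rw [← inst_subst'] at g2
      rw [Jo, cut_pos (g2.conv (Conv.subst (Red.conv hwI.red_nf) σ))]
      exact g1
    · rw [Jo, cut_neg fun g => hc (g.conv (Conv.symm' (Conv.subst (Red.conv hw.red_nf) σ))),
        nf_pi hw, J_pi] at hMI
      obtain ⟨r₁, r₂, r₃, hr, g3, -, g2⟩ := hm.pi_inv h1
      have g4 := g2.subst (sub_nf hN h1)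
      rw [subst_id] at g4
      obtain ⟨_, rfl, g5⟩ := (g4.conv (Red.conv hwB.red_nf)).normal hwB.normal_nf
      obtain ⟨pol, hp⟩ := leaf_pol hL hK hwB.normal_nf g5
        (g3.elim (fun h => Or.inl (hL.lo _ _ _ hr h).2) fun h => (hL.k _ _ _ hr h).2)
      have hN' := hNt.red_type hwA.red_nf
      have g6 := hMI.2 (subst σ N) (fun s => pol s = false) (TyC.of_ty (hN'.subst ho)) hNI
      have g7 := mono hN hp (τ := scons N var) (ρ := scons (subst σ N) σ) (ε := ε)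
        (ε' := scons (fun s => pol s = false) ε) hwB.normal_nf g5
        ((SubT.id hpi.wf).cons (by rwa [subst_id])) ho (by funext n; cases n <;> rfl)
        fun y t q h => by
          cases y with
          | zero => exact Or.inr (by rw [h]; rfl)
          | succ y => exact Or.inl ⟨y, rfl, Iff.rfl⟩
      rw [nf_conv (Conv.inst (Red.conv hwB.red_nf) Conv.rfl)]
      exact g7 g6
  · rintro Γ A B s ⟨σ, ε⟩ M ho hpi hM h
    dsimp only at ho h ⊢
    obtain ⟨s₁, s₂, -, h1, h2⟩ := gen_pi_sort hpi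
    have hw := hN.wn _ _ _ hpi
    have hwA := (wn_pi.1 hw).1
    have hwB := (wn_pi.1 hw).2
    by_cases hc : HasS Q Lo [] (subst σ (nf (pi A B)))
    · rw [Jo, cut_pos hc]; exact hM
    · rw [Jo, cut_neg hc, nf_pi hw, J_pi]
      refine ⟨hM, fun a ε₀ ha haI => ?_⟩
      have g1 := h a _ ((ha.conv (Conv.symm' (Conv.subst (Red.conv hwA.red_nf) σ))).ty
        (h1.subst ho)) haI ⟨ε₀, rfl⟩
      have g2 := mono (Lo := Lo) hN (leaf_all true hwB.normal_nf (h2.red hwB.red_nf))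
        (ε := scons ε₀ ε) (ε' := scons ε₀ ε) hwB.normal_nf (h2.red hwB.red_nf) (sub_nf hN h1)
        (ho.cons (ha.ty ((h1.red hwA.red_nf).subst ho))) rfl
        fun y _ _ _ => Or.inl ⟨y, rfl, Iff.rfl⟩
      rw [subst_id, hwB.normal_nf.nf_eq] at g2
      exact g2 g1

end Vale.Agent.P340
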