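import Vale.Agent.P340.Build
import Vale.Agent.P340.RichModel
import Vale.Agent.P340.Unary
import Vale.Agent.P340.Transfer

/-! P340: assembly. -/

namespace Vale.Agent.P340

universe u
variable {S : Type u}

theorem appSN_layer {Q : Sys S} (hN : Nice Q) (s₀ : S) (hA : AppSN Q (LL Q s₀)) :
    AppSN Q (fun s => LL Q s₀ s ∨ KK Q s₀ s) := by
  have hL := layer_LL_KK Q s₀
  have hMid : ∀ a b c, Q.rule a b c → (LL Q s₀ c ∨ KK Q s₀ c) →
      (LL Q s₀ a ∨ KK Q s₀ a) ∧ (LL Q s₀ b ∨ KK Q s₀ b) := by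
    intro a b c hr hc
    rcases hc with hc | hc
    · exact ⟨Or.inl (hL.lo a b c hr hc).1, Or.inl (hL.lo a b c hr hc).2⟩
    · exact hL.k a b c hr hc
  rcases nonRich_or_rich Q s₀ with hK | hK
  · obtain ⟨m⟩ := model_nonRich hN hL hA hK
    exact david hMid m
  · by_cases hW : WfCond Q (KK Q s₀)
    · obtain ⟨m⟩ := model_wf hN hL hA (prec_wf hN hW)
      exact david hMid m
    · obtain ⟨B⟩ := bad_of_not_wfCond hW
      exact (not_rich_bad hN hK B).elim

theorem appSN_all {Q : Sys S} (hN : Nice Q) : AppSN Q (fun _ => True) := by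
  have key : ∀ s₀, AppSN Q (fun s => s = s₀) := by
    intro s₀
    induction s₀ using (wf_LL hN.fin).induction with
    | _ s₀ ih =>
      have hA : AppSN Q (LL Q s₀) := by
        intro M A B N hM hs hNt sM sN
        obtain ⟨T', s, hs, hc, hT⟩ := hs
        exact ih s hs M A B N hM ⟨T', s, rfl, hc, hT⟩ hNt sM sN
      intro M A B N hM hs hNt sM sN
      refine appSN_layer hN s₀ hA M A B N hM (hs.mono ?_) hNt sM sN
      rintro s rfl
      exact Or.inr ⟨Relation.ReflTransGen.refl, Relation.ReflTransGen.refl⟩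
  intro M A B N hM hs hNt sM sN
  obtain ⟨T', s, -, hc, hT⟩ := hs
  exact key s M A B N hM ⟨T', s, rfl, hc, hT⟩ hNt sM sN

theorem bgk (P : PTS S) (hP : WeaklyNormalizing P) : StronglyNormalizing P := by
  rintro M ⟨Γ, B, h | h⟩
  · obtain ⟨Q, hN, hM⟩ := exists_nice hP h
    exact no_seq_of_sn (sn_of_appSN (appSN_all hN) hM)
  · obtain ⟨Q, hN, hM⟩ := exists_nice hP h
    rcases hM.type with ⟨s, hs⟩ | ⟨s, hs⟩
    · exact no_seq_of_sn (hs ▸ (normal_sort s).sn)
    · exact no_seq_of_sn (sn_of_appSN (appSN_all hN) hs)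

end Vale.Agent.P340
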