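import Vale.Agent.P340.Interp

/-! P340: good terms have small support, hence round trips hold for their behaviours. -/

namespace Vale.Agent.P340

universe u v w
open Tm
variable {S : Type u} {Q : Sys S} {Lo K : S → Prop}

namespace Support

theorem exU {ι : Type v} {α : Type w} (I : Set ι) (hI : Small.{u} I) (P : ι → Set α → Prop)
    (hm : ∀ i J J', J ⊆ J' → P i J → P i J') (h : ∀ i ∈ I, ∃ J : Set α, Small.{u} J ∧ P i J) :
    ∃ J : Set α, Small.{u} J ∧ ∀ i ∈ I, P i J := by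
  choose f hf hP using h
  have : ∀ i : I, Small.{u} (f i.1 i.2) := fun i => hf i.1 i.2
  exact ⟨⋃ i : I, f i.1 i.2, small_iUnion _, fun i hi =>
    hm i _ _ (Set.subset_iUnion (fun i : I => f i.1 i.2) ⟨i, hi⟩) (hP i hi)⟩

theorem small_factor {α : Type v} {β : Type v} {γ : Type w} [Small.{u} γ] (U : Set α) (g : α → β)
    (r : α → γ) (h : ∀ x ∈ U, ∀ y ∈ U, r x = r y → g x = g y) : Small.{u} (g '' U) := by
  refine small_subset.{u} (s := Set.range fun c : r '' U => g c.2.choose) ?_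
  rintro _ ⟨x, hx, rfl⟩
  have hc : r x ∈ r '' U := ⟨x, hx, rfl⟩
  exact ⟨⟨r x, hc⟩, h _ hc.choose_spec.1 _ hx hc.choose_spec.2⟩

theorem arr_congr {ι : Type v} {A A' : Cand S} {P : Tm S → ι → Prop} {B B' : Tm S → ι → Cand S}
    (hA : A = A') (hB : ∀ a i, P a i → B a i = B' a i) : Cand.arr A P B = Cand.arr A' P B' := by
  subst hA
  refine Subtype.ext (Set.ext fun M => ?_)
  rw [Cand.mem_arr, Cand.mem_arr]
  exact and_congr_right fun _ => forall_congr' fun a => forall_congr' fun i =>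
    forall_congr' fun hp => by rw [hB a i hp]

theorem cut_congr {p : Prop} {c c' : Cand S} (h : ¬ p → c = c') : Cand.cut p c = Cand.cut p c' := by
  unfold Cand.cut
  split_ifs with hp
  · rfl
  · exact h hp

/-- `J` is a support. -/
def Supp (Q : Sys S) (Lo K : S → Prop) (σ : ℕ → Tm S) (Z : ℕ → Prop) (T Y : Tm S)
    (β : ℕ → Ev S) (η : Ev S) (J : Set (Ev S)) : Prop :=
  ∀ (υ υ' : ℕ → Val S) (st st' : Stk S),
    (∀ y, toEv (υ y) = β y) → (∀ y, Z y → υ y = triv) → (∀ y, Sim J (υ y) (υ' y)) →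
    enc st = η → StkSim J st st' → Valid Q K Y st → Valid Q K Y st' →
    sem Q Lo K T σ (upk υ) st = sem Q Lo K T σ (upk υ') st'

theorem Supp.mono {σ : ℕ → Tm S} {Z : ℕ → Prop} {T Y : Tm S} {β : ℕ → Ev S} {η : Ev S}
    {J J' : Set (Ev S)} (hJ : J ⊆ J') (h : Supp Q Lo K σ Z T Y β η J) :
    Supp Q Lo K σ Z T Y β η J' := fun υ υ' st st' h1 h2 h3 h4 h5 h6 h7 =>
  h υ υ' st st' h1 h2 (fun y => (h3 y).mono hJ) h4 (h5.mono hJ) h6 h7

theorem Supp.ext {σ : ℕ → Tm S} {Z : ℕ → Prop} {T Y : Tm S} {β : ℕ → Ev S} {η e : Ev S}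
    {J : Set (Ev S)} (h : Supp Q Lo K σ (scons False Z) T Y (scons e β) η J)
    {υ υ' : ℕ → Val S} {v v' : Val S} {st st' : Stk S} (h1 : ∀ y, toEv (υ y) = β y)
    (h2 : ∀ y, Z y → υ y = triv) (h3 : ∀ y, Sim J (υ y) (υ' y)) (he : toEv v = e)
    (hv : Sim J v v') (h4 : enc st = η) (h5 : StkSim J st st') (h6 : Valid Q K Y st)
    (h7 : Valid Q K Y st') :
    sem Q Lo K T σ (scons (unpack v) (upk υ)) st =
      sem Q Lo K T σ (scons (unpack v') (upk υ')) st' := by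
  rw [← upk_scons, ← upk_scons]
  refine h _ _ st st' (fun y => ?_) (fun y => ?_) (fun y => ?_) h4 h5 h6 h7
  · cases y with
    | zero => exact he
    | succ y => exact h1 y
  · cases y with
    | zero => exact False.elim
    | succ y => exact h2 y
  · cases y with
    | zero => exact hv
    | succ y => exact h3 y

theorem dead_upk {Z : ℕ → Prop} {υ : ℕ → Val S} (h : ∀ y, Z y → υ y = triv) (y : ℕ) (hy : Z y) :
    upk υ y = fun _ => Cand.top := by
  unfold upk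
  rw [h y hy, unpack_triv]

theorem sim_triv {J : Set (Ev S)} {v : Val S} (h : Sim J triv v) : v = triv := by
  rcases h with h | ⟨f, f', h, -⟩
  · exact h.symm
  · cases h

theorem sim_of_obs {J : Set (Ev S)} {v v' : Val S} (he : toEv v = toEv v')
    (hr : (∃ f, v = Sum.inr f) = ∃ f, v' = Sum.inr f) (ho : ∀ q ∈ J, obs v q = obs v' q) :
    Sim J v v' := by
  cases v with
  | inl e =>
    cases v' with
    | inl e' => exact Or.inl (congrArg Sum.inl he)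
    | inr f' =>
      obtain ⟨f, hf⟩ := hr.mpr ⟨f', rfl⟩
      cases hf
  | inr f =>
    cases v' with
    | inl e' =>
      obtain ⟨f', hf⟩ := hr.mp ⟨f, rfl⟩
      cases hf
    | inr f' => exact Or.inr ⟨f, f', rfl, rfl, ho⟩

theorem supp_lam (hw : WellFounded (Prec Q K)) {σ : ℕ → Tm S} {Z : ℕ → Prop} {A M C D Y : Tm S}
    (hc : Conv Y (pi C D))
    (ih : ∀ a, TyC Q a C → ∀ β η, ∃ J : Set (Ev S), Small.{u} J ∧
      Supp Q Lo K (scons a σ) (scons False Z) M (inst D a) β η J) (β : ℕ → Ev S) (η : Ev S) :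
    ∃ J : Set (Ev S), Small.{u} J ∧ Supp Q Lo K σ Z (lam A M) Y β η J := by
  by_cases h : ∃ a e t, η = Ev.cons a e t ∧ TyC Q a C
  · obtain ⟨a, e, t, rfl, ha⟩ := h
    obtain ⟨J, hJ, hs⟩ := ih a ha (scons e β) t
    refine ⟨J, hJ, fun υ υ' st st' h1 h2 h3 h4 h5 h6 h7 => ?_⟩
    cases h5 with
    | nil => rfl
    | @cons x x' st st' hx h5 =>
      obtain ⟨b, v⟩ := x
      obtain ⟨b', v'⟩ := x'
      obtain ⟨hb, hv⟩ := hx
      obtain rfl : b = b' := hb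
      obtain ⟨hb, he, ht⟩ := Ev.cons.inj h4
      obtain rfl : b = a := hb
      exact hs.ext h1 h2 h3 he hv ht h5 ((valid_cons hw hc).1 h6).2.2.2
        ((valid_cons hw hc).1 h7).2.2.2
  · refine ⟨∅, small_empty, fun υ υ' st st' _ _ _ h4 h5 h6 _ => ?_⟩
    cases h5 with
    | nil => rfl
    | @cons x x' st st' hx h5 =>
      obtain ⟨b, v⟩ := x
      exact absurd ⟨b, toEv v, enc st, h4.symm, ((valid_cons hw hc).1 h6).2.1⟩ h

theorem supp_pi (hw : WellFounded (Prec Q K)) {σ : ℕ → Tm S} {Z : ℕ → Prop} {A B C Y : Tm S}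
    {s₁ s₂ : S} (hc : Conv (subst σ A) C) (hK : ¬ HasS Q Lo [] (subst σ A) → K s₁)
    (hB : ∀ a, TyC Q a C → ¬ HasS Q Lo [] (subst (scons a σ) B) →
      K s₂ ∧ (Reach Q K C → Cls Q K false C))
    (ihA : ¬ HasS Q Lo [] (subst σ A) → ∀ β η, ∃ J : Set (Ev S), Small.{u} J ∧
      Supp Q Lo K σ Z A (sort s₁) β η J)
    (ihB : ∀ a, TyC Q a C → ¬ HasS Q Lo [] (subst (scons a σ) B) → ∀ β η,
      ∃ J : Set (Ev S), Small.{u} J ∧
        Supp Q Lo K (scons a σ) (scons False Z) B (sort s₂) β η J) (β : ℕ → Ev S) (η : Ev S) :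
    ∃ J : Set (Ev S), Small.{u} J ∧ Supp Q Lo K σ Z (pi A B) Y β η J := by
  obtain ⟨JA, hJA, hA⟩ : ∃ J : Set (Ev S), Small.{u} J ∧
      (¬ HasS Q Lo [] (subst σ A) → Supp Q Lo K σ Z A (sort s₁) β Ev.nil J) := by
    by_cases h : HasS Q Lo [] (subst σ A)
    · exact ⟨∅, small_empty, fun h' => absurd h h'⟩
    · obtain ⟨J, hJ, hs⟩ := ihA h β Ev.nil
      exact ⟨J, hJ, fun _ => hs⟩
  obtain ⟨JB, hJB, hB'⟩ := exU.{u} {a | TyC Q a C ∧ ¬ HasS Q Lo [] (subst (scons a σ) B)}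
    inferInstance (fun a J => ∀ e ∈ toEv '' VV Q K C,
      Supp Q Lo K (scons a σ) (scons False Z) B (sort s₂) (scons e β) Ev.nil J)
    (fun _ _ _ hJ h e he => (h e he).mono hJ) fun a ha =>
      exU _ (small_toEv_VV hw (hB a ha.1 ha.2).2) _ (fun _ _ _ hJ h => h.mono hJ)
        fun e _ => ihB a ha.1 ha.2 _ _
  refine ⟨JA ∪ JB, small_union _ _, fun υ υ' st st' h1 h2 h3 _ _ _ _ => ?_⟩
  refine arr_congr (cut_congr fun h => ?_) fun a v hp => cut_congr fun h => ?_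
  · have hv : Valid Q K (sort s₁) [] := valid_nil.2 ⟨s₁, hK h, Conv.rfl⟩
    exact (hA h).mono Set.subset_union_left υ υ' [] [] h1 h2 h3 rfl (StkSim.refl _ _) hv hv
  · have ha := hp.1.conv hc
    have hv : Valid Q K (sort s₂) [] := valid_nil.2 ⟨s₂, (hB a ha h).1, Conv.rfl⟩
    exact ((hB' a ⟨ha, h⟩ _ ⟨v, VV_conv hw hc ▸ hp.2, rfl⟩).mono Set.subset_union_right).ext
      h1 h2 h3 rfl (Or.inl rfl) rfl (StkSim.refl _ _) hv hv

theorem supp_app (hN : Nice Q) (hw : WellFounded (Prec Q K)) {σ : ℕ → Tm S} {Z : ℕ → Prop}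
    {M N C D Y : Tm S} (hM : TyC Q (subst σ M) (pi C D)) (hA : TyC Q (subst σ N) C)
    (hc : Conv Y (inst D (subst σ N)))
    (ihM : ∀ β η, ∃ J : Set (Ev S), Small.{u} J ∧ Supp Q Lo K σ Z M (pi C D) β η J)
    (ihN : ∀ β η, ∃ J : Set (Ev S), Small.{u} J ∧ Supp Q Lo K σ Z N C β η J)
    (β : ℕ → Ev S) (η : Ev S) :
    ∃ J : Set (Ev S), Small.{u} J ∧ Supp Q Lo K σ Z (app M N) Y β η J := by
  have hwn : WN (subst σ N) := hA.elim fun T h => hN.wn _ _ _ h.2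
  have hval : ∀ (b : Beh S) (st : Stk S), Valid Q K Y st →
      Valid Q K (pi C D) ((nf (subst σ N), pack Q K C b) :: st) := fun b st h =>
    (valid_cons hw Conv.rfl).2 ⟨hwn.normal_nf, hA.red hwn.red_nf, pack_mem hw _ _,
      h.conv (hc.trans' (Conv.rfl.inst hwn.red_nf.conv))⟩
  have key : ∀ (e : Ev S) (J : Set (Ev S)) (υ υ' : ℕ → Val S) (st st' : Stk S),
      Supp Q Lo K σ Z M (pi C D) β (Ev.cons (nf (subst σ N)) e η) J →
      toEv (pack Q K C (sem Q Lo K N σ (upk υ))) = e →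
      Sim J (pack Q K C (sem Q Lo K N σ (upk υ))) (pack Q K C (sem Q Lo K N σ (upk υ'))) →
      (∀ y, toEv (υ y) = β y) → (∀ y, Z y → υ y = triv) → (∀ y, Sim J (υ y) (υ' y)) →
      enc st = η → StkSim J st st' → Valid Q K Y st → Valid Q K Y st' →
      sem Q Lo K (app M N) σ (upk υ) st = sem Q Lo K (app M N) σ (upk υ') st' := by
    intro e J υ υ' st st' hs he hv h1 h2 h3 h4 h5 h6 h7
    have := hs υ υ' ((nf (subst σ N), pack Q K C (sem Q Lo K N σ (upk υ))) :: st)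
      ((nf (subst σ N), pack Q K C (sem Q Lo K N σ (upk υ'))) :: st') h1 h2 h3
      (by rw [enc, he, h4]) (List.Forall₂.cons ⟨rfl, hv⟩ h5) (hval _ st h6) (hval _ st' h7)
    rw [← pack_conv (domOf_spec hN hM)] at this
    exact this
  rcases pack_cases (Q := Q) (K := K) C with h | ⟨hC, -⟩ | h
  · obtain ⟨J, hJ, hs⟩ := ihM β (Ev.cons (nf (subst σ N)) Ev.nil η)
    exact ⟨J, hJ, fun υ υ' st st' => key _ J υ υ' st st' hs (by rw [h]; rfl)
      (Or.inl (by rw [h, h]))⟩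
  · obtain ⟨JN, hJN, hs⟩ := exU.{u} _ (small_keys hw hC)
      (fun η' J => Supp Q Lo K σ Z N C β η' J) (fun _ _ _ hJ h => h.mono hJ) fun η' _ => ihN β η'
    have hp : ∀ υ υ' : ℕ → Val S, (∀ y, toEv (υ y) = β y) → (∀ y, Z y → υ y = triv) →
        (∀ y, Sim JN (υ y) (υ' y)) →
        pack Q K C (sem Q Lo K N σ (upk υ)) = pack Q K C (sem Q Lo K N σ (upk υ')) :=
      fun υ υ' h1 h2 h3 => pack_ext fun st hst =>
        hs _ ⟨st, hst, rfl⟩ υ υ' st st h1 h2 h3 rfl (StkSim.refl _ _) hst hst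
    have hE := small_factor.{u}
      {υ : ℕ → Val S | (∀ y, toEv (υ y) = β y) ∧ ∀ y, Z y → υ y = triv}
      (fun υ => toEv (pack Q K C (sem Q Lo K N σ (upk υ))))
      (fun υ y => ((∃ f, υ y = Sum.inr f), fun q : JN => obs (υ y) q)) fun υ hυ υ' hυ' hr => by
        refine congrArg toEv (hp υ υ' hυ.1 hυ.2 fun y => ?_)
        have := Prod.mk.inj (congrFun hr y)
        exact sim_of_obs ((hυ.1 y).trans (hυ'.1 y).symm) this.1
          fun q hq => congrFun this.2 ⟨q, hq⟩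
    obtain ⟨JM, hJM, hs'⟩ := exU.{u} _ hE
      (fun e J => Supp Q Lo K σ Z M (pi C D) β (Ev.cons (nf (subst σ N)) e η) J)
      (fun _ _ _ hJ h => h.mono hJ) fun e _ => ihM β _
    refine ⟨JM ∪ JN, small_union _ _, fun υ υ' st st' h1 h2 h3 => ?_⟩
    exact key _ _ υ υ' st st' ((hs' _ ⟨υ, ⟨h1, h2⟩, rfl⟩).mono Set.subset_union_left) rfl
      (Or.inl (hp υ υ' h1 h2 fun y => (h3 y).mono Set.subset_union_right)) h1 h2 h3
  · obtain ⟨JM, hJM, hs⟩ := ihM β (Ev.cons (nf (subst σ N)) Ev.nil η)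
    obtain ⟨JN, hJN, hs'⟩ := exU.{u} JM hJM
      (fun q J => Supp Q Lo K σ Z N C β (enc (dec q)) J) (fun _ _ _ hJ h => h.mono hJ)
      fun q _ => ihN β _
    refine ⟨JM ∪ JN, small_union _ _, fun υ υ' st st' h1 h2 h3 h4 h5 => ?_⟩
    refine key _ JM υ υ' st st' hs (by rw [h]; rfl) ?_ h1 h2
      (fun y => (h3 y).mono Set.subset_union_left) h4 (h5.mono Set.subset_union_left)
    rw [h, h]
    refine Or.inr ⟨_, _, rfl, rfl, fun q hq => ?_⟩
    split_ifs with hv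
    · exact hs' q hq υ υ' _ _ h1 h2 (fun y => (h3 y).mono Set.subset_union_right) rfl
        (StkSim.refl _ _) hv hv
    · rfl

theorem supp (hN : Nice Q) (hw : WellFounded (Prec Q K)) {σ θ : ℕ → Tm S}
    {Z : ℕ → Prop} {T Y : Tm S} (h : Good Q Lo K σ θ Z T Y) (β : ℕ → Ev S) (η : Ev S) :
    ∃ J : Set (Ev S), Small.{u} J ∧ Supp Q Lo K σ Z T Y β η J := by
  induction h generalizing β η with
  | irr _ h => exact ⟨∅, small_empty, fun _ _ _ _ _ _ _ _ _ h6 _ => absurd h6.reach h⟩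
  | dead _ h =>
    refine ⟨∅, small_empty, fun υ υ' _ _ _ h2 h3 _ _ _ _ => ?_⟩
    rw [h.sem _ (dead_upk h2), h.sem _ (dead_upk fun y hy => sim_triv (h2 y hy ▸ h3 y))]
  | @var _ _ _ y _ _ _ _ =>
    obtain ⟨J, hJ, hs⟩ := unpack_support (β y) η
    exact ⟨J, hJ, fun υ υ' st st' h1 _ h3 h4 h5 _ _ => hs _ _ st st' (h1 y) (h3 y) h4 h5⟩
  | app hM hA _ hc ihM ihN => exact supp_app hN hw hM.tyC hA.tyC hc ihM ihN β η
  | lam _ hc _ ih => exact supp_lam hw hc ih β η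
  | pi _ hc hK _ hB _ ihA ihB => exact supp_pi hw hc hK hB ihA ihB β η

end Support

theorem Good.support (hN : Nice Q) (hw : WellFounded (Prec Q K)) {σ θ : ℕ → Tm S}
    {Z : ℕ → Prop} {T Y : Tm S} (h : Good Q Lo K σ θ Z T Y) (β : ℕ → Ev S) (η : Ev S) :
    ∃ J : Set (Ev S), Small.{u} J ∧ ∀ (υ υ' : ℕ → Val S) (st st' : Stk S),
      (∀ y, toEv (υ y) = β y) → (∀ y, Z y → υ y = triv) → (∀ y, Sim J (υ y) (υ' y)) →
      enc st = η → StkSim J st st' → Valid Q K Y st → Valid Q K Y st' →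
      sem Q Lo K T σ (upk υ) st = sem Q Lo K T σ (upk υ') st' := Support.supp hN hw h β η

theorem Good.rt (hN : Nice Q) (hw : WellFounded (Prec Q K)) {σ θ : ℕ → Tm S}
    {Z : ℕ → Prop} {N C : Tm S} (h : Good Q Lo K σ θ Z N C) (hC : DT Q K C) {υ : ℕ → Val S}
    (hZ : ∀ y, Z y → υ y = triv) {st : Stk S} (hst : Valid Q K C st) :
    unpack (pack Q K C (sem Q Lo K N σ (upk υ))) st = sem Q Lo K N σ (upk υ) st := by
  rcases hC with hC | hC
  · exact rt_full hw hC _ hst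
  · obtain ⟨J, hJ, hs⟩ := Support.exU.{u} _ (small_keys hw hC)
      (fun η J => Support.Supp Q Lo K σ Z N C (fun y => toEv (υ y)) η J)
      (fun _ _ _ hJ h => h.mono hJ) fun η _ => Support.supp hN hw h _ η
    exact rt_code hw hC _ hJ (fun s s' h1 h2 h3 => hs _ ⟨s, h1, rfl⟩ υ υ s s' (fun _ => rfl) hZ
      (fun _ => Or.inl rfl) rfl h3 h1 h2) hst

end Vale.Agent.P340
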