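import Vale.Agent.P340.Wrap
import Vale.Agent.P340.Csub

/-! P340: classical truth for closed formulas of a rich layer (maximal consistent set of
hypotheses with Henkin witnesses). -/

namespace Vale.Agent.P340

universe u
open Tm
variable {S : Type u}

/-- A two-valued logic on the closed types of the sort `o`, with quantifiers over `κ i`. -/
structure Logic (Q : Sys S) (K : S → Prop) (κ : ℕ → Tm S) (q : ℕ → S) where
  C : Tm S → Tm S → Prop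
  o : S
  Tr : Tm S → Prop
  nand : Tm S → Tm S → Tm S
  alln : ℕ → Tm S → Tm S → Tm S
  toS : S → Tm S → Tm S
  ofS : S → Tm S → Tm S
  base : ∀ A t, Cb Q A t → C A t
  tr_conv : ∀ {X Y s s'}, Ty Q C [] X (sort s) → Ty Q C [] Y (sort s') → Conv X Y → Tr X → Tr Y
  nand_subst : ∀ φ ψ σ, subst σ (nand φ ψ) = nand (subst σ φ) (subst σ ψ)
  nand_ty : ∀ {Γ φ ψ}, Ty Q C Γ φ (sort o) → Ty Q C Γ ψ (sort o) → Ty Q C Γ (nand φ ψ) (sort o)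
  nand_tr : ∀ {φ ψ}, Ty Q C [] φ (sort o) → Ty Q C [] ψ (sort o) →
    (Tr (nand φ ψ) ↔ ¬ (Tr φ ∧ Tr ψ))
  alln_subst : ∀ i A φ σ, subst σ (alln i A φ) = alln i (subst σ A) (subst (up σ) φ)
  alln_ty : ∀ {i Γ A φ}, Ty Q C Γ A (sort (q i)) → Ty Q C (A :: Γ) φ (sort o) →
    Ty Q C Γ (alln i A φ) (sort o)
  alln_tr : ∀ {i φ}, Ty Q C [κ i] φ (sort o) →
    (Tr (alln i (κ i) φ) ↔ ∀ c, Ty Q C [] c (κ i) → ¬ Tr (inst φ c))
  toS_subst : ∀ s φ σ, subst σ (toS s φ) = toS s (subst σ φ)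
  ofS_subst : ∀ s φ σ, subst σ (ofS s φ) = ofS s (subst σ φ)
  toS_conv : ∀ s {φ φ'}, Conv φ φ' → Conv (toS s φ) (toS s φ')
  ofS_conv : ∀ s {φ φ'}, Conv φ φ' → Conv (ofS s φ) (ofS s φ')
  toS_ty : ∀ {s Γ φ}, K s → Ty Q C Γ φ (sort o) → Ty Q C Γ (toS s φ) (sort s)
  ofS_ty : ∀ {s Γ X}, K s → Ty Q C Γ X (sort s) → Ty Q C Γ (ofS s X) (sort o)
  ofS_toS : ∀ {s φ}, K s → Ty Q C [] φ (sort o) → (Tr (ofS s (toS s φ)) ↔ Tr φ)

namespace Truth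

def C0 (Q : Sys S) (κ : ℕ → Tm S) (A t : Tm S) : Prop :=
  Cb Q A t ∨ ∃ i φ, A = κ i ∧ t = lam (var i) φ
def CS (Q : Sys S) (κ : ℕ → Tm S) (H : Set (Tm S)) (A t : Tm S) : Prop :=
  C0 Q κ A t ∨ (t = var 2 ∧ A ∈ H)
def Pure (Q : Sys S) (κ : ℕ → Tm S) (X : Tm S) : Prop := ∃ s, Ty Q (C0 Q κ) [] X (sort s)
def Prov (Q : Sys S) (κ : ℕ → Tm S) (H : Set (Tm S)) (X : Tm S) : Prop :=
  ∃ M, Ty Q (CS Q κ H) [] M X
def Inc (Q : Sys S) (K : S → Prop) (κ : ℕ → Tm S) (H : Set (Tm S)) : Prop :=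
  ∃ t, AnsS Q K t ∧ Prov Q κ H (atF t)
def AllPure (Q : Sys S) (κ : ℕ → Tm S) (H : Set (Tm S)) : Prop := ∀ X ∈ H, Pure Q κ X

structure Hyp (Q : Sys S) (K : S → Prop) (κ : ℕ → Tm S) : Prop where
  hN : Nice Q
  hR : Rich Q K
  hκ : ∀ i, ∃ s, Ty Q (Cb Q) [] (κ i) (sort s)

variable {Q : Sys S} {K : S → Prop} {κ : ℕ → Tm S} {H H' : Set (Tm S)}

theorem cb_c0 : ∀ A t, Cb Q A t → C0 Q κ A t := fun _ _ h => Or.inl h
theorem c0_cs : ∀ A t, C0 Q κ A t → CS Q κ H A t := fun _ _ h => Or.inl h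
theorem cb_cs : ∀ A t, Cb Q A t → CS Q κ H A t := fun _ _ h => Or.inl (Or.inl h)
theorem cs_mono (h : H ⊆ H') : ∀ A t, CS Q κ H A t → CS Q κ H' A t :=
  fun _ _ hc => hc.imp id (fun hc => ⟨hc.1, h hc.2⟩)

theorem cb_tag {A t : Tm S} (h : Cb Q A t) : t = var 0 ∨ t = var 1 := by
  rcases h with ⟨s, -, -, h⟩ | ⟨h, -⟩
  · exact h
  · exact Or.inl h

theorem c0_tag {A t : Tm S} (h : C0 Q κ A t) : t ≠ var 2 := by
  rcases h with h | ⟨i, φ, -, rfl⟩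
  · rcases cb_tag h with rfl | rfl <;> simp
  · simp

theorem c0_vis (hy : Hyp Q K κ) {A t : Tm S} (h : C0 Q κ A t) : Vis (Cb Q) A := by
  rcases h with (⟨s, -, rfl, -⟩ | ⟨-, -, s, h⟩) | ⟨i, φ, rfl, -⟩
  · trivial
  · exact h.vis.mono (fun _ _ h => Or.inl h)
  · obtain ⟨s, h⟩ := hy.hκ i
    exact h.vis

theorem c0_ty (hy : Hyp Q K κ) {A t : Tm S} (h : C0 Q κ A t) :
    Ty Q (C0 Q κ) [] (con A t) A := by
  rcases h with h | ⟨i, φ, rfl, rfl⟩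
  · exact h.ty cb_c0
  · obtain ⟨s, h⟩ := hy.hκ i
    exact Ty.conT (Or.inr ⟨i, φ, rfl, rfl⟩) (h.monoC cb_c0)

theorem fresh_hyp {X T : Tm S} (h : Vis (C0 Q κ) T) : Fresh X (var 2) T :=
  h.mono (fun _ _ hc he => c0_tag hc he.2)

theorem Pure.vis {X : Tm S} (h : Pure Q κ X) : Vis (C0 Q κ) X := by
  obtain ⟨s, h⟩ := h
  exact h.vis

theorem Pure.bd {X : Tm S} (h : Pure Q κ X) : Bd 0 X := by
  obtain ⟨s, h⟩ := h
  exact h.closed

theorem Prov.mono (h : H ⊆ H') {X : Tm S} (hp : Prov Q κ H X) : Prov Q κ H' X := by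
  obtain ⟨M, hM⟩ := hp
  exact ⟨M, hM.monoC (cs_mono h)⟩

theorem Inc.mono (h : H ⊆ H') (hp : Inc Q K κ H) : Inc Q K κ H' := by
  obtain ⟨t, ht, hp⟩ := hp
  exact ⟨t, ht, hp.mono h⟩

theorem hyp_ty {X : Tm S} (hX : Pure Q κ X) (h : X ∈ H) :
    Ty Q (CS Q κ H) [] (con X (var 2)) X := by
  obtain ⟨s, hs⟩ := hX
  exact Ty.conT (Or.inr ⟨rfl, h⟩) (hs.monoC c0_cs)

theorem prov_hyp {X : Tm S} (hX : Pure Q κ X) (h : X ∈ H) : Prov Q κ H X := ⟨_, hyp_ty hX h⟩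

theorem AllPure.insert (h : AllPure Q κ H) {X : Tm S} (hX : Pure Q κ X) :
    AllPure Q κ (insert X H) := by
  rintro Y (rfl | hY)
  · exact hX
  · exact h Y hY

theorem gen_hyp (hy : Hyp Q K κ) (hH : AllPure Q κ H) {X T : Tm S} (hX : Pure Q κ X)
    (hT : Vis (C0 Q κ) T) (h : Prov Q κ (insert X H) T) : ∃ M, Ty Q (CS Q κ H) [X] M T := by
  obtain ⟨M, hM⟩ := h
  obtain ⟨s, hs⟩ := hX
  have := Ty.gen (C := CS Q κ (insert X H)) (C' := CS Q κ H) (t := var 2) (hs.monoC c0_cs) ?_ hM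
  · rw [cabs_fresh (fresh_hyp hT)] at this
    exact ⟨_, this⟩
  · intro A r hc hne
    rcases hc with hc | ⟨rfl, hA⟩
    · exact ⟨(c0_ty hy hc).monoC c0_cs, fresh_hyp (κ := κ) ((c0_vis hy hc).mono cb_c0)⟩
    · rcases hA with rfl | hA
      · exact absurd ⟨rfl, rfl⟩ hne
      · exact ⟨hyp_ty (hH A hA) hA, fresh_hyp (hH A hA).vis⟩

theorem vis_atF (hy : Hyp Q K κ) {t : S} (ht : AnsS Q K t) : Vis (C0 Q κ) (atF t) := by
  obtain ⟨v, w, -, -, hr⟩ := ht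
  exact Or.inl (Or.inl ⟨t, (hy.hN.rz _ _ _ hr).2, rfl, Or.inr rfl⟩)

theorem cut (hy : Hyp Q K κ) (hH : AllPure Q κ H) {X : Tm S} (hX : Pure Q κ X)
    (hp : Prov Q κ H X) (hr : Inc Q K κ (insert X H)) : Inc Q K κ H := by
  obtain ⟨t, ht, h⟩ := hr
  obtain ⟨M, hM⟩ := gen_hyp hy hH hX (vis_atF hy ht) h
  obtain ⟨N, hN⟩ := hp
  exact ⟨t, ht, _, hM.inst hN⟩

theorem ded (hy : Hyp Q K κ) (hH : AllPure Q κ H) {X Y : Tm S} {s : S} (hX : Pure Q κ X)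
    (hY : Pure Q κ Y) (hXY : Ty Q (C0 Q κ) [] (pi X (lift Y)) (sort s))
    (h : Prov Q κ (insert X H) Y) : Prov Q κ H (pi X (lift Y)) := by
  obtain ⟨M, hM⟩ := gen_hyp hy hH hX hY.vis h
  rw [lift_closed hY.bd] at hXY ⊢
  exact ⟨_, Ty.lam hM (hXY.monoC c0_cs)⟩

theorem klam {X Y : Tm S} {s : S} (hXY : Ty Q (C0 Q κ) [] (pi X (lift Y)) (sort s))
    (h : Prov Q κ H Y) : Prov Q κ H (pi X (lift Y)) := by
  obtain ⟨M, hM⟩ := h
  obtain ⟨s₁, s₂, -, hX, -⟩ := gen_pi_sort (hXY.monoC (c0_cs (H := H)))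
  exact ⟨_, Ty.lam (hM.weak hX) (hXY.monoC c0_cs)⟩

theorem mp {X Y : Tm S} (h : Prov Q κ H (pi X (lift Y))) (hX : Prov Q κ H X) : Prov Q κ H Y := by
  obtain ⟨M, hM⟩ := h
  obtain ⟨N, hN⟩ := hX
  have := hM.app hN
  rw [lift_inst] at this
  exact ⟨_, this⟩

theorem ans_ty (hy : Hyp Q K κ) :
    ∀ b, AnsS Q K b → Ty Q (C0 Q κ) [] (atF b) (sort b) := by
  rintro b ⟨v, w, -, -, hr⟩
  exact ty_atF cb_c0 (hy.hN.rz _ _ _ hr).2 Wf.nil

theorem wr_ty (hy : Hyp Q K κ) {u v : S} {π : List (Bool × S)} (hπ : PV Q (AnsS Q K) u π v)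
    {Γ : List (Tm S)} {X : Tm S} (hX : Ty Q (C0 Q κ) Γ X (sort u)) :
    Ty Q (C0 Q κ) Γ (Wr atF π X) (sort v) :=
  Wr_ty hy.hN cb_c0 (ans_ty hy) hπ hX

theorem inc_ans (hy : Hyp Q K κ) (h : Inc Q K κ H) {b : S} (hb : AnsS Q K b) :
    Prov Q κ H (atF b) := by
  obtain ⟨t, ht, M, hM⟩ := h
  exact store hy.hN cb_cs hy.hR ht hb hM

theorem exf (hy : Hyp Q K κ) (h : Inc Q K κ H) {u v : S} {π : List (Bool × S)}
    (hπ : PV Q (AnsS Q K) u π v) (hp : par π = true) {X : Tm S}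
    (hX : Ty Q (C0 Q κ) [] X (sort u)) : Prov Q κ H (Wr atF π X) := by
  induction hπ with
  | nil => simp [par] at hp
  | cod h1 hr ih =>
    have ht := wr_ty hy (PV.cod h1 hr) hX
    exact klam ht (ih (by simpa [par] using hp))
  | @dom π v b w h1 hr hb _ =>
    have ht := wr_ty hy (PV.dom h1 hr hb) hX
    exact klam (Y := atF b) ht (inc_ans hy h hb)

theorem duality (hy : Hyp Q K κ) {u v : S} {π : List (Bool × S)}
    (hπ : PV Q (AnsS Q K) u π v) {X : Tm S} (hX : Ty Q (C0 Q κ) [] X (sort u))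
    (hH : AllPure Q κ H) :
    (par π = false → (Prov Q κ H X → Prov Q κ H (Wr atF π X)) ∧
      (Inc Q K κ (insert X H) → Inc Q K κ (insert (Wr atF π X) H))) ∧
    (par π = true → (Prov Q κ H X → Inc Q K κ (insert (Wr atF π X) H)) ∧
      (Inc Q K κ (insert X H) → Prov Q κ H (Wr atF π X))) := by
  induction hπ with
  | nil => exact ⟨fun _ => ⟨id, id⟩, fun h => by simp [par] at h⟩
  | @cod π v a w h1 hr ih =>
    have ht := wr_ty hy (PV.cod h1 hr) hX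
    have hY : Pure Q κ (Wr atF π X) := ⟨_, wr_ty hy h1 hX⟩
    have hP : Prov Q κ H (Wr atF π X) → Prov Q κ H (Wr atF ((false, a) :: π) X) := klam ht
    have hI : Inc Q K κ (insert (Wr atF π X) H) →
        Inc Q K κ (insert (Wr atF ((false, a) :: π) X) H) := by
      intro h
      refine cut hy (hH.insert ⟨_, ht⟩) hY ?_ (h.mono ?_)
      · exact mp (prov_hyp ⟨_, ht⟩ (Set.mem_insert _ _))
          ⟨_, ty_dum cb_cs (hy.hN.rz _ _ _ hr).1 Wf.nil⟩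
      · exact Set.insert_subset_insert (Set.subset_insert _ _)
    have hp : par ((false, a) :: π) = par π := by simp [par]
    rw [hp]
    exact ⟨fun h => ⟨fun x => hP ((ih.1 h).1 x), fun x => hI ((ih.1 h).2 x)⟩,
      fun h => ⟨fun x => hI ((ih.2 h).1 x), fun x => hP ((ih.2 h).2 x)⟩⟩
  | @dom π v b w h1 hr hb ih =>
    have ht := wr_ty hy (PV.dom h1 hr hb) hX
    have hY : Pure Q κ (Wr atF π X) := ⟨_, wr_ty hy h1 hX⟩
    have hP : Prov Q κ H (Wr atF π X) → Inc Q K κ (insert (Wr atF ((true, b) :: π) X) H) := by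
      intro h
      exact ⟨b, hb, mp (Y := atF b) (prov_hyp ⟨_, ht⟩ (Set.mem_insert _ _))
        (h.mono (Set.subset_insert _ _))⟩
    have hI : Inc Q K κ (insert (Wr atF π X) H) → Prov Q κ H (Wr atF ((true, b) :: π) X) := by
      intro h
      exact ded (Y := atF b) hy hH hY ⟨_, ans_ty hy b hb⟩ ht (inc_ans hy h hb)
    have hp : par ((true, b) :: π) = !par π := by simp [par]
    rw [hp]
    exact ⟨fun h => ⟨fun x => hI ((ih.2 (by simpa using h)).1 x),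
        fun x => hP ((ih.2 (by simpa using h)).2 x)⟩,
      fun h => ⟨fun x => hP ((ih.1 (by simpa using h)).1 x),
        fun x => hI ((ih.1 (by simpa using h)).2 x)⟩⟩

/-- Paths for the connectives. -/
structure Dat (Q : Sys S) (K : S → Prop) (q : ℕ → S) where
  o : S
  a : S
  b : S
  c : S
  e1 : List (Bool × S)
  o2 : List (Bool × S)
  e3 : List (Bool × S)
  s2 : ℕ → S
  s3 : ℕ → S
  od : ℕ → List (Bool × S)
  ev : ℕ → List (Bool × S)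
  tp : S → List (Bool × S)
  fp : S → List (Bool × S)
  hr : Q.rule a b c
  he1 : PV Q (AnsS Q K) o e1 a ∧ par e1 = false
  ho2 : PV Q (AnsS Q K) o o2 b ∧ par o2 = true
  he3 : PV Q (AnsS Q K) c e3 o ∧ par e3 = false
  hq : ∀ i, Q.rule (q i) (s2 i) (s3 i)
  hod : ∀ i, PV Q (AnsS Q K) o (od i) (s2 i) ∧ par (od i) = true
  hev : ∀ i, PV Q (AnsS Q K) (s3 i) (ev i) o ∧ par (ev i) = false
  htp : ∀ s, K s → PV Q (AnsS Q K) o (tp s) s ∧ par (tp s) = false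
  hfp : ∀ s, K s → PV Q (AnsS Q K) s (fp s) o ∧ par (fp s) = false

theorem exists_dat (hR : Rich Q K) {q : ℕ → S}
    (hq : ∀ i, ∃ s₂ s₃, Q.rule (q i) s₂ s₃ ∧ K s₂ ∧ K s₃) : Nonempty (Dat Q K q) := by
  obtain ⟨⟨a, b, c, hr, ha, hb, hc⟩, hp⟩ := hR
  choose s2 s3 hq h2 h3 using hq
  have hp' : ∀ u v p, ∃ π, K u → K v → PV Q (AnsS Q K) u π v ∧ par π = p := by
    intro u v p
    by_cases h : K u ∧ K v
    · obtain ⟨π, hπ⟩ := hp u v p h.1 h.2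
      exact ⟨π, fun _ _ => hπ⟩
    · exact ⟨[], fun h1 h2 => absurd ⟨h1, h2⟩ h⟩
  choose f hf using hp'
  exact ⟨⟨a, a, b, c, f a a false, f a b true, f c a false, s2, s3, fun i => f a (s2 i) true,
    fun i => f (s3 i) a false, fun s => f a s false, fun s => f s a false, hr, hf _ _ _ ha ha,
    hf _ _ _ ha hb, hf _ _ _ hc ha, hq, fun i => hf _ _ _ ha (h2 i), fun i => hf _ _ _ (h3 i) ha,
    fun s hs => hf _ _ _ ha hs, fun s hs => hf _ _ _ hs ha⟩⟩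

variable {q : ℕ → S}

def Dat.nand (d : Dat Q K q) (φ ψ : Tm S) : Tm S :=
  Wr atF d.e3 (pi (Wr atF d.e1 φ) (lift (Wr atF d.o2 ψ)))
def Dat.alln (d : Dat Q K q) (i : ℕ) (A φ : Tm S) : Tm S :=
  Wr atF (d.ev i) (pi A (Wr atF (d.od i) φ))

variable (d : Dat Q K q)

theorem nand_core (hy : Hyp Q K κ) {Γ : List (Tm S)} {φ ψ : Tm S}
    (hφ : Ty Q (C0 Q κ) Γ φ (sort d.o)) (hψ : Ty Q (C0 Q κ) Γ ψ (sort d.o)) :
    Ty Q (C0 Q κ) Γ (pi (Wr atF d.e1 φ) (lift (Wr atF d.o2 ψ))) (sort d.c) :=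
  Ty.pi (wr_ty hy d.he1.1 hφ) ((wr_ty hy d.ho2.1 hψ).weak (wr_ty hy d.he1.1 hφ)) d.hr

theorem nand_ty (hy : Hyp Q K κ) {Γ : List (Tm S)} {φ ψ : Tm S}
    (hφ : Ty Q (C0 Q κ) Γ φ (sort d.o)) (hψ : Ty Q (C0 Q κ) Γ ψ (sort d.o)) :
    Ty Q (C0 Q κ) Γ (d.nand φ ψ) (sort d.o) :=
  wr_ty hy d.he3.1 (nand_core d hy hφ hψ)

theorem alln_core (hy : Hyp Q K κ) {i : ℕ} {Γ : List (Tm S)} {A φ : Tm S}
    (hA : Ty Q (C0 Q κ) Γ A (sort (q i))) (hφ : Ty Q (C0 Q κ) (A :: Γ) φ (sort d.o)) :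
    Ty Q (C0 Q κ) Γ (pi A (Wr atF (d.od i) φ)) (sort (d.s3 i)) :=
  Ty.pi hA (wr_ty hy (d.hod i).1 hφ) (d.hq i)

theorem alln_ty (hy : Hyp Q K κ) {i : ℕ} {Γ : List (Tm S)} {A φ : Tm S}
    (hA : Ty Q (C0 Q κ) Γ A (sort (q i))) (hφ : Ty Q (C0 Q κ) (A :: Γ) φ (sort d.o)) :
    Ty Q (C0 Q κ) Γ (d.alln i A φ) (sort d.o) :=
  wr_ty hy (d.hev i).1 (alln_core d hy hA hφ)

theorem nand_left (hy : Hyp Q K κ) (hH : AllPure Q κ H) {φ ψ : Tm S}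
    (hφ : Ty Q (C0 Q κ) [] φ (sort d.o)) (hψ : Ty Q (C0 Q κ) [] ψ (sort d.o))
    (h : Inc Q K κ (insert φ H)) : Prov Q κ H (d.nand φ ψ) := by
  refine ((duality hy d.he3.1 (nand_core d hy hφ hψ) hH).1 d.he3.2).1 ?_
  refine ded hy hH ⟨_, wr_ty hy d.he1.1 hφ⟩ ⟨_, wr_ty hy d.ho2.1 hψ⟩ (nand_core d hy hφ hψ) ?_
  exact exf hy (((duality hy d.he1.1 hφ hH).1 d.he1.2).2 h) d.ho2.1 d.ho2.2 hψ

theorem nand_right (hy : Hyp Q K κ) (hH : AllPure Q κ H) {φ ψ : Tm S}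
    (hφ : Ty Q (C0 Q κ) [] φ (sort d.o)) (hψ : Ty Q (C0 Q κ) [] ψ (sort d.o))
    (h : Inc Q K κ (insert ψ H)) : Prov Q κ H (d.nand φ ψ) := by
  refine ((duality hy d.he3.1 (nand_core d hy hφ hψ) hH).1 d.he3.2).1 ?_
  exact klam (nand_core d hy hφ hψ) (((duality hy d.ho2.1 hψ hH).2 d.ho2.2).2 h)

theorem nand_ref (hy : Hyp Q K κ) (hH : AllPure Q κ H) {φ ψ : Tm S}
    (hφ : Ty Q (C0 Q κ) [] φ (sort d.o)) (hψ : Ty Q (C0 Q κ) [] ψ (sort d.o))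
    (h : Prov Q κ H φ) (h' : Prov Q κ H ψ) : Inc Q K κ (insert (d.nand φ ψ) H) := by
  refine ((duality hy d.he3.1 (nand_core d hy hφ hψ) hH).1 d.he3.2).2 ?_
  have hc : Pure Q κ (pi (Wr atF d.e1 φ) (lift (Wr atF d.o2 ψ))) := ⟨_, nand_core d hy hφ hψ⟩
  refine cut hy (hH.insert hc) ⟨_, wr_ty hy d.ho2.1 hψ⟩ ?_ ?_
  · exact mp (prov_hyp hc (Set.mem_insert _ _))
      ((((duality hy d.he1.1 hφ hH).1 d.he1.2).1 h).mono (Set.subset_insert _ _))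
  · exact (((duality hy d.ho2.1 hψ hH).2 d.ho2.2).1 h').mono
      (Set.insert_subset_insert (Set.subset_insert _ _))

/-- The Henkin witness. -/
def wit (κ : ℕ → Tm S) (i : ℕ) (φ : Tm S) : Tm S := con (κ i) (lam (var i) φ)

def Dat.hen (d : Dat Q K q) (κ : ℕ → Tm S) (x : ℕ × Tm S) : Tm S :=
  d.nand (d.nand (inst x.2 (wit κ x.1 x.2)) (inst x.2 (wit κ x.1 x.2)))
    (d.nand (d.alln x.1 (κ x.1) x.2) (d.alln x.1 (κ x.1) x.2))

theorem wit_ty (hy : Hyp Q K κ) (i : ℕ) (φ : Tm S) : Ty Q (C0 Q κ) [] (wit κ i φ) (κ i) :=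
  c0_ty hy (Or.inr ⟨i, φ, rfl, rfl⟩)

theorem hen_ty (hy : Hyp Q K κ) (hκ : ∀ i, Ty Q (Cb Q) [] (κ i) (sort (q i))) {x : ℕ × Tm S}
    (hx : Ty Q (C0 Q κ) [κ x.1] x.2 (sort d.o)) : Ty Q (C0 Q κ) [] (d.hen κ x) (sort d.o) := by
  have h1 : Ty Q (C0 Q κ) [] (inst x.2 (wit κ x.1 x.2)) (sort d.o) := hx.inst (wit_ty hy _ _)
  have h2 := alln_ty d hy ((hκ x.1).monoC cb_c0) hx
  exact nand_ty d hy (nand_ty d hy h1 h1) (nand_ty d hy h2 h2)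

theorem vis_wr {C : Tm S → Tm S → Prop} (hC : ∀ s t, (t = var 0 ∨ t = var 1) → C (sort s) t)
    (π : List (Bool × S)) {X : Tm S} (h : Vis C X) : Vis C (Wr atF π X) := by
  induction π with
  | nil => exact h
  | cons x π ih =>
    obtain ⟨b, a⟩ := x
    cases b
    · exact ⟨hC _ _ (Or.inl rfl), vis_ren.2 ih⟩
    · exact ⟨ih, hC _ _ (Or.inr rfl)⟩

def sz : Tm S → ℕ
  | var _ => 1
  | sort _ => 1
  | app M N => sz M + sz N + 1
  | lam M N => sz M + sz N + 1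
  | pi M N => sz M + sz N + 1
  | con M N => sz M + sz N + 1

theorem fresh_of_sz (X t M : Tm S) (h : sz M ≤ sz t) : Fresh X t M := by
  unfold Fresh
  induction M with
  | var n => trivial
  | sort s => trivial
  | app M N ihM ihN =>
    simp only [sz] at h
    exact ⟨ihM (by omega), ihN (by omega)⟩
  | lam M N ihM ihN =>
    simp only [sz] at h
    exact ⟨ihM (by omega), ihN (by omega)⟩
  | pi M N ihM ihN =>
    simp only [sz] at h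
    exact ⟨ihM (by omega), ihN (by omega)⟩
  | con A s _ _ =>
    rintro ⟨-, rfl⟩
    simp only [sz] at h
    omega

theorem fresh_wr (X : Tm S) (i : ℕ) (φ : Tm S) (π : List (Bool × S)) {Y : Tm S}
    (h : Fresh X (lam (var i) φ) Y) : Fresh X (lam (var i) φ) (Wr atF π Y) := by
  refine vis_wr ?_ π h
  rintro s t (rfl | rfl) <;> simp

theorem fresh_cb (X : Tm S) (i : ℕ) (φ : Tm S) {Y : Tm S} (h : Vis (Cb Q) Y) :
    Fresh X (lam (var i) φ) Y := by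
  refine h.mono ?_
  rintro A t hc ⟨-, rfl⟩
  rcases cb_tag hc with h | h <;> simp at h

theorem fresh_nand (X : Tm S) (i : ℕ) (φ : Tm S) {Y Y' : Tm S}
    (h : Fresh X (lam (var i) φ) Y) (h' : Fresh X (lam (var i) φ) Y') :
    Fresh X (lam (var i) φ) (d.nand Y Y') :=
  fresh_wr X i φ _ ⟨fresh_wr X i φ _ h, vis_ren.2 (fresh_wr X i φ _ h')⟩

theorem fresh_hen (hκ : ∀ i, Ty Q (Cb Q) [] (κ i) (sort (q i))) {x y : ℕ × Tm S} (hne : y ≠ x)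
    (hs : sz y.2 ≤ sz x.2) : Fresh (κ x.1) (lam (var x.1) x.2) (d.hen κ y) := by
  have hφ : Fresh (κ x.1) (lam (var x.1) x.2) y.2 :=
    fresh_of_sz _ _ _ (by simp only [sz]; omega)
  have h1 : Fresh (κ x.1) (lam (var x.1) x.2) (inst y.2 (wit κ y.1 y.2)) := by
    refine Vis.subst hφ ?_
    intro n
    cases n with
    | zero =>
      rintro ⟨-, h⟩
      injection h with h1 h2
      injection h1 with h1
      exact hne (Prod.ext h1 h2)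
    | succ n => trivial
  have h2 : Fresh (κ x.1) (lam (var x.1) x.2) (d.alln y.1 (κ y.1) y.2) :=
    fresh_wr _ _ _ _ ⟨fresh_cb _ _ _ (hκ y.1).vis, fresh_wr _ _ _ _ hφ⟩
  exact fresh_nand d _ _ _ (fresh_nand d _ _ _ h1 h1) (fresh_nand d _ _ _ h2 h2)

theorem hen_step (hy : Hyp Q K κ) (hκ : ∀ i, Ty Q (Cb Q) [] (κ i) (sort (q i)))
    (hH : AllPure Q κ H) {x : ℕ × Tm S} (hx : Ty Q (C0 Q κ) [κ x.1] x.2 (sort d.o))
    (hf : ∀ A ∈ H, Fresh (κ x.1) (lam (var x.1) x.2) A)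
    (h : Inc Q K κ (insert (d.hen κ x) H)) : Inc Q K κ H := by
  have h1 : Ty Q (C0 Q κ) [] (inst x.2 (wit κ x.1 x.2)) (sort d.o) := hx.inst (wit_ty hy _ _)
  have hk := (hκ x.1).monoC (cb_c0 (κ := κ))
  have h2 := alln_ty d hy hk hx
  have hh : Pure Q κ (d.hen κ x) := ⟨_, hen_ty d hy hκ hx⟩
  have r2 : Inc Q K κ (insert (d.alln x.1 (κ x.1) x.2) H) := by
    have hH' := hH.insert ⟨_, h2⟩
    refine cut hy hH' hh ?_ (h.mono (Set.insert_subset_insert (Set.subset_insert _ _)))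
    have hp := prov_hyp (H := insert (d.alln x.1 (κ x.1) x.2) H) ⟨_, h2⟩ (Set.mem_insert _ _)
    exact nand_right d hy hH' (nand_ty d hy h1 h1) (nand_ty d hy h2 h2)
      (nand_ref d hy hH' h2 h2 hp hp)
  have r1 : Inc Q K κ (insert (inst x.2 (wit κ x.1 x.2)) H) := by
    have hH' := hH.insert ⟨_, h1⟩
    refine cut hy hH' hh ?_ (h.mono (Set.insert_subset_insert (Set.subset_insert _ _)))
    have hp := prov_hyp (H := insert (inst x.2 (wit κ x.1 x.2)) H) ⟨_, h1⟩ (Set.mem_insert _ _)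
    exact nand_left d hy hH' (nand_ty d hy h1 h1) (nand_ty d hy h2 h2)
      (nand_ref d hy hH' h1 h1 hp hp)
  refine cut hy hH ⟨_, h2⟩ ?_ r2
  refine ((duality hy (d.hev x.1).1 (alln_core d hy hk hx) hH).1 (d.hev x.1).2).1 ?_
  obtain ⟨M, hM⟩ := ((duality hy (d.hod x.1).1 h1 hH).2 (d.hod x.1).2).2 r1
  have e : Wr atF (d.od x.1) (inst x.2 (wit κ x.1 x.2)) =
      inst (Wr atF (d.od x.1) x.2) (con (κ x.1) (lam (var x.1) x.2)) :=
    (Wr_subst bd_atF _ _ _).symm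
  rw [e] at hM
  have := Ty.gen (C := CS Q κ H) (C' := CS Q κ H) (t := lam (var x.1) x.2) (hk.monoC c0_cs) ?_ hM
  · rw [cabs_inst (fresh_wr _ _ _ _ (fresh_of_sz _ _ _ (by simp only [sz]; omega)))
      (wr_ty hy (d.hod x.1).1 hx).bd.1] at this
    exact ⟨_, Ty.lam this ((alln_core d hy hk hx).monoC c0_cs)⟩
  · intro A r hc _
    rcases hc with hc | ⟨rfl, hA⟩
    · exact ⟨(c0_ty hy hc).monoC c0_cs, fresh_cb _ _ _ (c0_vis hy hc)⟩
    · exact ⟨hyp_ty (hH A hA) hA, hf A hA⟩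

theorem base_con (hy : Hyp Q K κ) (hst : ∀ i, SortTail (κ i)) : ¬ Inc Q K κ ∅ := by
  rintro ⟨t, -, M, hM⟩
  refine base_consistent hy.hN ?_ t M hM
  rintro A r (((⟨s, -, rfl, -⟩ | ⟨-, h, -⟩) | ⟨i, φ, rfl, -⟩) | ⟨-, h⟩)
  · exact Or.inr (SortTail.sort s)
  · exact Or.inl h
  · exact Or.inr (hst i)
  · exact h.elim

theorem hen_fin (hy : Hyp Q K κ) (hκ : ∀ i, Ty Q (Cb Q) [] (κ i) (sort (q i)))
    (hst : ∀ i, SortTail (κ i)) (F : Finset (ℕ × Tm S))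
    (hF : ∀ x ∈ F, Ty Q (C0 Q κ) [κ x.1] x.2 (sort d.o)) : ¬ Inc Q K κ (d.hen κ '' F) := by
  classical
  induction F using Finset.induction_on_max_value (fun x : ℕ × Tm S => sz x.2) with
  | empty => simpa using base_con hy hst
  | insert x F hx hmax ih =>
    intro h
    rw [Finset.coe_insert, Set.image_insert_eq] at h
    refine ih (fun y hy => hF y (Finset.mem_insert_of_mem hy)) ?_
    refine hen_step d hy hκ ?_ (hF x (Finset.mem_insert_self _ _)) ?_ h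
    · rintro _ ⟨y, hyF, rfl⟩
      exact ⟨_, hen_ty d hy hκ (hF y (Finset.mem_insert_of_mem hyF))⟩
    · rintro _ ⟨y, hyF, rfl⟩
      exact fresh_hen d hκ (fun e => hx (e ▸ hyF)) (hmax y hyF)

theorem ty_finite {Γ : List (Tm S)} {M T : Tm S} (h : Ty Q (CS Q κ H) Γ M T) :
    ∃ F, F ⊆ H ∧ F.Finite ∧ Ty Q (CS Q κ F) Γ M T := by
  have two : ∀ {F G : Set (Tm S)} {Γ Γ' : List (Tm S)} {M T M' T' : Tm S},
      Ty Q (CS Q κ F) Γ M T → Ty Q (CS Q κ G) Γ' M' T' →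
      Ty Q (CS Q κ (F ∪ G)) Γ M T ∧ Ty Q (CS Q κ (F ∪ G)) Γ' M' T' := fun h h' =>
    ⟨h.monoC (cs_mono Set.subset_union_left), h'.monoC (cs_mono Set.subset_union_right)⟩
  induction h with
  | ax h => exact ⟨∅, Set.empty_subset _, Set.finite_empty, Ty.ax h⟩
  | var _ ih =>
    obtain ⟨F, h1, h2, h3⟩ := ih
    exact ⟨F, h1, h2, Ty.var h3⟩
  | weak _ _ ih ih' =>
    obtain ⟨F, h1, h2, h3⟩ := ih
    obtain ⟨G, g1, g2, g3⟩ := ih'
    exact ⟨F ∪ G, Set.union_subset h1 g1, h2.union g2, Ty.weak (two h3 g3).1 (two h3 g3).2⟩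
  | pi _ _ hr ih ih' =>
    obtain ⟨F, h1, h2, h3⟩ := ih
    obtain ⟨G, g1, g2, g3⟩ := ih'
    exact ⟨F ∪ G, Set.union_subset h1 g1, h2.union g2, Ty.pi (two h3 g3).1 (two h3 g3).2 hr⟩
  | lam _ _ ih ih' =>
    obtain ⟨F, h1, h2, h3⟩ := ih
    obtain ⟨G, g1, g2, g3⟩ := ih'
    exact ⟨F ∪ G, Set.union_subset h1 g1, h2.union g2, Ty.lam (two h3 g3).1 (two h3 g3).2⟩
  | app _ _ ih ih' =>
    obtain ⟨F, h1, h2, h3⟩ := ih
    obtain ⟨G, g1, g2, g3⟩ := ih'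
    exact ⟨F ∪ G, Set.union_subset h1 g1, h2.union g2, Ty.app (two h3 g3).1 (two h3 g3).2⟩
  | conv _ _ hc ih ih' =>
    obtain ⟨F, h1, h2, h3⟩ := ih
    obtain ⟨G, g1, g2, g3⟩ := ih'
    exact ⟨F ∪ G, Set.union_subset h1 g1, h2.union g2, Ty.conv (two h3 g3).1 (two h3 g3).2 hc⟩
  | @conT A t s hc _ ih =>
    obtain ⟨F, h1, h2, h3⟩ := ih
    rcases hc with hc | ⟨rfl, hA⟩
    · exact ⟨F, h1, h2, Ty.conT (Or.inl hc) h3⟩
    · exact ⟨insert A F, Set.insert_subset hA h1, h2.insert A,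
        Ty.conT (Or.inr ⟨rfl, Set.mem_insert _ _⟩) (h3.monoC (cs_mono (Set.subset_insert _ _)))⟩
  | @conS t s hc hz =>
    rcases hc with hc | ⟨rfl, hA⟩
    · exact ⟨∅, Set.empty_subset _, Set.finite_empty, Ty.conS (Or.inl hc) hz⟩
    · exact ⟨{sort s}, Set.singleton_subset_iff.2 hA, Set.finite_singleton _,
        Ty.conS (Or.inr ⟨rfl, rfl⟩) hz⟩

theorem inc_finite (h : Inc Q K κ H) : ∃ F, F ⊆ H ∧ F.Finite ∧ Inc Q K κ F := by
  obtain ⟨t, ht, M, hM⟩ := h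
  obtain ⟨F, h1, h2, h3⟩ := ty_finite hM
  exact ⟨F, h1, h2, t, ht, M, h3⟩

theorem exists_max (hy : Hyp Q K κ) (hκ : ∀ i, Ty Q (Cb Q) [] (κ i) (sort (q i)))
    (hst : ∀ i, SortTail (κ i)) :
    ∃ H, AllPure Q κ H ∧ ¬ Inc Q K κ H ∧
      (∀ x : ℕ × Tm S, Ty Q (C0 Q κ) [κ x.1] x.2 (sort d.o) → d.hen κ x ∈ H) ∧
      ∀ X, Pure Q κ X → ¬ Inc Q K κ (insert X H) → X ∈ H := by
  have h0 : d.hen κ '' {x | Ty Q (C0 Q κ) [κ x.1] x.2 (sort d.o)} ∈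
      {H | AllPure Q κ H ∧ ¬ Inc Q K κ H} := by
    refine ⟨?_, fun h => ?_⟩
    · rintro _ ⟨x, hx, rfl⟩
      exact ⟨_, hen_ty d hy hκ hx⟩
    · obtain ⟨F, h1, h2, h3⟩ := inc_finite h
      obtain ⟨G, g1, g2, rfl⟩ := (Set.Finite.exists_subset_finite_image_eq h2 h1)
      refine hen_fin d hy hκ hst g2.toFinset (fun x hx => g1 (g2.mem_toFinset.1 hx)) ?_
      simpa using h3
  obtain ⟨H, hsub, hmax⟩ := zorn_subset_nonempty {H | AllPure Q κ H ∧ ¬ Inc Q K κ H} (by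
    intro c hc hch hne
    refine ⟨⋃₀ c, ⟨?_, fun h => ?_⟩, fun s hs => Set.subset_sUnion_of_mem hs⟩
    · rintro X ⟨s, hs, hX⟩
      exact (hc hs).1 X hX
    · obtain ⟨F, h1, h2, h3⟩ := inc_finite h
      obtain ⟨s, hs, hF⟩ := hch.directedOn.exists_mem_subset_of_finite_of_subset_sUnion hne h2 h1
      exact (hc hs).2 (h3.mono hF)) _ h0
  refine ⟨H, hmax.prop.1, hmax.prop.2, fun x hx => hsub ⟨x, hx, rfl⟩, fun X hX hi => ?_⟩
  exact hmax.le_of_ge (y := insert X H) ⟨hmax.prop.1.insert hX, hi⟩ (Set.subset_insert _ _)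
    (Set.mem_insert _ _)

end Truth

open Truth in
theorem exists_logic {Q : Sys S} {K : S → Prop} (hN : Nice Q) (hR : Rich Q K) (κ : ℕ → Tm S)
    (q : ℕ → S) (hκ : ∀ i, Ty Q (Cb Q) [] (κ i) (sort (q i))) (hst : ∀ i, SortTail (κ i))
    (hq : ∀ i, ∃ s₂ s₃, Q.rule (q i) s₂ s₃ ∧ K s₂ ∧ K s₃) : Nonempty (Logic Q K κ q) := by
  have hy : Hyp Q K κ := ⟨hN, hR, fun i => ⟨_, hκ i⟩⟩
  obtain ⟨d⟩ := exists_dat hR hq
  obtain ⟨H, hH, hcon, hhen, hmax⟩ := exists_max d hy hκ hst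
  have ref_of : ∀ {X s}, Ty Q (C0 Q κ) [] X (sort s) → ¬ Prov Q κ H X →
      Inc Q K κ (insert X H) := by
    intro X s hX hp
    by_contra hi
    exact hp (prov_hyp ⟨s, hX⟩ (hmax X ⟨s, hX⟩ hi))
  have not_ref : ∀ {X s}, Ty Q (C0 Q κ) [] X (sort s) → Prov Q κ H X →
      ¬ Inc Q K κ (insert X H) := fun hX hp hi => hcon (cut hy hH ⟨_, hX⟩ hp hi)
  have even : ∀ {u v π X}, PV Q (AnsS Q K) u π v → par π = false →
      Ty Q (C0 Q κ) [] X (sort u) → (Prov Q κ H (Wr atF π X) ↔ Prov Q κ H X) := by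
    intro u v π X hπ hp hX
    refine ⟨fun h => ?_, ((duality hy hπ hX hH).1 hp).1⟩
    by_contra hn
    exact not_ref (wr_ty hy hπ hX) h (((duality hy hπ hX hH).1 hp).2 (ref_of hX hn))
  have hnand : ∀ {φ ψ}, Ty Q (C0 Q κ) [] φ (sort d.o) → Ty Q (C0 Q κ) [] ψ (sort d.o) →
      (Prov Q κ H (d.nand φ ψ) ↔ ¬ (Prov Q κ H φ ∧ Prov Q κ H ψ)) := by
    intro φ ψ hφ hψ
    refine ⟨fun h h' => not_ref (nand_ty d hy hφ hψ) h (nand_ref d hy hH hφ hψ h'.1 h'.2),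
      fun h => ?_⟩
    by_cases h1 : Prov Q κ H φ
    · exact nand_right d hy hH hφ hψ (ref_of hψ (fun h2 => h ⟨h1, h2⟩))
    · exact nand_left d hy hH hφ hψ (ref_of hφ h1)
  refine ⟨⟨C0 Q κ, d.o, Prov Q κ H, d.nand, d.alln, fun s φ => Wr atF (d.tp s) φ,
    fun s φ => Wr atF (d.fp s) φ, cb_c0, ?_, ?_, nand_ty d hy, hnand, ?_, alln_ty d hy, ?_,
    fun s φ σ => Wr_subst bd_atF _ _ _, fun s φ σ => Wr_subst bd_atF _ _ _,
    fun s _ _ h => Wr_conv _ _ h, fun s _ _ h => Wr_conv _ _ h,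
    fun hs h => wr_ty hy (d.htp _ hs).1 h, fun hs h => wr_ty hy (d.hfp _ hs).1 h, ?_⟩⟩
  · rintro X Y s s' - hY hc ⟨M, hM⟩
    exact ⟨M, hM.conv (hY.monoC c0_cs) hc⟩
  · intro φ ψ σ
    simp only [Dat.nand, Wr_subst bd_atF, subst_pi, lift_subst_up]
  · intro i A φ σ
    simp only [Dat.alln, Wr_subst bd_atF, subst_pi]
  · intro i φ hφ
    have hk := (hκ i).monoC (cb_c0 (κ := κ))
    constructor
    · intro h c hc hp
      obtain ⟨M, hM⟩ := (even (d.hev i).1 (d.hev i).2 (alln_core d hy hk hφ)).1 h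
      have h1 : Ty Q (C0 Q κ) [] (inst φ c) (sort d.o) := hφ.inst hc
      have h2 := hM.app (hc.monoC c0_cs)
      have e : inst (Wr atF (d.od i) φ) c = Wr atF (d.od i) (inst φ c) := Wr_subst bd_atF _ _ _
      rw [e] at h2
      exact not_ref (wr_ty hy (d.hod i).1 h1) ⟨_, h2⟩
        (((duality hy (d.hod i).1 h1 hH).2 (d.hod i).2).1 hp)
    · intro h
      by_contra hn
      have h1 : Ty Q (C0 Q κ) [] (inst φ (wit κ i φ)) (sort d.o) := hφ.inst (wit_ty hy _ _)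
      have h2 := alln_ty d hy hk hφ
      have h3 := prov_hyp ⟨_, hen_ty d hy hκ (x := (i, φ)) hφ⟩ (hhen (i, φ) hφ)
      refine (hnand (nand_ty d hy h1 h1) (nand_ty d hy h2 h2)).1 h3 ⟨?_, ?_⟩
      · exact (hnand h1 h1).2 (fun hh => h _ (wit_ty hy _ _) hh.1)
      · exact (hnand h2 h2).2 (fun hh => hn hh.1)
  · intro s φ hs hφ
    rw [even (d.hfp s hs).1 (d.hfp s hs).2 (wr_ty hy (d.htp s hs).1 hφ),
      even (d.htp s hs).1 (d.htp s hs).2 hφ]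

end Vale.Agent.P340
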