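import Vale.Agent.P340.Conf

/-! P340: typed theory (substitution, generation, subject reduction, uniqueness). -/

namespace Vale.Agent.P340

universe u
open Tm
variable {S : Type u} {Q : Sys S} {C : Tm S → Tm S → Prop}

theorem Ty.mono {Q' : Sys S} {C' : Tm S → Tm S → Prop} (ha : ∀ a b, Q.ax a b → Q'.ax a b)
    (hr : ∀ a b c, Q.rule a b c → Q'.rule a b c) (hz : ∀ a, Q.rz a → Q'.rz a)
    (hC : ∀ A t, C A t → C' A t) {Γ : List (Tm S)} {M T : Tm S} (h : Ty Q C Γ M T) :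
    Ty Q' C' Γ M T := by
  induction h with
  | ax h => exact Ty.ax (ha _ _ h)
  | var _ ih => exact Ty.var ih
  | weak _ _ ih ih' => exact Ty.weak ih ih'
  | pi _ _ h ih ih' => exact Ty.pi ih ih' (hr _ _ _ h)
  | lam _ _ ih ih' => exact Ty.lam ih ih'
  | app _ _ ih ih' => exact Ty.app ih ih'
  | conv _ _ h ih ih' => exact Ty.conv ih ih' h
  | conT h _ ih => exact Ty.conT (hC _ _ h) ih
  | conS h h' => exact Ty.conS (hC _ _ h) (hz _ h')

theorem Ty.monoC {C' : Tm S → Tm S → Prop} (hC : ∀ A t, C A t → C' A t) {Γ : List (Tm S)}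
    {M T : Tm S} (h : Ty Q C Γ M T) : Ty Q C' Γ M T :=
  h.mono (fun _ _ h => h) (fun _ _ _ h => h) (fun _ h => h) hC

theorem Ty.toAll {Γ : List (Tm S)} {M T : Tm S} (h : Ty Q C Γ M T) : Ty Q allC Γ M T :=
  h.monoC (fun _ _ _ => trivial)

theorem Ty.wf {Γ : List (Tm S)} {M T : Tm S} (h : Ty Q C Γ M T) : Wf Q C Γ := by
  induction h with
  | ax h => exact Wf.nil
  | var h _ => exact Wf.cons h
  | weak _ h _ _ => exact Wf.cons h
  | pi _ _ _ ih _ => exact ih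
  | lam _ _ _ ih => exact ih
  | app _ _ ih _ => exact ih
  | conv _ _ _ ih _ => exact ih
  | conT _ _ _ => exact Wf.nil
  | conS _ _ => exact Wf.nil

namespace Typ

theorem bd_ren {k l : ℕ} {M : Tm S} {f : ℕ → ℕ} (h : Bd k M) (hf : ∀ n, n < k → f n < l) :
    Bd l (ren f M) := by
  have hup : ∀ {k l : ℕ} {f : ℕ → ℕ}, (∀ n, n < k → f n < l) →
      ∀ n, n < k + 1 → upr f n < l + 1 := by
    intro k l f h n hn
    cases n with
    | zero => exact Nat.succ_pos _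
    | succ n => exact Nat.succ_lt_succ (h n (by omega))
  induction M generalizing k l f with
  | var n => exact hf n h
  | sort s => trivial
  | con A t => trivial
  | app M N ihM ihN => exact ⟨ihM h.1 hf, ihN h.2 hf⟩
  | lam M N ihM ihN => exact ⟨ihM h.1 hf, ihN h.2 (hup hf)⟩
  | pi M N ihM ihN => exact ⟨ihM h.1 hf, ihN h.2 (hup hf)⟩

theorem bd_lift {k : ℕ} {M : Tm S} (h : Bd k M) : Bd (k + 1) (lift M) :=
  bd_ren h fun _ hn => Nat.succ_lt_succ hn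

theorem bd_subst {k l : ℕ} {M : Tm S} {σ : ℕ → Tm S} (h : Bd k M)
    (hσ : ∀ n, n < k → Bd l (σ n)) : Bd l (subst σ M) := by
  have hup : ∀ {k l : ℕ} {σ : ℕ → Tm S}, (∀ n, n < k → Bd l (σ n)) →
      ∀ n, n < k + 1 → Bd (l + 1) (up σ n) := by
    intro k l σ h n hn
    cases n with
    | zero => exact Nat.succ_pos _
    | succ n => exact bd_lift (h n (by omega))
  induction M generalizing k l σ with
  | var n => exact hσ n h
  | sort s => trivial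
  | con A t => trivial
  | app M N ihM ihN => exact ⟨ihM h.1 hσ, ihN h.2 hσ⟩
  | lam M N ihM ihN => exact ⟨ihM h.1 hσ, ihN h.2 (hup hσ)⟩
  | pi M N ihM ihN => exact ⟨ihM h.1 hσ, ihN h.2 (hup hσ)⟩

theorem bd_inst {k : ℕ} {M N : Tm S} (h : Bd (k + 1) M) (hN : Bd k N) : Bd k (inst M N) :=
  bd_subst h fun n hn => by
    cases n with
    | zero => exact hN
    | succ n => exact Nat.lt_of_succ_lt_succ hn

theorem lift_eq_var {M : Tm S} {n : ℕ} (h : lift M = var n) : ∃ m, M = var m ∧ n = m + 1 := by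
  cases M <;> cases h
  exact ⟨_, rfl, rfl⟩

theorem lift_eq_sort {M : Tm S} {s : S} (h : lift M = sort s) : M = sort s := by
  cases M <;> cases h
  rfl

theorem lift_eq_con {M A t : Tm S} (h : lift M = con A t) : M = con A t := by
  cases M <;> cases h
  rfl

theorem lift_eq_app {M A B : Tm S} (h : lift M = app A B) :
    ∃ A' B', M = app A' B' ∧ A = lift A' ∧ B = lift B' := by
  cases M <;> cases h
  exact ⟨_, _, rfl, rfl, rfl⟩

theorem lift_eq_pi {M A B : Tm S} (h : lift M = pi A B) :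
    ∃ A' B', M = pi A' B' ∧ A = lift A' ∧ B = ren (upr Nat.succ) B' := by
  cases M <;> cases h
  exact ⟨_, _, rfl, rfl, rfl⟩

theorem lift_eq_lam {M A B : Tm S} (h : lift M = lam A B) :
    ∃ A' B', M = lam A' B' ∧ A = lift A' ∧ B = ren (upr Nat.succ) B' := by
  cases M <;> cases h
  exact ⟨_, _, rfl, rfl, rfl⟩

theorem subst_lift (σ : ℕ → Tm S) (M : Tm S) :
    subst σ (lift M) = subst (fun n => σ (n + 1)) M := subst_ren _ _ _

theorem gen_pi_dom {Γ : List (Tm S)} {A B T : Tm S} (h : Ty Q C Γ (pi A B) T) :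
    ∃ s, Ty Q C Γ A (sort s) := by
  generalize hX : pi A B = X at h
  induction h generalizing A B with
  | pi h _ _ _ _ => cases hX; exact ⟨_, h⟩
  | weak _ h' ih _ =>
    obtain ⟨A', B', rfl, rfl, rfl⟩ := lift_eq_pi hX.symm
    obtain ⟨s, hs⟩ := ih rfl
    exact ⟨s, Ty.weak hs h'⟩
  | conv _ _ _ ih _ => exact ih hX
  | _ => cases hX

end Typ

open Typ

theorem Ty.bd {Γ : List (Tm S)} {M T : Tm S} (h : Ty Q C Γ M T) :
    Bd Γ.length M ∧ Bd Γ.length T := by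
  induction h with
  | ax h => exact ⟨trivial, trivial⟩
  | var _ ih => exact ⟨Nat.succ_pos _, bd_lift ih.1⟩
  | weak _ _ ih _ => exact ⟨bd_lift ih.1, bd_lift ih.2⟩
  | pi _ _ _ ih ih' => exact ⟨⟨ih.1, ih'.1⟩, trivial⟩
  | lam _ _ ih ih' => exact ⟨⟨ih'.1.1, ih.1⟩, ih'.1⟩
  | app _ _ ih ih' => exact ⟨⟨ih.1, ih'.1⟩, bd_inst ih.2.2 ih'.1⟩
  | conv _ _ _ ih ih' => exact ⟨ih.1, ih'.1⟩
  | conT _ _ ih => exact ⟨trivial, ih.1⟩
  | conS _ _ => exact ⟨trivial, trivial⟩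

theorem Ty.closed {M T : Tm S} (h : Ty Q C [] M T) : Bd 0 M := h.bd.1
theorem Ty.closedT {M T : Tm S} (h : Ty Q C [] M T) : Bd 0 T := h.bd.2

theorem Lk.unique {Γ : List (Tm S)} {n : ℕ} {A B : Tm S} (h : Lk Γ n A) (h' : Lk Γ n B) :
    A = B := by
  induction h generalizing B with
  | zero A Γ => cases h'; rfl
  | succ B' _ ih =>
    cases h' with
    | succ _ g => rw [ih g]
theorem Lk.lt {Γ : List (Tm S)} {n : ℕ} {A : Tm S} (h : Lk Γ n A) : n < Γ.length := by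
  induction h with
  | zero A Γ => exact Nat.succ_pos _
  | succ B _ ih => exact Nat.succ_lt_succ ih
theorem lk_of_lt {Γ : List (Tm S)} {n : ℕ} (h : n < Γ.length) : ∃ A, Lk Γ n A := by
  induction Γ generalizing n with
  | nil => cases h
  | cons B Γ ih =>
    cases n with
    | zero => exact ⟨_, Lk.zero _ _⟩
    | succ n =>
      obtain ⟨A, hA⟩ := ih (Nat.lt_of_succ_lt_succ h)
      exact ⟨_, Lk.succ _ hA⟩
theorem lk_cons_inv {Γ : List (Tm S)} {B A : Tm S} {n : ℕ} (h : Lk (B :: Γ) n A) :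
    (n = 0 ∧ A = lift B) ∨ ∃ m A', n = m + 1 ∧ A = lift A' ∧ Lk Γ m A' := by
  cases h with
  | zero => exact Or.inl ⟨rfl, rfl⟩
  | succ _ g => exact Or.inr ⟨_, _, rfl, rfl, g⟩

theorem Wf.head {Γ : List (Tm S)} {A : Tm S} (h : Wf Q C (A :: Γ)) : ∃ s, Ty Q C Γ A (sort s) := by
  cases h with
  | cons h => exact ⟨_, h⟩
theorem Wf.tail {Γ : List (Tm S)} {A : Tm S} (h : Wf Q C (A :: Γ)) : Wf Q C Γ :=
  h.head.elim fun _ h => h.wf
theorem Ty.weak' {Γ : List (Tm S)} {M T A : Tm S} (h : Ty Q C Γ M T) (hA : Wf Q C (A :: Γ)) :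
    Ty Q C (A :: Γ) (lift M) (lift T) := hA.head.elim fun _ h' => Ty.weak h h'

theorem Ty.varLk {Γ : List (Tm S)} {n : ℕ} {A : Tm S} (hΓ : Wf Q C Γ) (h : Lk Γ n A) :
    Ty Q C Γ (Tm.var n) A := by
  induction h with
  | zero A Γ => exact hΓ.head.elim fun _ h => Ty.var h
  | succ B _ ih => exact (ih hΓ.tail).weak' hΓ
theorem Wf.lk_sort {Γ : List (Tm S)} {n : ℕ} {A : Tm S} (hΓ : Wf Q C Γ) (h : Lk Γ n A) :
    ∃ s, Ty Q C Γ A (sort s) := by
  induction h with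
  | zero A Γ => exact hΓ.head.elim fun s h => ⟨s, h.weak' hΓ⟩
  | succ B _ ih => exact (ih hΓ.tail).elim fun s h => ⟨s, h.weak' hΓ⟩

theorem Typ.of_closed {Δ : List (Tm S)} {M T : Tm S} (h : Ty Q C [] M T) (hΔ : Wf Q C Δ) :
    Ty Q C Δ M T := by
  induction Δ with
  | nil => exact h
  | cons A Δ ih =>
    have := (ih hΔ.tail).weak' hΔ
    rwa [lift_closed h.closed, lift_closed h.closedT] at this

/-- A judgment stays true over a longer context added at the bottom. -/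
theorem Ty.append {Γ Δ : List (Tm S)} {M T : Tm S} (h : Ty Q C Γ M T) (hΔ : Wf Q C Δ) :
    Ty Q C (Γ ++ Δ) M T := by
  induction h with
  | ax h => exact of_closed (Ty.ax h) hΔ
  | var _ ih => exact Ty.var ih
  | weak _ _ ih ih' => exact Ty.weak ih ih'
  | pi _ _ h ih ih' => exact Ty.pi ih ih' h
  | lam _ _ ih ih' => exact Ty.lam ih ih'
  | app _ _ ih ih' => exact Ty.app ih ih'
  | conv _ _ h ih ih' => exact Ty.conv ih ih' h
  | conT h h' _ => exact of_closed (Ty.conT h h') hΔ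
  | conS h h' => exact of_closed (Ty.conS h h') hΔ
theorem Ty.ofClosed {Δ : List (Tm S)} {M T : Tm S} (h : Ty Q C [] M T) (hΔ : Wf Q C Δ) :
    Ty Q C Δ M T := h.append hΔ
theorem Ty.axWf {Γ : List (Tm S)} {s t : S} (hΓ : Wf Q C Γ) (h : Q.ax s t) :
    Ty Q C Γ (sort s) (sort t) := (Ty.ax h).ofClosed hΓ

theorem SubT.tail {Γ Δ : List (Tm S)} {σ : ℕ → Tm S} {A : Tm S} (h : SubT Q C Δ σ (A :: Γ)) :
    SubT Q C Δ (fun n => σ (n + 1)) Γ :=
  ⟨h.1, fun n B hB => by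
    have := h.2 _ _ (Lk.succ A hB)
    rwa [subst_lift] at this⟩

theorem Typ.sub_up {Γ Δ : List (Tm S)} {σ : ℕ → Tm S} {A : Tm S} {s : S}
    (h : SubT Q C Δ σ Γ) (hA : Ty Q C Δ (subst σ A) (sort s)) :
    SubT Q C (subst σ A :: Δ) (up σ) (A :: Γ) := by
  refine ⟨Wf.cons hA, fun n B hB => ?_⟩
  rcases lk_cons_inv hB with ⟨rfl, rfl⟩ | ⟨m, B', rfl, rfl, hB'⟩
  · rw [lift_subst_up]; exact Ty.var hA
  · rw [lift_subst_up]; exact Ty.weak (h.2 _ _ hB') hA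

/-- The substitution lemma. -/
theorem Ty.subst {Γ Δ : List (Tm S)} {M T : Tm S} {σ : ℕ → Tm S} (h : Ty Q C Γ M T)
    (hσ : SubT Q C Δ σ Γ) : Ty Q C Δ (subst σ M) (subst σ T) := by
  induction h generalizing Δ σ with
  | ax h => exact Ty.axWf hσ.1 h
  | var _ _ => exact hσ.2 _ _ (Lk.zero _ _)
  | weak _ _ ih _ => rw [subst_lift, subst_lift]; exact ih hσ.tail
  | pi _ _ h ih ih' => exact Ty.pi (ih hσ) (ih' (sub_up hσ (ih hσ))) h
  | lam _ _ ih ih' =>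
    obtain ⟨s, hs⟩ := gen_pi_dom (ih' hσ)
    exact Ty.lam (ih (sub_up hσ hs)) (ih' hσ)
  | app _ _ ih ih' => rw [inst_subst']; exact Ty.app (ih hσ) (ih' hσ)
  | conv _ _ h ih ih' => exact Ty.conv (ih hσ) (ih' hσ) (Conv.subst h _)
  | conT h h' _ => rw [subst_closed h'.closed]; exact (Ty.conT h h').ofClosed hσ.1
  | conS h h' => exact (Ty.conS h h').ofClosed hσ.1

theorem SubT.id {Γ : List (Tm S)} (h : Wf Q C Γ) : SubT Q C Γ Tm.var Γ :=
  ⟨h, fun n A hA => by rw [subst_id]; exact Ty.varLk h hA⟩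
theorem SubT.nil {Δ : List (Tm S)} (h : Wf Q C Δ) (σ : ℕ → Tm S) : SubT Q C Δ σ [] :=
  ⟨h, fun n A hA => by cases hA⟩
theorem SubT.shift {Γ : List (Tm S)} {A : Tm S} (h : Wf Q C (A :: Γ)) :
    SubT Q C (A :: Γ) (fun n => Tm.var (n + 1)) Γ := (SubT.id h).tail
theorem SubT.cons {Γ Δ : List (Tm S)} {σ : ℕ → Tm S} {A N : Tm S} (h : SubT Q C Δ σ Γ)
    (hN : Ty Q C Δ N (subst σ A)) : SubT Q C Δ (scons N σ) (A :: Γ) := by
  refine ⟨h.1, fun n B hB => ?_⟩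
  rcases lk_cons_inv hB with ⟨rfl, rfl⟩ | ⟨m, B', rfl, rfl, hB'⟩
  · rw [lift_subst_scons]; exact hN
  · rw [lift_subst_scons]; exact h.2 _ _ hB'
/-- Going under a binder, with a convertible new domain. -/
theorem SubT.up {Γ Δ : List (Tm S)} {σ : ℕ → Tm S} {A A' : Tm S} {s s' : S}
    (h : SubT Q C Δ σ Γ) (hA : Ty Q C Γ A (sort s)) (hA' : Ty Q C Δ A' (sort s'))
    (hc : Conv A' (subst σ A)) : SubT Q C (A' :: Δ) (up σ) (A :: Γ) := by
  refine ⟨Wf.cons hA', fun n B hB => ?_⟩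
  rcases lk_cons_inv hB with ⟨rfl, rfl⟩ | ⟨m, B', rfl, rfl, hB'⟩
  · rw [lift_subst_up]
    exact Ty.conv (Ty.var hA') (Ty.weak (hA.subst h) hA') (Conv.lift hc)
  · rw [lift_subst_up]; exact Ty.weak (h.2 _ _ hB') hA'
theorem SubT.comp {Γ Δ Θ : List (Tm S)} {σ τ : ℕ → Tm S} (hτ : SubT Q C Δ τ Γ)
    (hσ : SubT Q C Θ σ Δ) : SubT Q C Θ (fun n => subst σ (τ n)) Γ :=
  ⟨hσ.1, fun n A hA => by rw [← subst_subst]; exact (hτ.2 n A hA).subst hσ⟩
theorem Ty.inst {Γ : List (Tm S)} {A M T N : Tm S} (h : Ty Q C (A :: Γ) M T)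
    (hN : Ty Q C Γ N A) : Ty Q C Γ (inst M N) (inst T N) :=
  h.subst ((SubT.id hN.wf).cons (by rwa [subst_id]))
/-- Context conversion. -/
theorem Ty.ctx_conv {Γ : List (Tm S)} {A A' M T : Tm S} {s : S} (h : Ty Q C (A :: Γ) M T)
    (hA' : Ty Q C Γ A' (sort s)) (hc : Conv A A') : Ty Q C (A' :: Γ) M T := by
  obtain ⟨s', hA⟩ := h.wf.head
  have := h.subst ((SubT.id hA.wf).up hA hA' (by rw [subst_id]; exact Conv.symm' hc))
  rwa [up_var, subst_id, subst_id] at this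
/-- Weakening under one binder. -/
theorem Ty.weak_under {Γ : List (Tm S)} {A B M T : Tm S} (h : Ty Q C (A :: Γ) M T)
    (hB : Wf Q C (B :: Γ)) :
    Ty Q C (lift A :: B :: Γ) (ren (upr Nat.succ) M) (ren (upr Nat.succ) T) := by
  obtain ⟨s', hA⟩ := h.wf.head
  have := h.subst ((SubT.shift hB).up hA (hA.weak' hB) (by rw [lift, ren_eq_subst]; exact Conv.rfl))
  rwa [up_ren, ← ren_eq_subst, ← ren_eq_subst] at this

theorem gen_var {Γ : List (Tm S)} {n : ℕ} {T : Tm S} (h : Ty Q C Γ (var n) T) :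
    ∃ A, Lk Γ n A ∧ Conv T A := by
  generalize hX : var n = X at h
  induction h generalizing n with
  | var _ _ => cases hX; exact ⟨_, Lk.zero _ _, Conv.rfl⟩
  | weak _ _ ih _ =>
    obtain ⟨m, rfl, rfl⟩ := lift_eq_var hX.symm
    obtain ⟨A, h1, h2⟩ := ih rfl
    exact ⟨_, Lk.succ _ h1, Conv.lift h2⟩
  | conv _ _ hc ih _ =>
    obtain ⟨A, h1, h2⟩ := ih hX
    exact ⟨A, h1, Conv.trans' (Conv.symm' hc) h2⟩
  | _ => cases hX
theorem gen_sort {Γ : List (Tm S)} {s : S} {T : Tm S} (h : Ty Q C Γ (sort s) T) :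
    ∃ t, Q.ax s t ∧ Conv T (sort t) := by
  generalize hX : sort s = X at h
  induction h with
  | ax h => cases hX; exact ⟨_, h, Conv.rfl⟩
  | weak _ _ ih _ =>
    obtain ⟨t, h1, h2⟩ := ih (lift_eq_sort hX.symm).symm
    exact ⟨t, h1, Conv.lift h2⟩
  | conv _ _ hc ih _ =>
    obtain ⟨A, h1, h2⟩ := ih hX
    exact ⟨A, h1, Conv.trans' (Conv.symm' hc) h2⟩
  | _ => cases hX
theorem gen_con {Γ : List (Tm S)} {A t T : Tm S} (h : Ty Q C Γ (con A t) T) :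
    C A t ∧ Conv T A ∧ Ty Q C [] (con A t) A ∧
      ((∃ s, Ty Q C [] A (sort s)) ∨ ∃ s, A = sort s ∧ Q.rz s) := by
  generalize hX : con A t = X at h
  induction h with
  | conT h h' _ => cases hX; exact ⟨h, Conv.rfl, Ty.conT h h', Or.inl ⟨_, h'⟩⟩
  | conS h h' => cases hX; exact ⟨h, Conv.rfl, Ty.conS h h', Or.inr ⟨_, rfl, h'⟩⟩
  | weak _ _ ih _ =>
    obtain rfl := lift_eq_con hX.symm
    obtain ⟨h1, h2, h3, h4⟩ := ih rfl
    refine ⟨h1, ?_, h3, h4⟩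
    have := Conv.lift h2
    rwa [lift_closed h3.closedT] at this
  | conv _ _ hc ih _ =>
    obtain ⟨h1, h2, h3⟩ := ih hX
    exact ⟨h1, Conv.trans' (Conv.symm' hc) h2, h3⟩
  | _ => cases hX
theorem gen_pi {Γ : List (Tm S)} {A B T : Tm S} (h : Ty Q C Γ (pi A B) T) :
    ∃ s₁ s₂ s₃, Q.rule s₁ s₂ s₃ ∧ Ty Q C Γ A (sort s₁) ∧ Ty Q C (A :: Γ) B (sort s₂) ∧
      Conv T (sort s₃) := by
  generalize hX : pi A B = X at h
  induction h generalizing A B with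
  | pi h h' hr _ _ => cases hX; exact ⟨_, _, _, hr, h, h', Conv.rfl⟩
  | weak _ h' ih _ =>
    obtain ⟨A', B', rfl, rfl, rfl⟩ := lift_eq_pi hX.symm
    obtain ⟨s₁, s₂, s₃, h1, h2, h3, h4⟩ := ih rfl
    exact ⟨s₁, s₂, s₃, h1, Ty.weak h2 h', h3.weak_under (Wf.cons h'), Conv.lift h4⟩
  | conv _ _ hc ih _ =>
    obtain ⟨s₁, s₂, s₃, h1, h2, h3, h4⟩ := ih hX
    exact ⟨s₁, s₂, s₃, h1, h2, h3, Conv.trans' (Conv.symm' hc) h4⟩
  | _ => cases hX
theorem gen_pi_sort {Γ : List (Tm S)} {A B : Tm S} {s : S} (h : Ty Q C Γ (pi A B) (sort s)) :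
    ∃ s₁ s₂, Q.rule s₁ s₂ s ∧ Ty Q C Γ A (sort s₁) ∧ Ty Q C (A :: Γ) B (sort s₂) := by
  obtain ⟨s₁, s₂, s₃, h1, h2, h3, h4⟩ := gen_pi h
  obtain rfl := conv_sort_inj h4
  exact ⟨s₁, s₂, h1, h2, h3⟩
theorem gen_lam {Γ : List (Tm S)} {A M T : Tm S} (h : Ty Q C Γ (lam A M) T) :
    ∃ B s, Ty Q C (A :: Γ) M B ∧ Ty Q C Γ (pi A B) (sort s) ∧ Conv T (pi A B) := by
  generalize hX : lam A M = X at h
  induction h generalizing A M with
  | lam h h' _ _ => cases hX; exact ⟨_, _, h, h', Conv.rfl⟩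
  | weak _ h' ih _ =>
    obtain ⟨A', B', rfl, rfl, rfl⟩ := lift_eq_lam hX.symm
    obtain ⟨B, s, h1, h2, h3⟩ := ih rfl
    exact ⟨_, s, h1.weak_under (Wf.cons h'), Ty.weak h2 h', Conv.lift h3⟩
  | conv _ _ hc ih _ =>
    obtain ⟨B, s, h1, h2, h3⟩ := ih hX
    exact ⟨B, s, h1, h2, Conv.trans' (Conv.symm' hc) h3⟩
  | _ => cases hX
theorem gen_app {Γ : List (Tm S)} {M N T : Tm S} (h : Ty Q C Γ (app M N) T) :
    ∃ A B, Ty Q C Γ M (pi A B) ∧ Ty Q C Γ N A ∧ Conv T (inst B N) := by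
  generalize hX : app M N = X at h
  induction h generalizing M N with
  | app h h' _ _ => cases hX; exact ⟨_, _, h, h', Conv.rfl⟩
  | weak _ h' ih _ =>
    obtain ⟨M', N', rfl, rfl, rfl⟩ := lift_eq_app hX.symm
    obtain ⟨A, B, h1, h2, h3⟩ := ih rfl
    refine ⟨_, _, Ty.weak h1 h', Ty.weak h2 h', ?_⟩
    have := Conv.lift h3
    rwa [lift, lift, inst_ren] at this
  | conv _ _ hc ih _ =>
    obtain ⟨A, B, h1, h2, h3⟩ := ih hX
    exact ⟨A, B, h1, h2, Conv.trans' (Conv.symm' hc) h3⟩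
  | _ => cases hX

end Vale.Agent.P340
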