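import Vale.Agent.P340.Typ

/-! P340: typed theory, second part (subject reduction, uniqueness, sorts of types). -/

namespace Vale.Agent.P340

universe u
open Tm
variable {S : Type u} {Q : Sys S} {C : Tm S → Tm S → Prop}

theorem TypB.hred_step {M M' A N : Tm S} (h : HRed M M' A N) : Step M M' := by
  induction h with
  | beta A P N => exact Step.beta A P N
  | app R _ ih => exact ih.appL R

/-- Correctness of types. -/
theorem Ty.type {Γ : List (Tm S)} {M T : Tm S} (h : Ty Q C Γ M T) :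
    (∃ s, T = sort s) ∨ ∃ s, Ty Q C Γ T (sort s) := by
  induction h with
  | ax _ => exact Or.inl ⟨_, rfl⟩
  | var h _ => exact Or.inr ⟨_, h.weak h⟩
  | weak _ hA ih _ =>
    rcases ih with ⟨s, rfl⟩ | ⟨s, hs⟩
    · exact Or.inl ⟨s, rfl⟩
    · exact Or.inr ⟨s, hs.weak hA⟩
  | pi _ _ _ _ _ => exact Or.inl ⟨_, rfl⟩
  | lam _ h _ _ => exact Or.inr ⟨_, h⟩
  | app _ hN ih _ =>
    rcases ih with ⟨s, hs⟩ | ⟨s, hs⟩
    · cases hs
    · obtain ⟨_, s₂, _, _, hB⟩ := gen_pi_sort hs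
      exact Or.inr ⟨s₂, hB.inst hN⟩
  | conv _ h _ _ _ => exact Or.inr ⟨_, h⟩
  | conT _ h _ => exact Or.inr ⟨_, h⟩
  | conS _ _ => exact Or.inl ⟨_, rfl⟩
theorem Ty.pi_type {Γ : List (Tm S)} {M A B : Tm S} (h : Ty Q C Γ M (Tm.pi A B)) :
    ∃ s, Ty Q C Γ (Tm.pi A B) (sort s) := h.type.resolve_left fun ⟨_, hs⟩ => by cases hs

/-- Subject reduction. -/
theorem Ty.step {Γ : List (Tm S)} {M M' T : Tm S} (h : Ty Q C Γ M T) (hs : Step M M') :
    Ty Q C Γ M' T := by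
  induction h generalizing M' with
  | ax _ => cases hs
  | var _ _ => cases hs
  | weak _ hA ih _ =>
    obtain ⟨M₁, h1, rfl⟩ := step_ren_inv hs
    exact (ih h1).weak hA
  | pi hA hB hr ihA ihB =>
    cases hs with
    | piL _ h1 => exact (ihA h1).pi (hB.ctx_conv (ihA h1) h1.conv) hr
    | piR _ h1 => exact hA.pi (ihB h1) hr
  | lam hM hP ihM ihP =>
    cases hs with
    | lamL _ h1 =>
      have h2 := ihP (Step.piL _ h1)
      obtain ⟨_, _, _, hA, _⟩ := gen_pi_sort h2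
      exact ((hM.ctx_conv hA h1.conv).lam h2).conv hP (Step.piL _ h1).conv.symm'
    | lamR _ h1 => exact (ihM h1).lam hP
  | app hM hN ihM ihN =>
    obtain ⟨s, hP⟩ := hM.pi_type
    obtain ⟨_, _, _, _, hB⟩ := gen_pi_sort hP
    cases hs with
    | beta =>
      obtain ⟨B₀, s₀, h1, h2, h3⟩ := gen_lam hM
      obtain ⟨_, _, _, hA, _⟩ := gen_pi_sort h2
      obtain ⟨h4, h5⟩ := conv_pi_inj h3
      exact (h1.inst (hN.conv hA h4)).conv (hB.inst hN) (h5.symm'.inst Conv.rfl)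
    | appL _ h1 => exact (ihM h1).app hN
    | appR _ h1 => exact (hM.app (ihN h1)).conv (hB.inst hN) (Conv.rfl.inst h1.conv.symm')
  | conv _ hB hc ih _ => exact (ih hs).conv hB hc
  | conT _ _ _ => cases hs
  | conS _ _ => cases hs
theorem Ty.red {Γ : List (Tm S)} {M M' T : Tm S} (h : Ty Q C Γ M T) (hs : Red M M') :
    Ty Q C Γ M' T := by
  induction hs with
  | refl => exact h
  | tail _ h1 ih => exact ih.step h1
theorem Ty.red_type {Γ : List (Tm S)} {M T T' : Tm S} (h : Ty Q C Γ M T) (hs : Red T T') :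
    Ty Q C Γ M T' := by
  rcases h.type with ⟨s, rfl⟩ | ⟨s, hT⟩
  · rwa [red_sort_inv hs]
  · exact h.conv (hT.red hs) hs.conv
theorem Ty.conv_sort {Γ : List (Tm S)} {M T : Tm S} {s : S} (h : Ty Q C Γ M T)
    (hc : Conv T (sort s)) : Ty Q C Γ M (sort s) := by
  obtain ⟨P, h1, h2⟩ := hc.join
  exact red_sort_inv h2 ▸ h.red_type h1
theorem not_ty_lam_sort {Γ : List (Tm S)} {A M : Tm S} {s : S} :
    ¬ Ty Q C Γ (lam A M) (sort s) := fun h => by
  obtain ⟨_, _, _, _, hc⟩ := gen_lam h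
  exact not_conv_sort_pi hc

/-- Spines with a variable or constant head have unique types. -/
theorem VarHd.ty_unique {y : ℕ} {Γ : List (Tm S)} {M T T' : Tm S} (hM : VarHd y M)
    (h : Ty Q C Γ M T) (h' : Ty Q C Γ M T') : Conv T T' := by
  induction hM generalizing T T' with
  | var =>
    obtain ⟨A, h1, h2⟩ := gen_var h
    obtain ⟨A', h3, h4⟩ := gen_var h'
    exact h2.trans' (h1.unique h3 ▸ h4.symm')
  | app N _ ih =>
    obtain ⟨A, B, h1, _, h2⟩ := gen_app h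
    obtain ⟨A', B', h3, _, h4⟩ := gen_app h'
    exact h2.trans' (((conv_pi_inj (ih h1 h3)).2.inst Conv.rfl).trans' h4.symm')
theorem ConHd.ty_unique {Γ : List (Tm S)} {M T T' : Tm S} (hM : ConHd M)
    (h : Ty Q C Γ M T) (h' : Ty Q C Γ M T') : Conv T T' := by
  induction hM generalizing T T' with
  | con A t => exact (gen_con h).2.1.trans' (gen_con h').2.1.symm'
  | app N _ ih =>
    obtain ⟨A, B, h1, _, h2⟩ := gen_app h
    obtain ⟨A', B', h3, _, h4⟩ := gen_app h'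
    exact h2.trans' (((conv_pi_inj (ih h1 h3)).2.inst Conv.rfl).trans' h4.symm')
/-- A typed neutral term is a sort, a product, or a spine with a variable or constant head. -/
theorem Neut.cases_ty {Γ : List (Tm S)} {M T : Tm S} (hM : Neut M) (h : Ty Q C Γ M T) :
    (∃ s, M = Tm.sort s) ∨ (∃ A B, M = Tm.pi A B) ∨ (∃ y, VarHd y M) ∨ ConHd M := by
  induction hM generalizing T with
  | var n => exact Or.inr (Or.inr (Or.inl ⟨n, VarHd.var⟩))
  | sort s => exact Or.inl ⟨s, rfl⟩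
  | pi A B => exact Or.inr (Or.inl ⟨A, B, rfl⟩)
  | con A t => exact Or.inr (Or.inr (Or.inr (ConHd.con A t)))
  | app N _ ih =>
    obtain ⟨A, B, h1, _, _⟩ := gen_app h
    rcases ih h1 with ⟨s, rfl⟩ | ⟨A', B', rfl⟩ | ⟨y, hy⟩ | hc
    · obtain ⟨_, _, h2⟩ := gen_sort h1
      exact (not_conv_sort_pi h2.symm').elim
    · obtain ⟨_, _, _, _, _, _, h2⟩ := gen_pi h1
      exact (not_conv_sort_pi h2.symm').elim
    · exact Or.inr (Or.inr (Or.inl ⟨y, hy.app N⟩))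
    · exact Or.inr (Or.inr (Or.inr (hc.app N)))
/-- A neutral term of product type is a spine with a variable or constant head. -/
theorem Neut.cases_pi {Γ : List (Tm S)} {M A B : Tm S} (hM : Neut M)
    (h : Ty Q C Γ M (Tm.pi A B)) : (∃ y, VarHd y M) ∨ ConHd M := by
  rcases hM.cases_ty h with ⟨s, rfl⟩ | ⟨A', B', rfl⟩ | h1
  · obtain ⟨_, _, h2⟩ := gen_sort h
    exact (not_conv_sort_pi h2.symm').elim
  · obtain ⟨_, _, _, _, _, _, h2⟩ := gen_pi h
    exact (not_conv_sort_pi h2.symm').elim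
  · exact h1
/-- A normal type is a sort, a product, or a spine with a variable or constant head. -/
theorem Normal.cases_sort {Γ : List (Tm S)} {U : Tm S} {s : S} (hU : Normal U)
    (h : Ty Q C Γ U (sort s)) :
    (∃ t, U = sort t) ∨ (∃ A B, U = pi A B) ∨ (∃ y, VarHd y U) ∨ ConHd U := by
  rcases shape U with ⟨A, P, rfl⟩ | h1 | ⟨_, _, _, h1⟩
  · exact (not_ty_lam_sort h).elim
  · exact h1.cases_ty h
  · exact (hU _ (TypB.hred_step h1)).elim
/-- The domain of a normal function is unique. -/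
theorem Normal.dom_unique {Γ : List (Tm S)} {M A B A' B' : Tm S} (hM : Normal M)
    (h : Ty Q C Γ M (pi A B)) (h' : Ty Q C Γ M (pi A' B')) : Conv A A' := by
  rcases shape M with ⟨A₀, P, rfl⟩ | h1 | ⟨_, _, _, h1⟩
  · obtain ⟨_, _, _, _, h2⟩ := gen_lam h
    obtain ⟨_, _, _, _, h3⟩ := gen_lam h'
    exact (conv_pi_inj h2).1.trans' (conv_pi_inj h3).1.symm'
  · rcases h1.cases_pi h with ⟨y, hy⟩ | hc
    · exact (conv_pi_inj (hy.ty_unique h h')).1
    · exact (conv_pi_inj (hc.ty_unique h h')).1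
  · exact (hM _ (TypB.hred_step h1)).elim
theorem HRed.ty_parts {Γ : List (Tm S)} {M M' A N T : Tm S} (hr : HRed M M' A N)
    (h : Ty Q C Γ M T) : (∃ s, Ty Q C Γ A (sort s)) ∧ ∃ B, Ty Q C Γ N B := by
  induction hr generalizing T with
  | beta A P N =>
    obtain ⟨A', _, h1, h2, _⟩ := gen_app h
    obtain ⟨_, _, _, h3, _⟩ := gen_lam h1
    obtain ⟨s, _, _, h4, _⟩ := gen_pi_sort h3
    exact ⟨⟨s, h4⟩, A', h2⟩
  | app R _ ih =>
    obtain ⟨_, _, h1, _, _⟩ := gen_app h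
    exact ih h1

/-! Sorts of types. -/

theorem HasS.conv {X : S → Prop} {Γ : List (Tm S)} {T T' : Tm S} (h : HasS Q X Γ T)
    (hc : Conv T T') : HasS Q X Γ T' := by
  obtain ⟨U, s, h1, h2, h3⟩ := h
  exact ⟨U, s, h1, hc.symm'.trans' h2, h3⟩
theorem HasS.mono {X Y : S → Prop} {Γ : List (Tm S)} {T : Tm S} (h : HasS Q X Γ T)
    (hXY : ∀ s, X s → Y s) : HasS Q Y Γ T := by
  obtain ⟨U, s, h1, h2, h3⟩ := h
  exact ⟨U, s, hXY s h1, h2, h3⟩
theorem HasS.of_ty {X : S → Prop} {Γ : List (Tm S)} {T : Tm S} {s : S}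
    (h : Ty Q allC Γ T (sort s)) (hs : X s) : HasS Q X Γ T := ⟨T, s, hs, Conv.rfl, h⟩
theorem HasS.subst {X : S → Prop} {Γ Δ : List (Tm S)} {T : Tm S} {σ : ℕ → Tm S}
    (h : HasS Q X Γ T) (hσ : SubT Q allC Δ σ Γ) : HasS Q X Δ (subst σ T) := by
  obtain ⟨U, s, h1, h2, h3⟩ := h
  exact ⟨_, s, h1, h2.subst σ, h3.subst hσ⟩
theorem HasS.normal {X : S → Prop} {Γ : List (Tm S)} {T : Tm S} (h : HasS Q X Γ T)
    (hT : Normal T) : ∃ s, X s ∧ Ty Q allC Γ T (sort s) := by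
  obtain ⟨U, s, h1, h2, h3⟩ := h
  exact ⟨s, h1, h3.red (hT.red_of_conv h2.symm')⟩
theorem HasS.sort_inv {X : S → Prop} {Γ : List (Tm S)} {s : S} (h : HasS Q X Γ (sort s)) :
    ∃ r, X r ∧ Q.ax s r := by
  obtain ⟨r, h1, h2⟩ := h.normal (normal_sort s)
  obtain ⟨t, h3, h4⟩ := gen_sort h2
  exact ⟨r, h1, conv_sort_inj h4 ▸ h3⟩
theorem TypB.pi_parts {X : S → Prop} {Γ : List (Tm S)} {A B : Tm S} (h : HasS Q X Γ (pi A B)) :
    ∃ A' B' s₁ s₂ s₃, Q.rule s₁ s₂ s₃ ∧ X s₃ ∧ Conv A A' ∧ Conv B B' ∧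
      Ty Q allC Γ A' (sort s₁) ∧ Ty Q allC (A' :: Γ) B' (sort s₂) := by
  obtain ⟨U, s, h1, h2, h3⟩ := h
  obtain ⟨P, h4, h5⟩ := h2.join
  obtain ⟨A', B', rfl, h6, h7⟩ := red_pi_inv h4
  obtain ⟨s₁, s₂, h8, h9, h10⟩ := gen_pi_sort (h3.red h5)
  exact ⟨A', B', s₁, s₂, s, h8, h1, h6.conv, h7.conv, h9, h10⟩
/-- Generation for products up to conversion, open form. -/
theorem HasS.pi_inv {X : S → Prop} {Γ : List (Tm S)} {A B : Tm S} {s : S}
    (h : HasS Q X Γ (pi A B)) (hA : Ty Q allC Γ A (sort s)) :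
    ∃ s₁ s₂ s₃, Q.rule s₁ s₂ s₃ ∧ X s₃ ∧ HasS Q (· = s₁) Γ A ∧ HasS Q (· = s₂) (A :: Γ) B := by
  obtain ⟨A', B', s₁, s₂, s₃, h1, h2, h3, h4, h5, h6⟩ := TypB.pi_parts h
  exact ⟨s₁, s₂, s₃, h1, h2, ⟨A', s₁, rfl, h3, h5⟩, B', s₂, rfl, h4, h6.ctx_conv hA h3.symm'⟩
/-- Generation for products up to conversion, closed instance form. -/
theorem HasS.pi_inst {X : S → Prop} {κ A B : Tm S} (h : HasS Q X [] κ) (hc : Conv κ (pi A B)) :
    ∃ s₁ s₂ s₃, Q.rule s₁ s₂ s₃ ∧ X s₃ ∧ HasS Q (· = s₁) [] A ∧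
      ∀ a, TyC Q a A → HasS Q (· = s₂) [] (inst B a) := by
  obtain ⟨A', B', s₁, s₂, s₃, h1, h2, h3, h4, h5, h6⟩ := TypB.pi_parts (h.conv hc)
  exact ⟨s₁, s₂, s₃, h1, h2, ⟨A', s₁, rfl, h3, h5⟩, fun a ⟨T, h7, h8⟩ =>
    ⟨_, s₂, rfl, h4.inst Conv.rfl, h6.inst (h8.conv h5 (h7.symm'.trans' h3))⟩⟩
/-- A type of a term that has a sort up to conversion has a sort. -/
theorem HasS.ty_of_type {X : S → Prop} {Γ : List (Tm S)} {M T : Tm S} (h : HasS Q X Γ T)
    (hM : Ty Q allC Γ M T) : ∃ s, Ty Q allC Γ T (sort s) := by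
  rcases hM.type with ⟨s, rfl⟩ | h1
  · obtain ⟨r, _, h1⟩ := h.sort_inv
    exact ⟨r, Ty.axWf hM.wf h1⟩
  · exact h1
/-- Sorts along a spine: if the type of the head has a sort in a set closed under passing from a
product sort to its codomain sort, so has the type of the spine. -/
theorem VarHd.hasS {X : S → Prop} (hX : ∀ a b c, Q.rule a b c → X c → X b) {y : ℕ}
    {Γ : List (Tm S)} {M T A : Tm S} (hM : VarHd y M) (h : Ty Q allC Γ M T) (hy : Lk Γ y A)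
    (hA : HasS Q X Γ A) : HasS Q X Γ T := by
  induction hM generalizing T with
  | var =>
    obtain ⟨A', h1, h2⟩ := gen_var h
    exact hA.conv (hy.unique h1 ▸ h2.symm')
  | app N _ ih =>
    obtain ⟨A₀, B₀, h1, h2, h3⟩ := gen_app h
    obtain ⟨_, h4⟩ := h1.pi_type
    obtain ⟨_, _, _, h5, _⟩ := gen_pi_sort h4
    obtain ⟨s₁, s₂, s₃, h6, h7, _, h8⟩ := (ih h1).pi_inv h5
    exact ((h8.subst ((SubT.id h.wf).cons (by rwa [subst_id]))).mono
      fun s hs => hs ▸ hX _ _ _ h6 h7).conv h3.symm'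

theorem TyC.of_ty {M T : Tm S} (h : Ty Q allC [] M T) : TyC Q M T := ⟨T, Conv.rfl, h⟩
theorem TyC.conv {M T T' : Tm S} (h : TyC Q M T) (hc : Conv T T') : TyC Q M T' := by
  obtain ⟨U, h1, h2⟩ := h
  exact ⟨U, hc.symm'.trans' h1, h2⟩
theorem TyC.ty {M T : Tm S} {s : S} (h : TyC Q M T) (hT : Ty Q allC [] T (sort s)) :
    Ty Q allC [] M T := by
  obtain ⟨U, h1, h2⟩ := h
  exact h2.conv hT h1.symm'
theorem TyC.ty_sort {M : Tm S} {s : S} (h : TyC Q M (sort s)) : Ty Q allC [] M (sort s) := by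
  obtain ⟨U, h1, h2⟩ := h
  exact h2.conv_sort h1.symm'
theorem TyC.red {M M' T : Tm S} (h : TyC Q M T) (hr : Red M M') : TyC Q M' T := by
  obtain ⟨U, h1, h2⟩ := h
  exact ⟨U, h1, h2.red hr⟩
/-- A closed function with a product type up to conversion has a typed product type. -/
theorem TyC.pi_ty {M A B : Tm S} (h : TyC Q M (pi A B)) :
    ∃ A' B', Conv A A' ∧ Conv B B' ∧ Ty Q allC [] M (pi A' B') := by
  obtain ⟨U, h1, h2⟩ := h
  obtain ⟨P, h3, h4⟩ := h1.join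
  obtain ⟨A', B', rfl, h5, h6⟩ := red_pi_inv h3
  exact ⟨A', B', h5.conv, h6.conv, h2.red_type h4⟩
theorem TyC.app {M N A B : Tm S} (h : TyC Q M (pi A B)) (hN : TyC Q N A) :
    TyC Q (app M N) (inst B N) := by
  obtain ⟨A', B', h1, h2, h3⟩ := h.pi_ty
  obtain ⟨_, h4⟩ := h3.pi_type
  obtain ⟨_, _, _, h5, _⟩ := gen_pi_sort h4
  exact ⟨_, h2.inst Conv.rfl, h3.app ((hN.conv h1).ty h5)⟩
theorem TyC.lam_dom {A M A' B' : Tm S} (h : TyC Q (lam A M) (pi A' B')) : Conv A A' := by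
  obtain ⟨U, h1, h2⟩ := h
  obtain ⟨_, _, _, _, h3⟩ := gen_lam h2
  exact (conv_pi_inj (h1.trans' h3)).1.symm'

end Vale.Agent.P340
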