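import Vale.Agent.P340.Kinds
import Vale.Agent.P340.Cand

/-! P340: semantic values for the polarized model. -/

namespace Vale.Agent.P340

universe u
open Tm
variable {S : Type u}

/-- Codes: encoded stacks (`nil`, `cons`), tables, and query nodes with small support. -/
inductive Ev (S : Type u) : Type (u + 1)
  | nil : Ev S
  | cons (a : Tm S) (h t : Ev S) : Ev S
  | tab (I : Type u) (key : I → Ev S) (val : I → Cand S) : Ev S
  | node (I : Type u) (pos : I → ℕ) (q : I → Ev S) (out : List (Tm S) → (I → Cand S) → Cand S) :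
      Ev S

instance : Inhabited (Ev S) := ⟨Ev.nil⟩

abbrev Val (S : Type u) : Type (u + 1) := Ev S ⊕ (Ev S → Cand S)
abbrev Stk (S : Type u) : Type (u + 1) := List (Tm S × Val S)
abbrev Beh (S : Type u) : Type (u + 1) := Stk S → Cand S

/-- The trivial value. -/
def triv : Val S := Sum.inl Ev.nil

def toEv : Val S → Ev S
  | Sum.inl e => e
  | Sum.inr _ => Ev.nil

def enc : Stk S → Ev S
  | [] => Ev.nil
  | x :: st => Ev.cons x.1 (toEv x.2) (enc st)

def dec : Ev S → Stk S
  | Ev.cons a h t => (a, Sum.inl h) :: dec t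
  | _ => []

open Classical in
noncomputable def obs : Val S → Ev S → Cand S
  | Sum.inr f, q => f q
  | Sum.inl (Ev.tab _ key val), q => if h : ∃ i, key i = q then val h.choose else Cand.top
  | Sum.inl _, _ => Cand.top

noncomputable def unpack : Val S → Beh S
  | Sum.inl (Ev.node _ pos q out), st =>
      out (st.map Prod.fst) (fun i => obs (st.getD (pos i) (var 0, triv)).2 (q i))
  | v, st => obs v (enc st)

open Classical in
noncomputable def tabOf (Ks : Set (Stk S)) (b : Beh S) : Val S :=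
  if _ : Small.{u} Ks then
    Sum.inl (Ev.tab (Shrink.{u} Ks) (fun i => enc ((equivShrink.{u} Ks).symm i).1)
      (fun i => b ((equivShrink.{u} Ks).symm i).1))
  else triv

open Classical in
noncomputable def fullOf (Ks : Set (Stk S)) (b : Beh S) : Val S :=
  Sum.inr (fun q => if dec q ∈ Ks then b (dec q) else Cand.top)

noncomputable def codeOf (Ks : Set (Stk S)) (b : Beh S) : Val S :=
  Sum.inl (Classical.epsilon (fun e : Ev S => ∀ st ∈ Ks, unpack (Sum.inl e) st = b st))

/-- Complete valid stacks for a closed kind, relative to value domains `W`. -/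
def ValidW (Q : Sys S) (K : S → Prop) (W : Tm S → Set (Val S)) : Tm S → Stk S → Prop
  | κ, [] => ∃ s, K s ∧ Conv κ (sort s)
  | κ, x :: st => ∃ C D, Conv κ (pi C D) ∧ Normal x.1 ∧ TyC Q x.1 C ∧
      (Reach Q K C → x.2 ∈ W C) ∧ (¬ Reach Q K C → x.2 = triv) ∧ ValidW Q K W (inst D x.1) st

open Classical in
noncomputable def FW (Q : Sys S) (K : S → Prop) (W : Tm S → Set (Val S)) (κ : Tm S) :
    Set (Val S) :=
  if Reach Q K κ ∧ DT Q K κ then
    if Cls Q K false κ then
      if Cls Q K true κ then Set.range (tabOf {st | ValidW Q K W κ st}) else Set.range Sum.inr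
    else Set.range Sum.inl
  else {triv}

open Classical in
/-- The value domains. -/
noncomputable def VV (Q : Sys S) (K : S → Prop) : Tm S → Set (Val S) :=
  if h : ∃ W, ∀ κ, W κ = FW Q K W κ then h.choose else fun _ => ∅

def Valid (Q : Sys S) (K : S → Prop) (κ : Tm S) (st : Stk S) : Prop := ValidW Q K (VV Q K) κ st

open Classical in
noncomputable def pack (Q : Sys S) (K : S → Prop) (κ : Tm S) (b : Beh S) : Val S :=
  if Reach Q K κ ∧ DT Q K κ then
    if Cls Q K false κ then
      if Cls Q K true κ then tabOf {st | Valid Q K κ st} b else fullOf {st | Valid Q K κ st} b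
    else codeOf {st | Valid Q K κ st} b
  else triv

/-- Values that agree on the queries in `J`. -/
def Sim (J : Set (Ev S)) (v v' : Val S) : Prop :=
  v = v' ∨ ∃ f f', v = Sum.inr f ∧ v' = Sum.inr f' ∧ ∀ q ∈ J, f q = f' q

def StkSim (J : Set (Ev S)) : Stk S → Stk S → Prop :=
  List.Forall₂ (fun x y => x.1 = y.1 ∧ Sim J x.2 y.2)

variable {Q : Sys S} {K : S → Prop}

theorem unpack_triv : unpack (triv : Val S) = fun _ => Cand.top := rfl
theorem Sim.mono {J J' : Set (Ev S)} (h : J' ⊆ J) {v v' : Val S} (hs : Sim J v v') :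
    Sim J' v v' := by
  rcases hs with h1 | ⟨f, f', h1, h2, h3⟩
  · exact Or.inl h1
  · exact Or.inr ⟨f, f', h1, h2, fun q hq => h3 q (h hq)⟩
theorem StkSim.mono {J J' : Set (Ev S)} (h : J' ⊆ J) {st st' : Stk S} (hs : StkSim J st st') :
    StkSim J' st st' := List.Forall₂.imp (fun _ _ hx => ⟨hx.1, hx.2.mono h⟩) hs
theorem StkSim.refl (J : Set (Ev S)) (st : Stk S) : StkSim J st st :=
  List.forall₂_same.2 fun _ _ => ⟨rfl, Or.inl rfl⟩
theorem Sim.toEv_eq {J : Set (Ev S)} {v v' : Val S} (hs : Sim J v v') : toEv v = toEv v' := by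
  rcases hs with rfl | ⟨f, f', rfl, rfl, -⟩ <;> rfl
theorem StkSim.enc_eq {J : Set (Ev S)} {st st' : Stk S} (hs : StkSim J st st') :
    enc st = enc st' := by
  induction hs with
  | nil => rfl
  | cons h _ ih => simp only [enc, h.1, h.2.toEv_eq, ih]

namespace Vals

theorem ssub {α : Type (u + 1)} {s t : Set α} (hs : Small.{u} s) (h : t ⊆ s) : Small.{u} t :=
  small_subset h

theorem obs_sim {J : Set (Ev S)} {v v' : Val S} (hs : Sim J v v') {q : Ev S} (hq : q ∈ J) :
    obs v q = obs v' q := by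
  rcases hs with rfl | ⟨f, f', rfl, rfl, h⟩
  · rfl
  · exact h q hq

theorem sim_getD {J : Set (Ev S)} {st st' : Stk S} (hs : StkSim J st st') (n : ℕ) :
    Sim J (st.getD n (var 0, triv)).2 (st'.getD n (var 0, triv)).2 := by
  induction hs generalizing n with
  | nil => exact Or.inl rfl
  | cons h _ ih =>
    cases n with
    | zero => exact h.2
    | succ n => exact ih n

theorem sim_fst {J : Set (Ev S)} {st st' : Stk S} (hs : StkSim J st st') :
    st.map Prod.fst = st'.map Prod.fst := by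
  induction hs with
  | nil => rfl
  | cons h _ ih => simp only [List.map_cons, h.1, ih]

def qs : Ev S → Set (Ev S)
  | Ev.node _ _ q _ => Set.range q
  | _ => ∅

theorem small_qs (e : Ev S) : Small.{u} (qs e) := by
  cases e <;> unfold qs <;> infer_instance

theorem validW_reach {W : Tm S → Set (Val S)} {st : Stk S} {κ : Tm S}
    (h : ValidW Q K W κ st) : Reach Q K κ := by
  induction st generalizing κ with
  | nil =>
    obtain ⟨s, h1, h2⟩ := h
    exact Reach.sort h1 h2
  | cons x st ih =>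
    obtain ⟨C, D, hc, -, ha, -, -, hv⟩ := h
    exact Reach.pi hc ha (ih hv)

theorem validW_conv {W : Tm S → Set (Val S)} {st : Stk S} {κ κ' : Tm S}
    (h : ValidW Q K W κ st) (hc : Conv κ κ') : ValidW Q K W κ' st := by
  cases st with
  | nil =>
    obtain ⟨s, h1, h2⟩ := h
    exact ⟨s, h1, hc.symm'.trans' h2⟩
  | cons x st =>
    obtain ⟨C, D, h1, h2⟩ := h
    exact ⟨C, D, hc.symm'.trans' h1, h2⟩

theorem validW_local {W W' : Tm S → Set (Val S)} {st : Stk S} {κ : Tm S}
    (hW : ∀ C, Pos Q K κ C → Reach Q K C → W C = W' C) (h : ValidW Q K W κ st) :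
    ValidW Q K W' κ st := by
  induction st generalizing κ with
  | nil => exact h
  | cons x st ih =>
    obtain ⟨C, D, hc, hn, ha, h1, h2, hv⟩ := h
    exact ⟨C, D, hc, hn, ha, fun hr => hW C (Pos.here hc ha (validW_reach hv)) hr ▸ h1 hr, h2,
      ih (fun C' hp => hW C' (Pos.there hc ha hp)) hv⟩

theorem FW_local {W W' : Tm S → Set (Val S)} {κ : Tm S} (hW : ∀ C, Prec Q K C κ → W C = W' C) :
    FW Q K W κ = FW Q K W' κ := by
  unfold FW
  split_ifs with h1 h2 h3
  · have : {st | ValidW Q K W κ st} = {st | ValidW Q K W' κ st} := by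
      ext st
      exact ⟨validW_local fun C hp hr => hW C ⟨h2, h3, hr, hp⟩,
        validW_local fun C hp hr => (hW C ⟨h2, h3, hr, hp⟩).symm⟩
    rw [this]
  all_goals rfl

theorem exists_fix {α : Type*} {β : Type*} [Inhabited β] {r : α → α → Prop} (hw : WellFounded r)
    (F : (α → β) → α → β) (hF : ∀ f g x, (∀ y, r y x → f y = g y) → F f x = F g x) :
    ∃ f, ∀ x, f x = F f x := by
  classical
  refine ⟨hw.fix (fun x rec => F (fun y => if h : r y x then rec y h else default) x), fun x => ?_⟩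
  rw [hw.fix_eq]
  exact hF _ _ _ fun y hy => dif_pos hy

theorem keys_conv (W : Tm S → Set (Val S)) {κ κ' : Tm S} (hc : Conv κ κ') :
    {st | ValidW Q K W κ st} = {st | ValidW Q K W κ' st} := by
  ext st
  exact ⟨fun h => validW_conv h hc, fun h => validW_conv h hc.symm'⟩

end Vals

open Vals

/-- Small support of values. -/
theorem unpack_support (β η : Ev S) : ∃ J : Set (Ev S), Small.{u} J ∧
    ∀ (v v' : Val S) (st st' : Stk S), toEv v = β → Sim J v v' → enc st = η → StkSim J st st' →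
      unpack v st = unpack v' st' := by
  have := small_qs β
  refine ⟨insert η (qs β), inferInstance, ?_⟩
  rintro v v' st st' rfl hv rfl hs
  have he := hs.enc_eq
  rcases hv with rfl | ⟨f, f', rfl, rfl, h⟩
  · rcases v with (_ | _ | _ | ⟨I, pos, q, out⟩) | f
    · rfl
    · rfl
    · show obs (Sum.inl (Ev.tab _ _ _)) (enc st) = obs (Sum.inl (Ev.tab _ _ _)) (enc st')
      rw [he]
    · show out _ _ = out _ _
      rw [sim_fst hs]
      congr 1
      funext i
      exact obs_sim (sim_getD hs _) (Or.inr ⟨i, rfl⟩)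
    · show f (enc st) = f (enc st')
      rw [he]
  · show f (enc st) = f' (enc st')
    rw [← he]
    exact h _ (Or.inl rfl)

theorem VV_eq (hw : WellFounded (Prec Q K)) (κ : Tm S) : VV Q K κ = FW Q K (VV Q K) κ := by
  have h : ∃ W : Tm S → Set (Val S), ∀ κ, W κ = FW Q K W κ :=
    exists_fix hw (FW Q K) (fun _ _ _ h => FW_local h)
  unfold VV
  rw [dif_pos h]
  exact h.choose_spec κ
theorem Valid.conv {κ κ' : Tm S} {st : Stk S} (h : Valid Q K κ st) (hc : Conv κ κ') :
    Valid Q K κ' st := validW_conv h hc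
theorem VV_conv (hw : WellFounded (Prec Q K)) {κ κ' : Tm S} (hc : Conv κ κ') :
    VV Q K κ = VV Q K κ' := by
  rw [VV_eq hw κ, VV_eq hw κ']
  unfold FW
  have e1 : Reach Q K κ = Reach Q K κ' := propext ⟨fun h => h.conv hc, fun h => h.conv hc.symm'⟩
  have e2 : DT Q K κ = DT Q K κ' := propext ⟨fun h => h.conv hc, fun h => h.conv hc.symm'⟩
  have e3 : ∀ p, Cls Q K p κ = Cls Q K p κ' := fun p =>
    propext ⟨fun h => h.conv hc, fun h => h.conv hc.symm'⟩
  rw [keys_conv _ hc, e1, e2, e3, e3]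
theorem pack_conv {κ κ' : Tm S} (hc : Conv κ κ') : pack Q K κ = pack Q K κ' := by
  funext b
  unfold pack Valid
  have e1 : Reach Q K κ = Reach Q K κ' := propext ⟨fun h => h.conv hc, fun h => h.conv hc.symm'⟩
  have e2 : DT Q K κ = DT Q K κ' := propext ⟨fun h => h.conv hc, fun h => h.conv hc.symm'⟩
  have e3 : ∀ p, Cls Q K p κ = Cls Q K p κ' := fun p =>
    propext ⟨fun h => h.conv hc, fun h => h.conv hc.symm'⟩
  rw [keys_conv _ hc, e1, e2, e3, e3]
theorem valid_nil {κ : Tm S} : Valid Q K κ [] ↔ ∃ s, K s ∧ Conv κ (sort s) := Iff.rfl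
theorem VV_dead (hw : WellFounded (Prec Q K)) {κ : Tm S} (h : ¬ (Reach Q K κ ∧ DT Q K κ)) :
    VV Q K κ = {triv} := by
  rw [VV_eq hw, FW, if_neg h]
theorem valid_cons (hw : WellFounded (Prec Q K)) {κ C D a : Tm S} {v : Val S} {st : Stk S}
    (hc : Conv κ (pi C D)) :
    Valid Q K κ ((a, v) :: st) ↔
      Normal a ∧ TyC Q a C ∧ v ∈ VV Q K C ∧ Valid Q K (inst D a) st := by
  constructor
  · rintro ⟨C', D', hc', hn, ha, h1, h2, hv⟩
    obtain ⟨e1, e2⟩ := conv_pi_inj (hc'.symm'.trans' hc)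
    refine ⟨hn, ha.conv e1, ?_, validW_conv hv (e2.inst Conv.rfl)⟩
    rw [← VV_conv hw e1]
    by_cases hr : Reach Q K C'
    · exact h1 hr
    · rw [VV_dead hw (fun h => hr h.1)]
      exact h2 hr
  · rintro ⟨hn, ha, h1, hv⟩
    refine ⟨C, D, hc, hn, ha, fun _ => h1, fun hr => ?_, hv⟩
    rwa [VV_dead hw (fun h => hr h.1)] at h1
theorem Valid.reach {κ : Tm S} {st : Stk S} (h : Valid Q K κ st) : Reach Q K κ := validW_reach h
theorem pack_mem (hw : WellFounded (Prec Q K)) (κ : Tm S) (b : Beh S) :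
    pack Q K κ b ∈ VV Q K κ := by
  rw [VV_eq hw]
  unfold pack FW
  split_ifs
  · exact ⟨b, rfl⟩
  · exact ⟨_, rfl⟩
  · exact ⟨_, rfl⟩
  · rfl
theorem pack_ext {κ : Tm S} {b b' : Beh S} (h : ∀ st, Valid Q K κ st → b st = b' st) :
    pack Q K κ b = pack Q K κ b' := by
  unfold pack
  split_ifs
  · unfold tabOf
    split_ifs
    · congr 2
      funext i
      exact h _ (Subtype.prop _)
    · rfl
  · unfold fullOf
    congr 1
    funext q
    split_ifs with hq
    · exact h _ hq
    · rfl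
  · unfold codeOf
    congr 2
    funext e
    exact propext (forall₂_congr fun st hst => by rw [h st hst])
  · rfl
/-- The three shapes of `pack`. -/
theorem pack_cases (κ : Tm S) :
    (∀ b, pack Q K κ b = triv) ∨ (Cls Q K true κ ∧ ∀ b, ∃ e, pack Q K κ b = Sum.inl e) ∨
      ∀ b, pack Q K κ b = fullOf {st | Valid Q K κ st} b := by
  unfold pack
  split_ifs with h1 h2 h3
  · refine Or.inr (Or.inl ⟨h3, fun b => ?_⟩)
    unfold tabOf
    split_ifs
    · exact ⟨_, rfl⟩
    · exact ⟨_, rfl⟩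
  · exact Or.inr (Or.inr fun _ => rfl)
  · exact Or.inr (Or.inl ⟨h1.2.resolve_left h2, fun b => ⟨_, rfl⟩⟩)
  · exact Or.inl fun _ => rfl

namespace Vals

theorem small_tab (Ks : Set (Stk S)) : Small.{u} (Set.range (tabOf Ks)) := by
  by_cases h : Small.{u} Ks
  · refine ssub (small_range fun val : Shrink.{u} Ks → Cand S =>
      (Sum.inl (Ev.tab (Shrink.{u} Ks) (fun i => enc ((equivShrink.{u} Ks).symm i).1) val) :
        Val S)) ?_
    rintro _ ⟨b, rfl⟩
    exact ⟨_, by rw [tabOf, dif_pos h]⟩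
  · refine ssub (small_single triv) ?_
    rintro _ ⟨b, rfl⟩
    rw [tabOf, dif_neg h]
    rfl

end Vals

theorem small_toEv_VV (hw : WellFounded (Prec Q K)) {κ : Tm S}
    (h : Reach Q K κ → Cls Q K false κ) : Small.{u} (toEv '' VV Q K κ) := by
  rw [VV_eq hw]
  unfold FW
  split_ifs with h1 h2 h3
  · have := small_tab {st | ValidW Q K (VV Q K) κ st}
    infer_instance
  · refine ssub (small_single Ev.nil) ?_
    rintro _ ⟨_, ⟨f, rfl⟩, rfl⟩
    rfl
  · exact absurd (h h1.1) h2
  · infer_instance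

namespace Vals

theorem small_keys_len (hw : WellFounded (Prec Q K)) (n : ℕ) {κ : Tm S} (h : Cls Q K true κ) :
    Small.{u} (enc '' {st | Valid Q K κ st ∧ st.length = n}) := by
  induction n generalizing κ with
  | zero =>
    refine ssub (small_single Ev.nil) ?_
    rintro _ ⟨st, ⟨-, hl⟩, rfl⟩
    rw [List.length_eq_zero_iff.1 hl]
    rfl
  | succ n ih =>
    let I := {x : Tm S × Tm S × Tm S // Conv κ (pi x.1 x.2.1) ∧ TyC Q x.2.2 x.1 ∧
      Reach Q K (inst x.2.1 x.2.2)}
    have h1 : ∀ i : I, Small.{u} (toEv '' VV Q K i.1.1) := fun i =>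
      small_toEv_VV hw (h.pi i.2.1 i.2.2.1 i.2.2.2).2
    have h2 : ∀ i : I, Small.{u} (enc '' {st | Valid Q K (inst i.1.2.1 i.1.2.2) st ∧
        st.length = n}) := fun i => ih (h.pi i.2.1 i.2.2.1 i.2.2.2).1
    refine small_subset (s := ⋃ i : I, Set.image2 (Ev.cons i.1.2.2) (toEv '' VV Q K i.1.1)
      (enc '' {st | Valid Q K (inst i.1.2.1 i.1.2.2) st ∧ st.length = n})) ?_
    rintro _ ⟨st, ⟨hv, hl⟩, rfl⟩
    cases st with
    | nil => simp at hl
    | cons x st =>
      obtain ⟨a, v⟩ := x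
      have hv' := hv
      obtain ⟨C, D, hc, -⟩ := hv'
      obtain ⟨-, ha, hm, hs⟩ := (valid_cons hw hc).1 hv
      exact Set.mem_iUnion.2 ⟨⟨(C, D, a), hc, ha, hs.reach⟩, _, ⟨v, hm, rfl⟩, _,
        ⟨st, ⟨hs, by simpa using hl⟩, rfl⟩, rfl⟩

end Vals

theorem small_keys (hw : WellFounded (Prec Q K)) {κ : Tm S} (h : Cls Q K true κ) :
    Small.{u} (enc '' {st | Valid Q K κ st}) := by
  have := fun n => small_keys_len hw n h
  refine small_subset (s := ⋃ n : ℕ, enc '' {st | Valid Q K κ st ∧ st.length = n}) ?_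
  rintro _ ⟨st, hv, rfl⟩
  exact Set.mem_iUnion.2 ⟨_, st, ⟨hv, rfl⟩, rfl⟩

namespace Vals

theorem vv_inl (hw : WellFounded (Prec Q K)) {C : Tm S} (h : Reach Q K C → Cls Q K true C)
    {v : Val S} (hv : v ∈ VV Q K C) : ∃ e, v = Sum.inl e := by
  rw [VV_eq hw] at hv
  unfold FW at hv
  split_ifs at hv with h1 h2 h3
  · obtain ⟨b, rfl⟩ := hv
    unfold tabOf
    split_ifs
    · exact ⟨_, rfl⟩
    · exact ⟨_, rfl⟩
  · exact absurd (h h1.1) h3
  · obtain ⟨e, rfl⟩ := hv
    exact ⟨e, rfl⟩
  · exact ⟨_, hv⟩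

theorem dec_enc (hw : WellFounded (Prec Q K)) {st : Stk S} {κ : Tm S} (h : Cls Q K false κ)
    (hv : Valid Q K κ st) : dec (enc st) = st := by
  induction st generalizing κ with
  | nil => rfl
  | cons x st ih =>
    obtain ⟨a, v⟩ := x
    have hv' := hv
    obtain ⟨C, D, hc, -⟩ := hv'
    obtain ⟨-, ha, hm, hs⟩ := (valid_cons hw hc).1 hv
    obtain ⟨h1, h2⟩ := h.pi hc ha hs.reach
    obtain ⟨e, rfl⟩ := vv_inl hw h2 hm
    simp only [enc, dec, toEv, ih h1 hs]

theorem small_Ks (hw : WellFounded (Prec Q K)) {κ : Tm S} (h : Cls Q K false κ)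
    (h' : Cls Q K true κ) : Small.{u} {st | Valid Q K κ st} := by
  have := small_keys hw h'
  refine small_subset (s := dec '' (enc '' {st | Valid Q K κ st})) ?_
  exact fun st hst => ⟨_, ⟨st, hst, rfl⟩, dec_enc hw h hst⟩

theorem obs_tab (hw : WellFounded (Prec Q K)) {κ : Tm S} (h : Cls Q K false κ)
    (h' : Cls Q K true κ) (b : Beh S) {st : Stk S} (hst : Valid Q K κ st) :
    obs (tabOf {st | Valid Q K κ st} b) (enc st) = b st := by
  have := small_Ks hw h h'
  rw [tabOf, dif_pos this]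
  have hex : ∃ i : Shrink.{u} {st | Valid Q K κ st},
      enc ((equivShrink.{u} {st | Valid Q K κ st}).symm i).1 = enc st :=
    ⟨equivShrink _ ⟨st, hst⟩, by simp⟩
  unfold obs
  simp only []
  rw [dif_pos hex]
  have e := congrArg dec hex.choose_spec
  rw [dec_enc hw h (Subtype.prop _), dec_enc hw h hst] at e
  rw [e]

theorem unpack_tab (Ks : Set (Stk S)) (b : Beh S) (st : Stk S) :
    unpack (tabOf Ks b) st = obs (tabOf Ks b) (enc st) := by
  unfold tabOf
  split_ifs <;> rfl

end Vals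

/-- Round trip at kinds of even class. -/
theorem rt_full (hw : WellFounded (Prec Q K)) {κ : Tm S} (h : Cls Q K false κ) (b : Beh S)
    {st : Stk S} (hst : Valid Q K κ st) : unpack (pack Q K κ b) st = b st := by
  unfold pack
  rw [if_pos ⟨hst.reach, Or.inl h⟩, if_pos h]
  split_ifs with h'
  · rw [unpack_tab, obs_tab hw h h' b hst]
  · show obs (fullOf _ _) (enc st) = _
    unfold fullOf obs
    simp only []
    rw [dec_enc hw h hst]
    exact if_pos hst

namespace Vals

theorem sim_of_obs (hw : WellFounded (Prec Q K)) {C : Tm S} (h : Reach Q K C → Cls Q K false C)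
    {J : Set (Ev S)} (hJ : Cls Q K true C → enc '' {st | Valid Q K C st} ⊆ J) {v v' : Val S}
    (hv : v ∈ VV Q K C) (hv' : v' ∈ VV Q K C) (ho : ∀ q ∈ J, obs v q = obs v' q) :
    Sim J v v' := by
  rw [VV_eq hw] at hv hv'
  unfold FW at hv hv'
  split_ifs at hv hv' with h1 h2 h3
  · obtain ⟨b, rfl⟩ := hv
    obtain ⟨b', rfl⟩ := hv'
    left
    have hb : ∀ st, Valid Q K C st → b st = b' st := fun st hst => by
      rw [← obs_tab hw h2 h3 b hst, ← obs_tab hw h2 h3 b' hst]
      exact ho _ (hJ h3 ⟨st, hst, rfl⟩)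
    unfold tabOf
    split_ifs
    · congr 2
      funext i
      exact hb _ (Subtype.prop _)
    · rfl
  · obtain ⟨f, rfl⟩ := hv
    obtain ⟨f', rfl⟩ := hv'
    exact Or.inr ⟨f, f', rfl, rfl, ho⟩
  · exact absurd (h h1.1) h2
  · exact Or.inl (hv.trans hv'.symm)

theorem stkSim_of_obs (hw : WellFounded (Prec Q K)) {J : Set (Ev S)}
    (hJ : ∀ C, Cls Q K true C → enc '' {st | Valid Q K C st} ⊆ J) {st st' : Stk S} {κ : Tm S}
    (h : Cls Q K true κ) (hv : Valid Q K κ st) (hv' : Valid Q K κ st')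
    (hs : st.map Prod.fst = st'.map Prod.fst)
    (ho : ∀ n, ∀ q ∈ J, obs (st.getD n (var 0, triv)).2 q = obs (st'.getD n (var 0, triv)).2 q) :
    StkSim J st st' := by
  induction st generalizing κ st' with
  | nil =>
    cases st' with
    | nil => exact List.Forall₂.nil
    | cons x st' => simp at hs
  | cons x st ih =>
    cases st' with
    | nil => simp at hs
    | cons x' st' =>
      obtain ⟨a, v⟩ := x
      obtain ⟨a', v'⟩ := x'
      simp only [List.map_cons, List.cons.injEq] at hs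
      obtain ⟨rfl, hs⟩ := hs
      have hv'' := hv
      obtain ⟨C, D, hc, -⟩ := hv''
      obtain ⟨-, ha, hm, h1⟩ := (valid_cons hw hc).1 hv
      obtain ⟨-, -, hm', h1'⟩ := (valid_cons hw hc).1 hv'
      obtain ⟨h2, h3⟩ := h.pi hc ha h1.reach
      exact List.Forall₂.cons ⟨rfl, sim_of_obs hw h3 (hJ C) hm hm' (ho 0)⟩
        (ih h2 h1 h1' hs fun n => ho (n + 1))

end Vals

/-- Round trip at kinds of odd class, for behaviours with small support. -/
theorem rt_code (hw : WellFounded (Prec Q K)) {κ : Tm S} (h : Cls Q K true κ) (b : Beh S)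
    {J : Set (Ev S)} (hJ : Small.{u} J)
    (hb : ∀ st st', Valid Q K κ st → Valid Q K κ st' → StkSim J st st' → b st = b st')
    {st : Stk S} (hst : Valid Q K κ st) : unpack (pack Q K κ b) st = b st := by
  classical
  by_cases h' : Cls Q K false κ
  · exact rt_full hw h' b hst
  unfold pack
  rw [if_pos ⟨hst.reach, Or.inr h⟩, if_neg h']
  refine Classical.epsilon_spec
    (p := fun e : Ev S => ∀ st ∈ {st | Valid Q K κ st}, unpack (Sum.inl e) st = b st) ?_ st hst
  have := fun C : {C // Cls Q K true C} => small_keys hw C.2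
  let J' : Set (Ev S) := J ∪ ⋃ C : {C // Cls Q K true C}, enc '' {st | Valid Q K C.1 st}
  have : Small.{u} J' := inferInstance
  let prof : Stk S → ℕ × Shrink.{u} J' → Cand S := fun st i =>
    obs (st.getD i.1 (var 0, triv)).2 ((equivShrink.{u} J').symm i.2).1
  refine ⟨Ev.node (ℕ × Shrink.{u} J') Prod.fst (fun i => ((equivShrink.{u} J').symm i.2).1)
    (fun syn g => if hx : ∃ st, Valid Q K κ st ∧ st.map Prod.fst = syn ∧ prof st = g then
      b hx.choose else Cand.top), fun st hst => ?_⟩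
  have hx : ∃ st', Valid Q K κ st' ∧ st'.map Prod.fst = st.map Prod.fst ∧ prof st' = prof st :=
    ⟨st, hst, rfl, rfl⟩
  show (if hx : ∃ st', Valid Q K κ st' ∧ st'.map Prod.fst = st.map Prod.fst ∧ prof st' = prof st
    then b hx.choose else Cand.top) = b st
  rw [dif_pos hx]
  obtain ⟨h1, h2, h3⟩ := hx.choose_spec
  refine hb _ _ h1 hst ((stkSim_of_obs (J := J') hw ?_ h h1 hst h2 ?_).mono Set.subset_union_left)
  · exact fun C hC => (Set.subset_iUnion (fun C : {C // Cls Q K true C} =>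
      enc '' {st | Valid Q K C.1 st}) ⟨C, hC⟩).trans Set.subset_union_right
  · intro n q hq
    have := congrFun h3 (n, equivShrink J' ⟨q, hq⟩)
    simpa [prof] using this

end Vale.Agent.P340
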