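import Vale.Agent.P340.TypB
import Vale.Agent.P340.Graph

/-! P340: atoms, base constants, wrappers along paths, consistency of the base system. -/

namespace Vale.Agent.P340

universe u
open Tm
variable {S : Type u}

/-- The true atom of a sort. -/
def atT (s : S) : Tm S := con (sort s) (var 0)
/-- The false atom of a sort. -/
def atF (s : S) : Tm S := con (sort s) (var 1)
/-- The inhabitant of the true atom. -/
def dum (s : S) : Tm S := con (atT s) (var 0)

/-- Simple types over the atoms, with their truth values. -/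
inductive Simp : Tm S → Bool → Prop
  | t (s : S) : Simp (atT s) true
  | f (s : S) : Simp (atF s) false
  | pi {A B : Tm S} {a b : Bool} : Simp A a → Simp B b → Simp (pi A B) (!a || b)

/-- Atoms. -/
def Ca (Q : Sys S) (A t : Tm S) : Prop := ∃ s, Q.rz s ∧ A = sort s ∧ (t = var 0 ∨ t = var 1)

/-- Base constants: atoms and one inhabitant of every true simple type. -/
def Cb (Q : Sys S) (A t : Tm S) : Prop :=
  Ca Q A t ∨ (t = var 0 ∧ Simp A true ∧ ∃ s, Ty Q (Ca Q) [] A (sort s))

/-- Products that end in a sort. -/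
inductive SortTail : Tm S → Prop
  | sort (s : S) : SortTail (sort s)
  | pi (A : Tm S) {B : Tm S} : SortTail B → SortTail (pi A B)

/-- The wrapper of a type along a path, with answer types `ans`. -/
def Wr (ans : S → Tm S) : List (Bool × S) → Tm S → Tm S
  | [], X => X
  | (false, a) :: π, X => pi (atT a) (lift (Wr ans π X))
  | (true, b) :: π, X => pi (Wr ans π X) (ans b)

/-- Dummy abstractions along a path. -/
def lams : List (Bool × S) → Tm S → Tm S
  | [], M => M
  | x :: π, M => lam (atT x.2) (lift (lams π M))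

/-- Dummy applications along a path. -/
def apps : List (Bool × S) → Tm S → Tm S
  | [], e => e
  | x :: π, e => apps π (app e (dum x.2))

variable {Q : Sys S} {C : Tm S → Tm S → Prop}

theorem Cb.ty {A t : Tm S} (hC : ∀ A t, Cb Q A t → C A t) (h : Cb Q A t) :
    Ty Q C [] (con A t) A := by
  rcases h with ⟨s, hs, rfl, ht⟩ | ⟨ht, hA, s, hs⟩
  · exact Ty.conS (hC _ _ (Or.inl ⟨s, hs, rfl, ht⟩)) hs
  · exact Ty.conT (hC _ _ (Or.inr ⟨ht, hA, s, hs⟩)) (hs.monoC fun _ _ h => hC _ _ (Or.inl h))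
theorem ty_atT (hC : ∀ A t, Cb Q A t → C A t) {s : S} (hs : Q.rz s) {Γ : List (Tm S)}
    (hΓ : Wf Q C Γ) : Ty Q C Γ (atT s) (sort s) :=
  (Cb.ty hC (Or.inl ⟨s, hs, rfl, Or.inl rfl⟩)).ofClosed hΓ
theorem ty_atF (hC : ∀ A t, Cb Q A t → C A t) {s : S} (hs : Q.rz s) {Γ : List (Tm S)}
    (hΓ : Wf Q C Γ) : Ty Q C Γ (atF s) (sort s) :=
  (Cb.ty hC (Or.inl ⟨s, hs, rfl, Or.inr rfl⟩)).ofClosed hΓ
theorem ty_dum (hC : ∀ A t, Cb Q A t → C A t) {s : S} (hs : Q.rz s) {Γ : List (Tm S)}
    (hΓ : Wf Q C Γ) : Ty Q C Γ (dum s) (atT s) :=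
  (Cb.ty hC (Or.inr ⟨rfl, Simp.t s, s, Ty.conS ⟨s, hs, rfl, Or.inl rfl⟩ hs⟩)).ofClosed hΓ

theorem Wr_append (ans : S → Tm S) (π π' : List (Bool × S)) (X : Tm S) :
    Wr ans (π' ++ π) X = Wr ans π' (Wr ans π X) := by
  induction π' with
  | nil => rfl
  | cons x π' ih => obtain ⟨_ | _, a⟩ := x <;> simp only [List.cons_append, Wr, ih]
theorem Wr_subst {ans : S → Tm S} (hans : ∀ b, Bd 0 (ans b)) (π : List (Bool × S)) (X : Tm S)
    (σ : ℕ → Tm S) : subst σ (Wr ans π X) = Wr ans π (subst σ X) := by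
  induction π with
  | nil => rfl
  | cons x π ih =>
    obtain ⟨_ | _, a⟩ := x
    · rw [Wr, Wr, subst_pi, lift_subst_up, ih]; rfl
    · rw [Wr, Wr, subst_pi, ih, subst_closed (hans a)]
theorem Wr_lift {ans : S → Tm S} (hans : ∀ b, Bd 0 (ans b)) (π : List (Bool × S)) (X : Tm S) :
    lift (Wr ans π X) = Wr ans π (lift X) := by
  rw [lift, lift, ren_eq_subst, ren_eq_subst, Wr_subst hans]
theorem Wr_conv (ans : S → Tm S) (π : List (Bool × S)) {X X' : Tm S} (h : Conv X X') :
    Conv (Wr ans π X) (Wr ans π X') := by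
  induction π with
  | nil => exact h
  | cons x π ih =>
    obtain ⟨_ | _, a⟩ := x
    · exact Conv.pi Conv.rfl ih.lift
    · exact Conv.pi ih Conv.rfl
theorem Wr_bd {ans : S → Tm S} (hans : ∀ b, Bd 0 (ans b)) (π : List (Bool × S)) {X : Tm S}
    {k : ℕ} (h : Bd k X) : Bd k (Wr ans π X) := by
  induction π with
  | nil => exact h
  | cons x π ih =>
    obtain ⟨_ | _, a⟩ := x
    · exact ⟨trivial, Typ.bd_lift ih⟩
    · refine ⟨ih, ?_⟩
      rw [← ren_closed (hans a) id]
      exact Typ.bd_ren (hans a) fun _ hn => absurd hn (Nat.not_lt_zero _)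
theorem bd_atF (b : S) : Bd 0 (atF b) := trivial
theorem Wr_ty (hN : Nice Q) (hC : ∀ A t, Cb Q A t → C A t) {ans : S → Tm S} {ok : S → Prop}
    (hans : ∀ b, ok b → Ty Q C [] (ans b) (sort b)) {u v : S} {π : List (Bool × S)}
    (hπ : PV Q ok u π v) {Γ : List (Tm S)} {X : Tm S} (hX : Ty Q C Γ X (sort u)) :
    Ty Q C Γ (Wr ans π X) (sort v) := by
  induction hπ with
  | nil => exact hX
  | cod _ hr ih =>
    have h1 := ty_atT hC (hN.rz _ _ _ hr).1 hX.wf
    exact Ty.pi h1 (Ty.weak ih h1) hr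
  | dom _ hr hb ih => exact Ty.pi ih ((hans _ hb).ofClosed (Wf.cons ih)) hr
theorem SortTail.ren {X : Tm S} (h : SortTail X) (f : ℕ → ℕ) : SortTail (ren f X) := by
  induction h generalizing f with
  | sort s => exact SortTail.sort s
  | pi A _ ih => exact SortTail.pi _ (ih _)
theorem Wr_sortTail {ans : S → Tm S} {ok : S → Prop} (hans : ∀ b, ok b → SortTail (ans b))
    {u v : S} {π : List (Bool × S)} (hπ : PV Q ok u π v) {X : Tm S}
    (h : SortTail X ∨ par π = true) : SortTail (Wr ans π X) := by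
  induction hπ with
  | nil => exact h.resolve_right Bool.false_ne_true
  | cod _ _ ih => exact SortTail.pi _ ((ih (by simpa [par] using h)).ren _)
  | dom _ _ hb _ => exact SortTail.pi _ (hans _ hb)

theorem lams_subst (π : List (Bool × S)) (M : Tm S) (σ : ℕ → Tm S) :
    subst σ (lams π M) = lams π (subst σ M) := by
  induction π with
  | nil => rfl
  | cons x π ih => rw [lams, lams, subst_lam, lift_subst_up, ih]; rfl
theorem apps_subst (π : List (Bool × S)) (M : Tm S) (σ : ℕ → Tm S) :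
    subst σ (apps π M) = apps π (subst σ M) := by
  induction π generalizing M with
  | nil => rfl
  | cons x π ih => exact ih _
theorem apps_conv (π : List (Bool × S)) {M M' : Tm S} (h : Conv M M') :
    Conv (apps π M) (apps π M') := by
  induction π generalizing M M' with
  | nil => exact h
  | cons x π ih => exact ih (Conv.app h Conv.rfl)
theorem lams_conv (π : List (Bool × S)) {M M' : Tm S} (h : Conv M M') :
    Conv (lams π M) (lams π M') := by
  induction π with
  | nil => exact h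
  | cons x π ih => exact Conv.lam Conv.rfl ih.lift
theorem apps_lams (π : List (Bool × S)) (M : Tm S) : Conv (apps π (lams π M)) M := by
  induction π with
  | nil => exact Conv.rfl
  | cons x π ih =>
    have h := (Step.beta (atT x.2) (lift (lams π M)) (dum x.2)).conv
    rw [lift_inst] at h
    exact (apps_conv π h).trans' ih
theorem lams_ty (hN : Nice Q) (hC : ∀ A t, Cb Q A t → C A t) (ans : S → Tm S) {u v : S}
    {π : List (Bool × S)} (hπ : PV Q (fun _ => False) u π v) {Γ : List (Tm S)} {X M : Tm S}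
    (hX : Ty Q C Γ X (sort u)) (hM : Ty Q C Γ M X) : Ty Q C Γ (lams π M) (Wr ans π X) := by
  induction hπ with
  | nil => exact hM
  | cod h hr ih =>
    exact Ty.lam (Ty.weak ih (ty_atT hC (hN.rz _ _ _ hr).1 hX.wf))
      (Wr_ty hN hC (ans := ans) (fun _ h => h.elim) (PV.cod h hr) hX)
  | dom _ _ hb _ => exact hb.elim
theorem apps_ty (hN : Nice Q) (hC : ∀ A t, Cb Q A t → C A t) (ans : S → Tm S) {u v : S}
    {π : List (Bool × S)} (hπ : PV Q (fun _ => False) u π v) {Γ : List (Tm S)} {X e : Tm S}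
    (he : Ty Q C Γ e (Wr ans π X)) : Ty Q C Γ (apps π e) X := by
  induction hπ generalizing e with
  | nil => exact he
  | cod h hr ih =>
    have h1 := Ty.app he (ty_dum hC (hN.rz _ _ _ hr).1 he.wf)
    rw [lift_inst] at h1
    exact ih h1
  | dom _ _ hb _ => exact hb.elim

namespace Wrap

/-- The truth value of a simple type. -/
def val : Tm S → Bool
  | con _ (var 0) => true
  | pi A B => !val A || val B
  | _ => false

theorem val_eq {A : Tm S} {a : Bool} (h : Simp A a) : val A = a := by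
  induction h with
  | t s => rfl
  | f s => rfl
  | pi _ _ ih ih' => rw [val, ih, ih']

theorem simp_bd {A : Tm S} {a : Bool} (h : Simp A a) (k : ℕ) : Bd k A := by
  induction h generalizing k with
  | t s => trivial
  | f s => trivial
  | pi _ _ ih ih' => exact ⟨ih _, ih' _⟩

theorem simp_normal {A : Tm S} {a : Bool} (h : Simp A a) : Normal A := by
  induction h with
  | t s => exact normal_con _ _
  | f s => exact normal_con _ _
  | pi _ _ ih ih' => exact normal_pi.2 ⟨ih, ih'⟩

theorem simp_pi {A B : Tm S} {c : Bool} (h : Simp (pi A B) c) :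
    ∃ a b, Simp A a ∧ Simp B b ∧ c = (!a || b) := by
  cases h with
  | pi h h' => exact ⟨_, _, h, h', rfl⟩

theorem not_tail {A : Tm S} {a : Bool} (h : Simp A a) : ¬ SortTail A := by
  induction h with
  | t s => intro h; cases h
  | f s => intro h; cases h
  | pi _ _ _ ih => intro h; cases h with | pi _ h => exact ih h

theorem tail_step {A B : Tm S} (h : SortTail A) (hs : Step A B) : SortTail B := by
  induction h generalizing B with
  | sort s => cases hs
  | pi A h ih =>
    cases hs with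
    | piL _ _ => exact SortTail.pi _ h
    | piR _ hs => exact SortTail.pi _ (ih hs)

theorem tail_red {A B : Tm S} (h : SortTail A) (hs : Red A B) : SortTail B :=
  Conf.red_pres SortTail (fun _ _ => tail_step) hs h

theorem tail_subst {A : Tm S} (h : SortTail A) (σ : ℕ → Tm S) : SortTail (subst σ A) := by
  induction h generalizing σ with
  | sort s => exact SortTail.sort s
  | pi A _ ih => exact SortTail.pi _ (ih _)

theorem lk_simp {Γ : List (Tm S)} {n : ℕ} {A : Tm S} (h : Lk Γ n A)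
    (hΓ : ∀ B ∈ Γ, Simp B true) : Simp A true := by
  induction h with
  | zero A Γ =>
    have h1 := hΓ A List.mem_cons_self
    rwa [lift_closed (simp_bd h1 0)]
  | succ B _ ih =>
    have h1 := ih fun B hB => hΓ B (List.mem_cons_of_mem _ hB)
    rwa [lift_closed (simp_bd h1 0)]

/-- Types equal, up to reduction, to a true simple type or to a product ending in a sort. -/
def Ok (T : Tm S) : Prop := ∃ T', Conv T T' ∧ (Simp T' true ∨ SortTail T')

theorem Ok.simp {T : Tm S} (h : Ok T) {b : Bool} (hT : Simp T b) : b = true := by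
  obtain ⟨T', h1, h2 | h2⟩ := h
  · rw [← val_eq hT, (simp_normal hT).eq_of_conv (simp_normal h2) h1, val_eq h2]
  · exact absurd (tail_red h2 ((simp_normal hT).red_of_conv h1.symm')) (not_tail hT)

theorem sound (hC : ∀ A t, C A t → Simp A true ∨ SortTail A) (M : Tm S) (hM : Normal M)
    {Γ : List (Tm S)} (hΓ : ∀ B ∈ Γ, Simp B true) {T : Tm S} (h : Ty Q C Γ M T) :
    (Neut M → Ok T) ∧ ∀ b, Simp T b → b = true := by
  have aux : ∀ {M T : Tm S}, Ok T → (Neut M → Ok T) ∧ ∀ b, Simp T b → b = true :=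
    fun h => ⟨fun _ => h, fun _ => h.simp⟩
  induction M generalizing Γ T with
  | var n =>
    obtain ⟨A, h1, h2⟩ := gen_var h
    exact aux ⟨A, h2, Or.inl (lk_simp h1 hΓ)⟩
  | sort s =>
    obtain ⟨t, _, h2⟩ := gen_sort h
    exact aux ⟨_, h2, Or.inr (SortTail.sort t)⟩
  | pi A B _ _ =>
    obtain ⟨_, _, t, _, _, _, h2⟩ := gen_pi h
    exact aux ⟨_, h2, Or.inr (SortTail.sort t)⟩
  | con A t _ _ => exact aux ⟨A, (gen_con h).2.1, hC _ _ (gen_con h).1⟩
  | app M N ihM ihN =>
    obtain ⟨h1, h2, h3⟩ := normal_app.1 hM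
    obtain ⟨A, B, h4, h5, h6⟩ := gen_app h
    obtain ⟨T', h7, h8 | h8⟩ := (ihM h1 hΓ h4).1 h3
    · obtain ⟨A', B', rfl, hA, hB⟩ := red_pi_inv ((simp_normal h8).red_of_conv h7)
      obtain ⟨a, b, ha, hb, hab⟩ := simp_pi h8
      obtain rfl := (ihN h2 hΓ (h5.red_type hA)).2 a ha
      obtain rfl : true = b := hab
      refine aux ⟨B', h6.trans' ?_, Or.inl hb⟩
      rw [← inst_closed (simp_bd hb 0) N]
      exact Conv.inst hB.conv Conv.rfl
    · obtain ⟨P, h9, h10⟩ := h7.join
      obtain ⟨A', B', rfl, _, hB⟩ := red_pi_inv h9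
      cases tail_red h8 h10 with
      | pi _ h11 =>
        exact aux ⟨_, h6.trans' (Conv.inst hB.conv Conv.rfl), Or.inr (tail_subst h11 _)⟩
  | lam A M _ ihM =>
    refine ⟨fun h1 => (by cases h1), fun c hc => ?_⟩
    obtain ⟨h1, h2⟩ := normal_lam.1 hM
    obtain ⟨B, _, h3, _, h4⟩ := gen_lam h
    obtain ⟨A', B', rfl, hA, hB⟩ := red_pi_inv ((simp_normal hc).red_of_conv h4.symm')
    obtain rfl := h1.red_eq hA
    obtain ⟨a, b, ha, hb, rfl⟩ := simp_pi hc
    cases a
    · rfl
    · exact (ihM h2 (List.forall_mem_cons.2 ⟨ha, hΓ⟩) (h3.red_type hB)).2 b hb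

variable (Q C) in
/-- The sort `u` has an inhabited false simple type. -/
def Inv (u : S) : Prop :=
  ∃ X M, Simp X false ∧ Ty Q (Ca Q) [] X (sort u) ∧ Ty Q C [] M X

theorem inv_start {t : S} (ht : Q.rz t) {M : Tm S} (hM : Ty Q C [] M (atF t)) : Inv Q C t :=
  ⟨_, M, Simp.f t, Ty.conS ⟨t, ht, rfl, Or.inr rfl⟩ ht, hM⟩

theorem Inv.cod (hN : Nice Q) (hC : ∀ A t, Cb Q A t → C A t) {a u w : S} (hr : Q.rule a u w)
    (h : Inv Q C u) : Inv Q C w := by
  obtain ⟨X, M, h1, h2, h3⟩ := h
  have ha := (hN.rz _ _ _ hr).1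
  have h4 : Ty Q (Ca Q) [] (atT a) (sort a) := Ty.conS ⟨a, ha, rfl, Or.inl rfl⟩ ha
  have h5 := Ty.pi h4 (h2.ofClosed (Wf.cons h4)) hr
  exact ⟨_, lam (atT a) M, Simp.pi (Simp.t a) h1, h5,
    Ty.lam (h3.ofClosed (Wf.cons (ty_atT hC ha Wf.nil)))
      (h5.monoC fun _ _ h => hC _ _ (Or.inl h))⟩

theorem Inv.dom (hN : Nice Q) (hC : ∀ A t, Cb Q A t → C A t) {u b w : S} (hr : Q.rule u b w)
    (h : Inv Q C u) : ∃ M', Ty Q C [] M' (atF b) := by
  obtain ⟨X, M, h1, h2, h3⟩ := h
  have hb := (hN.rz _ _ _ hr).2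
  have h4 : Ty Q (Ca Q) [] (atF b) (sort b) := Ty.conS ⟨b, hb, rfl, Or.inr rfl⟩ hb
  exact ⟨_, Ty.app (Cb.ty hC (Or.inr ⟨rfl, Simp.pi h1 (Simp.f b), w,
    Ty.pi h2 (h4.ofClosed (Wf.cons h2)) hr⟩)) h3⟩

theorem Inv.path (hN : Nice Q) (hC : ∀ A t, Cb Q A t → C A t) {ok : S → Prop} {u v : S}
    {π : List (Bool × S)} (hπ : PV Q ok u π v) (h : Inv Q C u) : Inv Q C v := by
  induction hπ with
  | nil => exact h
  | cod _ hr ih => exact ih.cod hN hC hr
  | dom _ hr _ ih =>
    obtain ⟨M, hM⟩ := ih.dom hN hC hr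
    exact (inv_start (hN.rz _ _ _ hr).2 hM).cod hN hC hr

end Wrap

/-- No closed inhabitant of a false atom when all constants have true simple types or types
that end in a sort. -/
theorem base_consistent (hN : Nice Q) (hC : ∀ A t, C A t → Simp A true ∨ SortTail A) (b : S)
    (M : Tm S) : ¬ Ty Q C [] M (atF b) := fun h => by
  obtain ⟨N, h1, h2⟩ := hN.wn _ _ _ h.toAll
  exact Bool.false_ne_true
    ((Wrap.sound hC N h2 (fun _ h => by cases h) (h.red h1)).2 _ (Simp.f b))

/-- Storing: an inhabitant of one false answer atom gives an inhabitant of every other one. -/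
theorem store (hN : Nice Q) (hC : ∀ A t, Cb Q A t → C A t) {K : S → Prop} (hR : Rich Q K)
    {t b : S} (ht : AnsS Q K t) (hb : AnsS Q K b) {M : Tm S} (hM : Ty Q C [] M (atF t)) :
    ∃ M', Ty Q C [] M' (atF b) := by
  obtain ⟨v, w, _, hw, hr⟩ := ht
  obtain ⟨v', w', hv', _, hr'⟩ := hb
  obtain ⟨π, hπ, _⟩ := hR.2 w v' false hw hv'
  exact (((Wrap.inv_start (hN.rz _ _ _ hr).2 hM).cod hN hC hr).path hN hC hπ).dom hN hC hr'

end Vale.Agent.P340
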